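import Vale.Agent.P124.H186.T7

/-!
P124 (helper510), piece T10 of helper186's specification: the final assembly, with the pieces
T1, T2, T3a, T6, T8, T9 as hypotheses in exactly the form of the specification.
-/

open scoped NNReal ZeroAtInfty
open Filter Topology TopologicalSpace

namespace P124H186

namespace T10

/-- statement of T1 -/
def StT1 : Prop := ∃ (W : Type) (_ : MetricSpace W) (_ : Nonempty W), KatProp W

/-- `E` is not complemented in any `C(K)` -/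
def NotComp (E : Type) [NormedAddCommGroup E] [NormedSpace ℝ E] : Prop :=
  ∀ (K : Type) [TopologicalSpace K] [CompactSpace K] (T : E →L[ℝ] C(K, ℝ))
    (S : C(K, ℝ) →L[ℝ] E), S.comp T ≠ ContinuousLinearMap.id ℝ E

/-- statement of T2 -/
def StT2 : Prop := ∃ (E : Type) (_ : NormedAddCommGroup E) (_ : NormedSpace ℝ E)
    (_ : CompleteSpace E) (Ed : Set E) (ec : ℕ → E),
    BallPropOn Ed ∧ (0 : E) ∈ Ed ∧ (∀ i, ec i ∈ Ed) ∧ DenseRange ec ∧ NotComp E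

/-- statement of T3a -/
def StT3a : Prop := ∃ zc : ℕ → Z, (∀ i, FinDep (zc i)) ∧ DenseRange zc

/-- statement of T6 -/
def StT6 : Prop := ∀ (W : Type) [MetricSpace W] [Nonempty W], KatProp W →
    ∀ (E : Type) [NormedAddCommGroup E] [NormedSpace ℝ E] (Ed : Set E), BallPropOn Ed →
    (0 : E) ∈ Ed → ∀ (ec : ℕ → E), (∀ i, ec i ∈ Ed) →
    ∀ (zc : ℕ → Z), (∀ i, FinDep (zc i)) → Nonempty (Play W E ec zc)

/-- statement of T8 (for the spaces used) -/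
def StT8 : Prop := ∀ {Y E Z : Type} [MetricSpace Y] [NormedAddCommGroup E] [NormedSpace ℝ E]
    [NormedAddCommGroup Z] [NormedSpace ℝ Z] (y₀ : Y) (h : (Y × E) × Y ≃ (Y × E) × Z) (L : ℝ≥0),
    LipschitzWith L h → LipschitzWith L h.symm → h ((y₀, 0), y₀) = ((y₀, 0), 0) →
    ∀ (ρ : Z → Y × E), (∀ m z, (h.symm (m, z)).1 = ρ z) →
    ∃ (Φ : (E × C₀(ℕ × ℕ, Z)) ≃ C₀(ℕ × ℕ, Z)) (L' : ℝ≥0),
      LipschitzWith L' Φ ∧ LipschitzWith L' Φ.symm

/-- statement of T9a -/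
def StT9a : Prop := ∀ {E : Type} [NormedAddCommGroup E] [NormedSpace ℝ E] [CompleteSpace E],
    NotComp E → IsEmpty ((E × C₀(ℕ × ℕ, Z)) ≃L[ℝ] C₀(ℕ × ℕ, Z))

/-- statement of T9b -/
def StT9b : Prop := SeparableSpace (C₀(ℕ × ℕ, Z)) ∧ CompleteSpace (C₀(ℕ × ℕ, Z))

/-- a Lipschitz equivalence gives the two-sided estimate with positive constants -/
theorem bounds_of_lipschitz {X Y : Type*} [NormedAddCommGroup X] [NormedAddCommGroup Y]
    (f : X ≃ Y) (L : ℝ≥0) (hf : LipschitzWith L f) (hf' : LipschitzWith L f.symm) :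
    ∃ c C : ℝ, 0 < c ∧ c ≤ C ∧ ∀ x x' : X,
      c * ‖x - x'‖ ≤ ‖f x - f x'‖ ∧ ‖f x - f x'‖ ≤ C * ‖x - x'‖ := by
  have hL : (0 : ℝ) < (L : ℝ) + 1 := by positivity
  have h1 : (1 : ℝ) ≤ (L : ℝ) + 1 := by
    have : (0 : ℝ) ≤ (L : ℝ) := L.2
    linarith
  refine ⟨((L : ℝ) + 1)⁻¹, (L : ℝ) + 1, inv_pos.2 hL, ?_, fun x x' => ⟨?_, ?_⟩⟩
  · exact le_trans (inv_le_one_of_one_le₀ h1) h1
  · rw [inv_mul_le_iff₀ hL]
    have h := hf'.dist_le_mul (f x) (f x')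
    rw [Equiv.symm_apply_apply, Equiv.symm_apply_apply, dist_eq_norm, dist_eq_norm] at h
    have := norm_nonneg (f x - f x')
    linarith
  · have h := hf.dist_le_mul x x'
    rw [dist_eq_norm, dist_eq_norm] at h
    have := norm_nonneg (x - x')
    linarith

/-- **T10**: the final assembly -/
theorem main_of (h1 : StT1) (h2 : StT2) (h3 : StT3a) (h6 : StT6) (h8 : StT8) (h9a : StT9a)
    (h9b : StT9b) :
    ∃ (X Y : Type) (_ : NormedAddCommGroup X) (_ : NormedSpace ℝ X) (_ : CompleteSpace X)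
      (_ : SeparableSpace X) (_ : NormedAddCommGroup Y) (_ : NormedSpace ℝ Y)
      (_ : CompleteSpace Y) (_ : SeparableSpace Y),
      (∃ (f : X ≃ Y) (c C : ℝ), 0 < c ∧ c ≤ C ∧ ∀ x x' : X,
        c * ‖x - x'‖ ≤ ‖f x - f x'‖ ∧ ‖f x - f x'‖ ≤ C * ‖x - x'‖) ∧
      ¬ ∃ T : X →L[ℝ] Y, Function.Bijective T := by
  obtain ⟨W, _, _, hW⟩ := h1
  obtain ⟨E, _, _, _, Ed, ec, hEd, h0, hec, hecd, hE⟩ := h2
  obtain ⟨zc, hzc, hzcd⟩ := h3
  obtain ⟨p⟩ := h6 W hW E Ed hEd h0 ec hec zc hzc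
  obtain ⟨Y, _, y₀, h, L, ρ, hL, hL', hy, hρ⟩ := T7_limit W E ec hecd zc hzcd p
  obtain ⟨Φ, L', hΦ, hΦ'⟩ := h8 y₀ h L hL hL' hy ρ hρ
  obtain ⟨hs, hc⟩ := h9b
  have hsE : SeparableSpace E := ⟨⟨Set.range ec, Set.countable_range ec, hecd⟩⟩
  refine ⟨E × C₀(ℕ × ℕ, Z), C₀(ℕ × ℕ, Z), inferInstance, inferInstance, inferInstance,
    inferInstance, inferInstance, inferInstance, hc, hs, ?_, ?_⟩
  · obtain ⟨c, C, hc0, hcC, hb⟩ := bounds_of_lipschitz Φ L' hΦ hΦ'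
    exact ⟨Φ, c, C, hc0, hcC, hb⟩
  · rintro ⟨T, hT⟩
    exact (h9a hE).false (ContinuousLinearEquiv.ofBijective T
      (LinearMap.ker_eq_bot.2 hT.1) (LinearMap.range_eq_top.2 hT.2))

end T10

end P124H186
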