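import Vale.Agent.P124.H854.T2b

/-!
P124, piece T2 of helper186's Spec (helper854): the Banach space `E`.
-/

open Filter Topology TopologicalSpace

namespace P124H186

/-- **T2** the Banach space E (closure of ⋃ F_N in bounded functions on ℕ):
complete, `ec` dense sequence in `Ed`, exact ball property on `Ed`, and E is not complemented
in any C(K). -/
theorem T2_space : ∃ (E : Type) (_ : NormedAddCommGroup E) (_ : NormedSpace ℝ E)
    (_ : CompleteSpace E) (Ed : Set E) (ec : ℕ → E),
    BallPropOn Ed ∧ (0 : E) ∈ Ed ∧ (∀ i, ec i ∈ Ed) ∧ DenseRange ec ∧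
    (∀ (K : Type) [TopologicalSpace K] [CompactSpace K] (T : E →L[ℝ] C(K, ℝ))
      (S : C(K, ℝ) →L[ℝ] E), S.comp T ≠ ContinuousLinearMap.id ℝ E) :=
  T2.T2_space'

end P124H186
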