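import Vale.Agent.P124.H186.Defs

/-!
P124 (helper58): piece T3 of the spec of helper186:
hedging in `Z = C(Hilbert cube)` and density of the finitely dependent functions.
-/

open TopologicalSpace

namespace P124H186

theorem FinDep.mono {z : Z} {N M : ℕ} (h : ∀ q q' : Q, (∀ i < N, q i = q' i) → z q = z q')
    (hNM : N ≤ M) : ∀ q q' : Q, (∀ i < M, q i = q' i) → z q = z q' :=
  fun q q' hq => h q q' fun i hi => hq i (lt_of_lt_of_le hi hNM)

theorem exists_common (n : ℕ) (z : ℕ → Z) (hz : ∀ k ≤ n, FinDep (z k)) :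
    ∃ N : ℕ, ∀ k ≤ n, ∀ q q' : Q, (∀ i < N, q i = q' i) → z k q = z k q' := by
  classical
  choose! f hf using hz
  refine ⟨(Finset.range (n+1)).sup f, fun k hk => ?_⟩
  exact FinDep.mono (hf k hk) (Finset.le_sup (Finset.mem_range.2 (by omega)))

/-- **T3b** hedging -/
theorem T3_hedge (n : ℕ) (z : ℕ → Z) (hz : ∀ k ≤ n, FinDep (z k)) (H : ℕ → ℝ)
    (hH : ∀ k ≤ n, ∀ l ≤ n, dist (z k) (z l) ≤ H k + H l) :
    ∃ y : Z, FinDep y ∧ (∀ k ≤ n, dist y (z k) ≤ H k) ∧
      ∀ (q : Q) (x : ℝ), (∀ k ≤ n, |x - z k q| ≤ H k) →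
        ∃ q' : Q, (∀ k ≤ n, z k q' = z k q) ∧ y q' = x := by
  classical
  obtain ⟨N, hN⟩ := exists_common n z hz
  have hne : (Finset.range (n+1)).Nonempty := ⟨0, by simp⟩
  let lo : Z := (Finset.range (n+1)).sup' hne (fun k => z k - ContinuousMap.const Q (H k))
  let hi : Z := (Finset.range (n+1)).inf' hne (fun k => z k + ContinuousMap.const Q (H k))
  have lo_app : ∀ q, lo q = (Finset.range (n+1)).sup' hne (fun k => z k q - H k) := by
    intro q
    simp only [lo, ContinuousMap.sup'_apply]
    rfl
  have hi_app : ∀ q, hi q = (Finset.range (n+1)).inf' hne (fun k => z k q + H k) := by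
    intro q
    simp only [hi, ContinuousMap.inf'_apply]
    rfl
  have lo_ge : ∀ q, ∀ k ≤ n, z k q - H k ≤ lo q := by
    intro q k hk
    rw [lo_app]
    exact Finset.le_sup' (fun k => z k q - H k) (Finset.mem_range.2 (by omega))
  have hi_le : ∀ q, ∀ k ≤ n, hi q ≤ z k q + H k := by
    intro q k hk
    rw [hi_app]
    exact Finset.inf'_le (fun k => z k q + H k) (Finset.mem_range.2 (by omega))
  have lo_le_of : ∀ q x, (∀ k ≤ n, z k q - H k ≤ x) → lo q ≤ x := by
    intro q x hx
    rw [lo_app]
    exact Finset.sup'_le _ _ fun k hk => hx k (by have := Finset.mem_range.1 hk; omega)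
  have le_hi_of : ∀ q x, (∀ k ≤ n, x ≤ z k q + H k) → x ≤ hi q := by
    intro q x hx
    rw [hi_app]
    exact Finset.le_inf' _ _ fun k hk => hx k (by have := Finset.mem_range.1 hk; omega)
  have hpt : ∀ q, ∀ k ≤ n, ∀ l ≤ n, z k q - z l q ≤ H k + H l := by
    intro q k hk l hl
    have h1 : dist (z k q) (z l q) ≤ dist (z k) (z l) := ContinuousMap.dist_apply_le_dist q
    rw [Real.dist_eq] at h1
    have := le_abs_self (z k q - z l q)
    have := hH k hk l hl
    linarith
  have lo_hi : ∀ q, lo q ≤ hi q := by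
    intro q
    refine lo_le_of q _ fun k hk => le_hi_of q _ fun l hl => ?_
    have := hpt q k hk l hl
    linarith
  have lo_dep : ∀ q q' : Q, (∀ i < N, q i = q' i) → lo q = lo q' := by
    intro q q' hq
    rw [lo_app, lo_app]
    apply le_antisymm
    · refine Finset.sup'_le _ _ fun k hk => ?_
      have hk' : k ≤ n := by have := Finset.mem_range.1 hk; omega
      rw [hN k hk' q q' hq]
      exact Finset.le_sup' (fun k => z k q' - H k) hk
    · refine Finset.sup'_le _ _ fun k hk => ?_
      have hk' : k ≤ n := by have := Finset.mem_range.1 hk; omega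
      rw [← hN k hk' q q' hq]
      exact Finset.le_sup' (fun k => z k q - H k) hk
  have hi_dep : ∀ q q' : Q, (∀ i < N, q i = q' i) → hi q = hi q' := by
    intro q q' hq
    rw [hi_app, hi_app]
    apply le_antisymm
    · refine Finset.le_inf' _ _ fun k hk => ?_
      have hk' : k ≤ n := by have := Finset.mem_range.1 hk; omega
      rw [← hN k hk' q q' hq]
      exact Finset.inf'_le (fun k => z k q + H k) hk
    · refine Finset.le_inf' _ _ fun k hk => ?_
      have hk' : k ≤ n := by have := Finset.mem_range.1 hk; omega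
      rw [hN k hk' q q' hq]
      exact Finset.inf'_le (fun k => z k q' + H k) hk
  -- the new coordinate
  let c : Z := ⟨fun q => (q N : ℝ), by fun_prop⟩
  let y : Z := lo + c * (hi - lo)
  have y_app : ∀ q, y q = lo q + (q N : ℝ) * (hi q - lo q) := fun q => rfl
  refine ⟨y, ⟨N + 1, fun q q' hq => ?_⟩, fun k hk => ?_, fun q x hx => ?_⟩
  · have h1 := lo_dep q q' fun i hi' => hq i (by omega)
    have h2 := hi_dep q q' fun i hi' => hq i (by omega)
    rw [y_app, y_app, h1, h2, hq N (by omega)]
  · have hk0 : 0 ≤ H k := by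
      have := hH k hk k hk
      rw [dist_self] at this
      linarith
    rw [ContinuousMap.dist_le hk0]
    intro q
    rw [y_app, Real.dist_eq, abs_le]
    have h0 := (q N).2.1
    have h1 := (q N).2.2
    have h2 := lo_hi q
    have h3 := lo_ge q k hk
    have h4 := hi_le q k hk
    constructor <;> nlinarith
  · have hlx : lo q ≤ x := lo_le_of q x fun k hk => by
      have := (abs_le.1 (hx k hk)).1
      linarith
    have hxh : x ≤ hi q := le_hi_of q x fun k hk => by
      have := (abs_le.1 (hx k hk)).2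
      linarith
    by_cases hd : hi q - lo q = 0
    · refine ⟨q, fun k _ => rfl, ?_⟩
      rw [y_app, hd]
      linarith
    · have hpos : 0 < hi q - lo q := lt_of_le_of_ne (by linarith) (Ne.symm hd)
      let t : unitInterval := ⟨(x - lo q) / (hi q - lo q),
        div_nonneg (by linarith) hpos.le, (div_le_one hpos).2 (by linarith)⟩
      refine ⟨Function.update q N t, fun k hk => ?_, ?_⟩
      · refine hN k hk _ _ fun i hi' => ?_
        rw [Function.update_of_ne (by omega)]
      · have h1 := lo_dep (Function.update q N t) q fun i hi' => by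
          rw [Function.update_of_ne (by omega)]
        have h2 := hi_dep (Function.update q N t) q fun i hi' => by
          rw [Function.update_of_ne (by omega)]
        rw [y_app, h1, h2, Function.update_self]
        change lo q + (x - lo q) / (hi q - lo q) * (hi q - lo q) = x
        rw [div_mul_cancel₀ _ hd]
        ring

/-- the subalgebra of the finitely dependent functions -/
def finDepAlg : Subalgebra ℝ Z where
  carrier := {z | FinDep z}
  mul_mem' := by
    rintro a b ⟨N, hN⟩ ⟨M, hM⟩
    refine ⟨max N M, fun q q' h => ?_⟩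
    have h1 := hN q q' fun i hi => h i (lt_of_lt_of_le hi (le_max_left _ _))
    have h2 := hM q q' fun i hi => h i (lt_of_lt_of_le hi (le_max_right _ _))
    simp [h1, h2]
  add_mem' := by
    rintro a b ⟨N, hN⟩ ⟨M, hM⟩
    refine ⟨max N M, fun q q' h => ?_⟩
    have h1 := hN q q' fun i hi => h i (lt_of_lt_of_le hi (le_max_left _ _))
    have h2 := hM q q' fun i hi => h i (lt_of_lt_of_le hi (le_max_right _ _))
    simp [h1, h2]
  algebraMap_mem' := fun r => ⟨0, fun q q' _ => by simp⟩

theorem mem_finDepAlg {z : Z} : z ∈ finDepAlg ↔ FinDep z := Iff.rfl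

theorem finDepAlg_sep : finDepAlg.SeparatesPoints := by
  intro q q' hqq
  obtain ⟨i, hi⟩ := Function.ne_iff.1 hqq
  let c : Z := ⟨fun q => (q i : ℝ), by fun_prop⟩
  refine ⟨c, ⟨c, ⟨i + 1, fun p p' h => ?_⟩, rfl⟩, ?_⟩
  · change (p i : ℝ) = p' i
    rw [h i (by omega)]
  · change (q i : ℝ) ≠ q' i
    exact fun h => hi (Subtype.ext h)

theorem finDep_dense : Dense {z : Z | FinDep z} := by
  have h := ContinuousMap.subalgebra_topologicalClosure_eq_top_of_separatesPoints
    finDepAlg finDepAlg_sep
  intro z
  have hz : z ∈ finDepAlg.topologicalClosure := by rw [h]; trivial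
  exact hz

/-- **T3a** density of the finitely dependent functions -/
theorem T3_dense : ∃ zc : ℕ → Z, (∀ i, FinDep (zc i)) ∧ DenseRange zc := by
  obtain ⟨t, hts, htc, htd⟩ := finDep_dense.exists_countable_dense_subset
  have hne : t.Nonempty := htd.nonempty
  obtain ⟨f, hf⟩ := htc.exists_eq_range hne
  refine ⟨f, fun i => hts ?_, ?_⟩
  · rw [hf]; exact Set.mem_range_self i
  · rw [hf] at htd; exact htd

end P124H186
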