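import Vale.Agent.P124.H186.T6
import Vale.Agent.P124.H447.T5
import Vale.Agent.P124.H186.T3

/-! P124 (helper432): T6 of the specification with only the geometric theorem T4 as a hypothesis. -/

namespace P124H186

/-- **T6** of the specification from T4 -/
theorem T6_run_of_T4
    (T4 : ∀ (g : Geo) (n : ℕ), Valid n g → ∀ t0 : ℕ, t0 ≤ n → ∀ rho : ℝ, 0 < rho →
      ∃ ts w R, IsCS g t0 rho ts w R)
    (W : Type) [MetricSpace W] [Nonempty W] (hW : KatProp W)
    (E : Type) [NormedAddCommGroup E] [NormedSpace ℝ E] (Ed : Set E) (hE : BallPropOn Ed)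
    (h0 : (0 : E) ∈ Ed) (ec : ℕ → E) (hec : ∀ i, ec i ∈ Ed)
    (zc : ℕ → Z) (hzc : ∀ i, FinDep (zc i)) : Nonempty (Play W E ec zc) :=
  T6_run_of W hW E Ed hE h0 ec hec zc hzc (P124H447.T5_of_T4 T4 (hW.ballProp.prod hE))
    (fun n z hz H hH => T3_hedge n z hz H hH)

end P124H186
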