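import Vale.Agent.P124.H186.Defs

/-!
P124 (helper186's plan), piece T8: the transducer and the shift of the E-coordinates.
Typed by helper992.
-/

set_option linter.unusedSectionVars false

open scoped NNReal ZeroAtInfty
open Filter Topology

namespace P124H186
namespace T8a

section rows

variable {Y E F : Type*} [MetricSpace Y] [NormedAddCommGroup E] [NormedSpace ℝ E]
    [NormedAddCommGroup F] [NormedSpace ℝ F]
variable (h : (Y × E) × Y ≃ (Y × E) × F) (ρ : F → Y × E) (C : ℝ)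

/-- decoded carries -/
noncomputable def decM (ζ : ℕ → F) (k : ℕ) : Y × E := ρ ((2 * C) ^ k • ζ k)

/-- decoded letters -/
noncomputable def decY (ζ : ℕ → F) (k : ℕ) : Y :=
  (h.symm (decM ρ C ζ (k + 1), (2 * C) ^ k • ζ k)).2

/-- encoded carries -/
noncomputable def encM (x : Y × E) (y : ℕ → Y) : ℕ → Y × E
  | 0 => x
  | k + 1 => (h (encM x y k, y k)).1

/-- encoded letters -/
noncomputable def encC (x : Y × E) (y : ℕ → Y) (k : ℕ) : F :=
  ((2 * C) ^ k)⁻¹ • (h (encM h x y k, y k)).2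

variable {h ρ C}

theorem h_dec (hρ : ∀ m z, (h.symm (m, z)).1 = ρ z) (ζ : ℕ → F) (k : ℕ) :
    h (decM ρ C ζ k, decY h ρ C ζ k) = (decM ρ C ζ (k + 1), (2 * C) ^ k • ζ k) := by
  have : (decM ρ C ζ k, decY h ρ C ζ k)
      = h.symm (decM ρ C ζ (k + 1), (2 * C) ^ k • ζ k) := by
    apply Prod.ext
    · simp only [decM]
      rw [hρ]
    · rfl
  rw [this, Equiv.apply_symm_apply]

theorem encM_dec (hρ : ∀ m z, (h.symm (m, z)).1 = ρ z) (ζ : ℕ → F) (k : ℕ) :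
    encM h (decM ρ C ζ 0) (decY h ρ C ζ) k = decM ρ C ζ k := by
  induction k with
  | zero => rfl
  | succ k ih => rw [encM, ih, h_dec hρ]

theorem encC_dec (hC : 0 < C) (hρ : ∀ m z, (h.symm (m, z)).1 = ρ z) (ζ : ℕ → F) (k : ℕ) :
    encC h C (decM ρ C ζ 0) (decY h ρ C ζ) k = ζ k := by
  have hne : (2 * C) ^ k ≠ 0 := by positivity
  rw [encC, encM_dec hρ, h_dec hρ, smul_smul, inv_mul_cancel₀ hne, one_smul]

theorem smul_encC (hC : 0 < C) (x : Y × E) (y : ℕ → Y) (k : ℕ) :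
    (2 * C) ^ k • encC h C x y k = (h (encM h x y k, y k)).2 := by
  have hne : (2 * C) ^ k ≠ 0 := by positivity
  rw [encC, smul_smul, mul_inv_cancel₀ hne, one_smul]

theorem rho_h (hρ : ∀ m z, (h.symm (m, z)).1 = ρ z) (a : (Y × E) × Y) :
    ρ (h a).2 = a.1 := by
  rw [← hρ (h a).1 (h a).2, Prod.mk.eta, Equiv.symm_apply_apply]

theorem decM_enc (hC : 0 < C) (hρ : ∀ m z, (h.symm (m, z)).1 = ρ z) (x : Y × E) (y : ℕ → Y)
    (k : ℕ) : decM ρ C (encC h C x y) k = encM h x y k := by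
  rw [decM, smul_encC hC, rho_h hρ]

theorem decY_enc (hC : 0 < C) (hρ : ∀ m z, (h.symm (m, z)).1 = ρ z) (x : Y × E) (y : ℕ → Y)
    (k : ℕ) : decY h ρ C (encC h C x y) k = y k := by
  rw [decY, decM_enc hC hρ, smul_encC hC, encM, Prod.mk.eta, Equiv.symm_apply_apply]

/-! distances -/

theorem decM_dist (hC : 1 ≤ C) (hρL : ∀ z z', dist (ρ z) (ρ z') ≤ C * dist z z')
    (ζ ζ' : ℕ → F) (k : ℕ) :
    dist (decM ρ C ζ k) (decM ρ C ζ' k) ≤ C * (2 * C) ^ k * dist (ζ k) (ζ' k) := by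
  have h1 := hρL ((2 * C) ^ k • ζ k) ((2 * C) ^ k • ζ' k)
  rw [dist_smul₀, Real.norm_of_nonneg (by positivity)] at h1
  rw [mul_assoc]
  exact h1

theorem decY_dist (hC : 1 ≤ C) (hL' : ∀ a b, dist (h.symm a) (h.symm b) ≤ C * dist a b)
    (hρL : ∀ z z', dist (ρ z) (ρ z') ≤ C * dist z z') (ζ ζ' : ℕ → F) (k : ℕ) :
    ((2 * C) ^ k)⁻¹ * dist (decY h ρ C ζ k) (decY h ρ C ζ' k)
      ≤ 2 * C ^ 3 * max (dist (ζ k) (ζ' k)) (dist (ζ (k + 1)) (ζ' (k + 1))) := by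
  have hpos : (0 : ℝ) < (2 * C) ^ k := by positivity
  have h0 : dist (decY h ρ C ζ k) (decY h ρ C ζ' k)
      ≤ C * dist (decM ρ C ζ (k + 1), (2 * C) ^ k • ζ k)
        (decM ρ C ζ' (k + 1), (2 * C) ^ k • ζ' k) := by
    refine le_trans ?_ (hL' _ _)
    rw [decY, decY, Prod.dist_eq (x := h.symm _)]
    exact le_max_right _ _
  rw [Prod.dist_eq] at h0
  simp only at h0
  rw [dist_smul₀, Real.norm_of_nonneg hpos.le] at h0
  have h1 := decM_dist hC hρL ζ ζ' (k + 1)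
  set a := dist (ζ k) (ζ' k)
  set b := dist (ζ (k + 1)) (ζ' (k + 1))
  have ha : 0 ≤ a := dist_nonneg
  have hb : 0 ≤ b := dist_nonneg
  have hm : 0 ≤ max a b := le_max_of_le_left ha
  have h2 : max (dist (decM ρ C ζ (k + 1)) (decM ρ C ζ' (k + 1))) ((2 * C) ^ k * a)
      ≤ (2 * C) ^ k * (2 * C ^ 2 * max a b) := by
    apply max_le
    · refine h1.trans ?_
      have : C * (2 * C) ^ (k + 1) * b = (2 * C) ^ k * (2 * C ^ 2 * b) := by ring
      rw [this]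
      gcongr
      exact le_max_right _ _
    · gcongr
      have : (1 : ℝ) ≤ 2 * C ^ 2 := by nlinarith
      calc a ≤ max a b := le_max_left _ _
        _ = 1 * max a b := (one_mul _).symm
        _ ≤ 2 * C ^ 2 * max a b := by gcongr
  have h3 : dist (decY h ρ C ζ k) (decY h ρ C ζ' k)
      ≤ (2 * C) ^ k * (2 * C ^ 3 * max a b) := by
    refine h0.trans ?_
    calc C * max (dist (decM ρ C ζ (k + 1)) (decM ρ C ζ' (k + 1))) ((2 * C) ^ k * a)
        ≤ C * ((2 * C) ^ k * (2 * C ^ 2 * max a b)) := by gcongr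
      _ = (2 * C) ^ k * (2 * C ^ 3 * max a b) := by ring
  rw [inv_mul_le_iff₀ hpos]
  exact h3

theorem encM_dist (hC : 1 ≤ C) (hL : ∀ a b, dist (h a) (h b) ≤ C * dist a b)
    (x x' : Y × E) (y y' : ℕ → Y) (k : ℕ) :
    ((2 * C) ^ (k + 1))⁻¹ * dist (encM h x y (k + 1)) (encM h x' y' (k + 1))
      ≤ 1 / 2 * max (((2 * C) ^ k)⁻¹ * dist (encM h x y k) (encM h x' y' k))
        (((2 * C) ^ k)⁻¹ * dist (y k) (y' k)) := by
  have hpos : (0 : ℝ) < (2 * C) ^ k := by positivity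
  have h0 : dist (encM h x y (k + 1)) (encM h x' y' (k + 1))
      ≤ C * max (dist (encM h x y k) (encM h x' y' k)) (dist (y k) (y' k)) := by
    rw [← Prod.dist_eq (x := (encM h x y k, y k)) (y := (encM h x' y' k, y' k))]
    refine le_trans ?_ (hL _ _)
    rw [encM, encM, Prod.dist_eq (x := h _)]
    exact le_max_left _ _
  rw [← mul_max_of_nonneg _ _ (inv_nonneg.2 hpos.le)]
  have hC0 : (0 : ℝ) < C := by linarith
  calc ((2 * C) ^ (k + 1))⁻¹ * dist (encM h x y (k + 1)) (encM h x' y' (k + 1))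
      ≤ ((2 * C) ^ (k + 1))⁻¹
        * (C * max (dist (encM h x y k) (encM h x' y' k)) (dist (y k) (y' k))) := by
        gcongr
    _ = 1 / 2 * (((2 * C) ^ k)⁻¹
        * max (dist (encM h x y k) (encM h x' y' k)) (dist (y k) (y' k))) := by
        rw [pow_succ]
        field_simp

theorem encC_dist (hC : 1 ≤ C) (hL : ∀ a b, dist (h a) (h b) ≤ C * dist a b)
    (x x' : Y × E) (y y' : ℕ → Y) (k : ℕ) :
    dist (encC h C x y k) (encC h C x' y' k)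
      ≤ C * max (((2 * C) ^ k)⁻¹ * dist (encM h x y k) (encM h x' y' k))
        (((2 * C) ^ k)⁻¹ * dist (y k) (y' k)) := by
  have hpos : (0 : ℝ) < (2 * C) ^ k := by positivity
  have h0 : dist (h (encM h x y k, y k)).2 (h (encM h x' y' k, y' k)).2
      ≤ C * max (dist (encM h x y k) (encM h x' y' k)) (dist (y k) (y' k)) := by
    rw [← Prod.dist_eq (x := (encM h x y k, y k)) (y := (encM h x' y' k, y' k))]
    refine le_trans ?_ (hL _ _)
    rw [Prod.dist_eq (x := h _)]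
    exact le_max_right _ _
  rw [encC, encC, dist_smul₀, Real.norm_of_nonneg (inv_nonneg.2 hpos.le),
    ← mul_max_of_nonneg _ _ (inv_nonneg.2 hpos.le)]
  calc ((2 * C) ^ k)⁻¹ * dist (h (encM h x y k, y k)).2 (h (encM h x' y' k, y' k)).2
      ≤ ((2 * C) ^ k)⁻¹
        * (C * max (dist (encM h x y k) (encM h x' y' k)) (dist (y k) (y' k))) := by
        gcongr
    _ = _ := by ring

theorem encM_bound (hC : 1 ≤ C) (hL : ∀ a b, dist (h a) (h b) ≤ C * dist a b)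
    (x x' : Y × E) (y y' : ℕ → Y) (d : ℝ) (hx : dist x x' ≤ d)
    (hy : ∀ k, ((2 * C) ^ k)⁻¹ * dist (y k) (y' k) ≤ d) (k : ℕ) :
    ((2 * C) ^ k)⁻¹ * dist (encM h x y k) (encM h x' y' k) ≤ d := by
  have hd : 0 ≤ d := dist_nonneg.trans hx
  induction k with
  | zero => simpa [encM] using hx
  | succ k ih =>
    refine (encM_dist hC hL x x' y y' k).trans ?_
    have := max_le ih (hy k)
    linarith

end rows

/-! null double sequences, box form -/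

/-- box form of tending to zero at infinity on ℕ × ℕ -/
def BoxNull (f : ℕ → ℕ → ℝ) : Prop := ∀ ε > 0, ∃ N : ℕ, ∀ i k, (N ≤ i ∨ N ≤ k) → f i k < ε

theorem BoxNull.of_le {f g : ℕ → ℕ → ℝ} (hg : BoxNull g) (hfg : ∀ i k, f i k ≤ g i k) :
    BoxNull f := by
  intro ε hε
  obtain ⟨N, hN⟩ := hg ε hε
  exact ⟨N, fun i k hik => (hfg i k).trans_lt (hN i k hik)⟩

theorem BoxNull.mul_const {f : ℕ → ℕ → ℝ} (hf : BoxNull f) (c : ℝ) (hc : 0 < c) :
    BoxNull (fun i k => c * f i k) := by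
  intro ε hε
  obtain ⟨N, hN⟩ := hf (ε / c) (by positivity)
  refine ⟨N, fun i k hik => ?_⟩
  have := hN i k hik
  rw [lt_div_iff₀ hc] at this
  linarith

theorem BoxNull.max {f g : ℕ → ℕ → ℝ} (hf : BoxNull f) (hg : BoxNull g) :
    BoxNull (fun i k => max (f i k) (g i k)) := by
  intro ε hε
  obtain ⟨N, hN⟩ := hf ε hε
  obtain ⟨M, hM⟩ := hg ε hε
  refine ⟨N + M, fun i k hik => max_lt (hN i k ?_) (hM i k ?_)⟩ <;> omega

theorem BoxNull.succ {f : ℕ → ℕ → ℝ} (hf : BoxNull f) : BoxNull (fun i k => f i (k + 1)) := by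
  intro ε hε
  obtain ⟨N, hN⟩ := hf ε hε
  exact ⟨N, fun i k hik => hN i (k + 1) (by omega)⟩

theorem boxNull_rec {M b : ℕ → ℕ → ℝ} (hM0 : ∀ i k, 0 ≤ M i k) (hb : BoxNull b)
    (hz : ∀ ε > 0, ∃ N : ℕ, ∀ i, N ≤ i → M i 0 < ε)
    (hrec : ∀ i k, M i (k + 1) ≤ 1 / 2 * max (M i k) (b i k)) : BoxNull M := by
  intro ε hε
  obtain ⟨Nb, hNb⟩ := hb ε hε
  obtain ⟨N0, hN0⟩ := hz ε hε
  have hlarge : ∀ i, Nb + N0 ≤ i → ∀ k, M i k < ε := by
    intro i hi k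
    induction k with
    | zero => exact hN0 i (by omega)
    | succ k ih =>
      have h1 := hrec i k
      have h2 : max (M i k) (b i k) < ε := max_lt ih (hNb i k (by omega))
      linarith
  set A : ℝ := ∑ i ∈ Finset.range (Nb + N0), M i Nb with hA
  have hA0 : 0 ≤ A := Finset.sum_nonneg fun i _ => hM0 i Nb
  have hsmall : ∀ i, i < Nb + N0 → ∀ j, M i (Nb + j) ≤ max (ε / 2) ((1 / 2) ^ j * A) := by
    intro i hi j
    induction j with
    | zero =>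
      refine le_max_of_le_right ?_
      have : M i Nb ≤ A := Finset.single_le_sum (f := fun i => M i Nb)
        (fun i _ => hM0 i Nb) (Finset.mem_range.2 hi)
      simpa using this
    | succ j ih =>
      have h1 := hrec i (Nb + j)
      have h2 : b i (Nb + j) ≤ ε := (hNb i (Nb + j) (by omega)).le
      have h3 : max (M i (Nb + j)) (b i (Nb + j)) ≤ max ε ((1 / 2) ^ j * A) := by
        refine max_le (ih.trans ?_) (h2.trans (le_max_left _ _))
        exact max_le_max (by linarith) le_rfl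
      have h4 : M i (Nb + (j + 1)) ≤ 1 / 2 * max ε ((1 / 2) ^ j * A) := by
        refine (show M i (Nb + (j + 1)) ≤ _ from h1).trans ?_
        linarith
      refine h4.trans ?_
      rw [mul_max_of_nonneg _ _ (by norm_num : (0 : ℝ) ≤ 1 / 2)]
      refine max_le_max (by linarith) ?_
      rw [pow_succ]
      linarith
  obtain ⟨J, hJ⟩ : ∃ J : ℕ, (1 / 2 : ℝ) ^ J * (A + 1) < ε := by
    obtain ⟨J, hJ⟩ := exists_pow_lt_of_lt_one (show 0 < ε / (A + 1) by positivity)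
      (by norm_num : (1 / 2 : ℝ) < 1)
    refine ⟨J, ?_⟩
    rwa [lt_div_iff₀ (by positivity)] at hJ
  refine ⟨Nb + N0 + J, fun i k hik => ?_⟩
  by_cases hi : Nb + N0 ≤ i
  · exact hlarge i hi k
  · have hk : Nb + N0 + J ≤ k := by omega
    obtain ⟨j, rfl⟩ : ∃ j, k = Nb + j := ⟨k - Nb, by omega⟩
    refine (hsmall i (by omega) j).trans_lt (max_lt (by linarith) ?_)
    have hJj : J ≤ j := by omega
    calc (1 / 2 : ℝ) ^ j * A ≤ (1 / 2) ^ J * (A + 1) := by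
          apply mul_le_mul (pow_le_pow_of_le_one (by norm_num) (by norm_num) hJj) (by linarith)
            hA0 (by positivity)
      _ < ε := hJ

theorem boxNull_of_C0 {F : Type*} [NormedAddCommGroup F] (ζ : C₀(ℕ × ℕ, F)) :
    BoxNull (fun i k => dist (ζ (i, k)) 0) := by
  intro ε hε
  have h1 := ζ.zero_at_infty'
  rw [cocompact_eq_cofinite] at h1
  have h2 := (Metric.tendsto_nhds.1 h1) ε hε
  rw [Filter.eventually_cofinite] at h2
  obtain ⟨N, hN⟩ := (h2.image (fun p : ℕ × ℕ => p.1 + p.2)).bddAbove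
  refine ⟨N + 1, fun i k hik => ?_⟩
  by_contra hcon
  have : i + k ≤ N := hN ⟨(i, k), hcon, rfl⟩
  omega

/-- a box-null double sequence as an element of C₀ -/
def mkC0 {F : Type*} [NormedAddCommGroup F] (f : ℕ → ℕ → F)
    (hf : BoxNull (fun i k => dist (f i k) 0)) : C₀(ℕ × ℕ, F) where
  toFun := fun p => f p.1 p.2
  continuous_toFun := continuous_of_discreteTopology
  zero_at_infty' := by
    rw [cocompact_eq_cofinite, Metric.tendsto_nhds]
    intro ε hε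
    rw [Filter.eventually_cofinite]
    obtain ⟨N, hN⟩ := hf ε hε
    refine Set.Finite.subset ((Set.finite_Iio N).prod (Set.finite_Iio N)) ?_
    rintro ⟨i, k⟩ hp
    simp only [Set.mem_ofPred_eq] at hp
    simp only [Set.mem_prod, Set.mem_Iio]
    by_contra hcon
    exact hp (hN i k (by omega))

@[simp] theorem mkC0_apply {F : Type*} [NormedAddCommGroup F] (f : ℕ → ℕ → F)
    (hf : BoxNull (fun i k => dist (f i k) 0)) (i k : ℕ) : mkC0 f hf (i, k) = f i k := rfl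

theorem C0_dist_apply {F : Type*} [NormedAddCommGroup F] (ζ ζ' : C₀(ℕ × ℕ, F)) (p : ℕ × ℕ) :
    dist (ζ p) (ζ' p) ≤ dist ζ ζ' := by
  rw [← ZeroAtInftyContinuousMap.dist_toBCF_eq_dist]
  exact BoundedContinuousFunction.dist_coe_le_dist (f := ζ.toBCF) (g := ζ'.toBCF) p

theorem C0_dist_le {F : Type*} [NormedAddCommGroup F] (ζ ζ' : C₀(ℕ × ℕ, F)) (d : ℝ)
    (hd : 0 ≤ d) (h : ∀ i k, dist (ζ (i, k)) (ζ' (i, k)) ≤ d) : dist ζ ζ' ≤ d := by
  rw [← ZeroAtInftyContinuousMap.dist_toBCF_eq_dist]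
  exact (BoundedContinuousFunction.dist_le hd).2 fun p => h p.1 p.2

section main

variable {Y E F : Type*} [MetricSpace Y] [NormedAddCommGroup E] [NormedSpace ℝ E]
    [NormedAddCommGroup F] [NormedSpace ℝ F]
variable (h : (Y × E) × Y ≃ (Y × E) × F) (ρ : F → Y × E) (C : ℝ)

/-- shift of a sequence with a new first term -/
def shift (e : E) (f : ℕ → E) : ℕ → E
  | 0 => e
  | i + 1 => f i

/-- re-encoding of the rows of ζ with new first carries x -/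
noncomputable def reenc (x : ℕ → Y × E) (ζ : ℕ → ℕ → F) (i k : ℕ) : F :=
  encC h C (x i) (decY h ρ C (ζ i)) k

/-- first carries of the rows -/
noncomputable def fst (ζ : ℕ → ℕ → F) (i : ℕ) : Y × E := decM ρ C (ζ i) 0

/-- new first carries, forward -/
noncomputable def xF (e : E) (ζ : ℕ → ℕ → F) (i : ℕ) : Y × E :=
  ((fst ρ C ζ i).1, shift e (fun i => (fst ρ C ζ i).2) i)

/-- new first carries, backward -/
noncomputable def xB (ζ : ℕ → ℕ → F) (i : ℕ) : Y × E :=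
  ((fst ρ C ζ i).1, (fst ρ C ζ (i + 1)).2)

variable {h ρ C}

theorem fst_reenc (hC : 0 < C) (hρ : ∀ m z, (h.symm (m, z)).1 = ρ z) (x : ℕ → Y × E)
    (ζ : ℕ → ℕ → F) (i : ℕ) : fst ρ C (reenc h ρ C x ζ) i = x i := by
  have : reenc h ρ C x ζ i = encC h C (x i) (decY h ρ C (ζ i)) := rfl
  rw [fst, this, decM_enc hC hρ]
  rfl

theorem reenc_reenc (hC : 0 < C) (hρ : ∀ m z, (h.symm (m, z)).1 = ρ z) (x x' : ℕ → Y × E)
    (ζ : ℕ → ℕ → F) (hx : ∀ i, x' i = fst ρ C ζ i) :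
    reenc h ρ C x' (reenc h ρ C x ζ) = ζ := by
  funext i k
  have h1 : reenc h ρ C x ζ i = encC h C (x i) (decY h ρ C (ζ i)) := rfl
  have h2 : decY h ρ C (encC h C (x i) (decY h ρ C (ζ i))) = decY h ρ C (ζ i) := by
    funext j
    exact decY_enc hC hρ _ _ j
  rw [reenc, h1, h2, hx i, fst, encC_dec hC hρ]

theorem xB_reenc_xF (hC : 0 < C) (hρ : ∀ m z, (h.symm (m, z)).1 = ρ z) (e : E)
    (ζ : ℕ → ℕ → F) (i : ℕ) :
    xB ρ C (reenc h ρ C (xF ρ C e ζ) ζ) i = fst ρ C ζ i := by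
  rw [xB, fst_reenc hC hρ, fst_reenc hC hρ]
  rfl

theorem xF_reenc_xB (hC : 0 < C) (hρ : ∀ m z, (h.symm (m, z)).1 = ρ z)
    (ζ : ℕ → ℕ → F) (i : ℕ) :
    xF ρ C (fst ρ C ζ 0).2 (reenc h ρ C (xB ρ C ζ) ζ) i = fst ρ C ζ i := by
  rw [xF, fst_reenc hC hρ]
  cases i with
  | zero => rfl
  | succ i =>
    simp only [shift]
    rw [fst_reenc hC hρ]
    rfl

theorem fst_dist (hC : 1 ≤ C) (hρL : ∀ z z', dist (ρ z) (ρ z') ≤ C * dist z z')
    (ζ ζ' : ℕ → ℕ → F) (i : ℕ) :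
    dist (fst ρ C ζ i) (fst ρ C ζ' i) ≤ C * dist (ζ i 0) (ζ' i 0) := by
  have := decM_dist (ρ := ρ) hC hρL (ζ i) (ζ' i) 0
  simpa [fst] using this

theorem reenc_dist (hC : 1 ≤ C) (hL : ∀ a b, dist (h a) (h b) ≤ C * dist a b)
    (hL' : ∀ a b, dist (h.symm a) (h.symm b) ≤ C * dist a b)
    (hρL : ∀ z z', dist (ρ z) (ρ z') ≤ C * dist z z') (x x' : ℕ → Y × E)
    (ζ ζ' : ℕ → ℕ → F) (d : ℝ) (hζ : ∀ i k, dist (ζ i k) (ζ' i k) ≤ d)
    (hx : ∀ i, dist (x i) (x' i) ≤ C * d) (i k : ℕ) :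
    dist (reenc h ρ C x ζ i k) (reenc h ρ C x' ζ' i k) ≤ 2 * C ^ 4 * d := by
  have hd : 0 ≤ d := dist_nonneg.trans (hζ 0 0)
  have hC0 : 0 < C := by linarith
  have hy : ∀ k, ((2 * C) ^ k)⁻¹ * dist (decY h ρ C (ζ i) k) (decY h ρ C (ζ' i) k)
      ≤ 2 * C ^ 3 * d := fun k =>
    (decY_dist hC hL' hρL (ζ i) (ζ' i) k).trans (by
      gcongr
      exact max_le (hζ i k) (hζ i (k + 1)))
  have hx' : dist (x i) (x' i) ≤ 2 * C ^ 3 * d := by
    refine (hx i).trans ?_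
    gcongr
    have h1 : (1 : ℝ) ≤ C ^ 2 := one_le_pow₀ hC
    nlinarith
  have hM := encM_bound hC hL (x i) (x' i) (decY h ρ C (ζ i)) (decY h ρ C (ζ' i)) _ hx' hy k
  have hE := encC_dist hC hL (x i) (x' i) (decY h ρ C (ζ i)) (decY h ρ C (ζ' i)) k
  refine hE.trans ?_
  calc _ ≤ C * (2 * C ^ 3 * d) := by
        gcongr
        exact max_le hM (hy k)
    _ = 2 * C ^ 4 * d := by ring

/-- base data are mapped to base data -/
theorem rho_zero {y₀ : Y} (h0 : h ((y₀, 0), y₀) = ((y₀, 0), 0))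
    (hρ : ∀ m z, (h.symm (m, z)).1 = ρ z) : ρ 0 = (y₀, 0) := by
  rw [← hρ (y₀, 0) 0, ← h0, Equiv.symm_apply_apply]

theorem decY_zero {y₀ : Y} (h0 : h ((y₀, 0), y₀) = ((y₀, 0), 0))
    (hρ : ∀ m z, (h.symm (m, z)).1 = ρ z) (k : ℕ) :
    decY h ρ C (fun _ => 0) k = y₀ := by
  rw [decY, decM, smul_zero, smul_zero, rho_zero h0 hρ, ← h0, Equiv.symm_apply_apply]

theorem encM_zero {y₀ : Y} (h0 : h ((y₀, 0), y₀) = ((y₀, 0), 0)) (k : ℕ) :
    encM h (y₀, 0) (fun _ => y₀) k = (y₀, 0) := by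
  induction k with
  | zero => rfl
  | succ k ih => rw [encM, ih, h0]

theorem encC_zero {y₀ : Y} (h0 : h ((y₀, 0), y₀) = ((y₀, 0), 0)) (k : ℕ) :
    encC h C (y₀, 0) (fun _ => y₀) k = 0 := by
  rw [encC, encM_zero h0, h0, smul_zero]

theorem reenc_null (hC : 1 ≤ C) (hL : ∀ a b, dist (h a) (h b) ≤ C * dist a b)
    (hL' : ∀ a b, dist (h.symm a) (h.symm b) ≤ C * dist a b)
    (hρL : ∀ z z', dist (ρ z) (ρ z') ≤ C * dist z z') {y₀ : Y}
    (h0 : h ((y₀, 0), y₀) = ((y₀, 0), 0)) (hρ : ∀ m z, (h.symm (m, z)).1 = ρ z)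
    (x : ℕ → Y × E) (ζ : ℕ → ℕ → F) (hζ : BoxNull (fun i k => dist (ζ i k) 0))
    (hx : ∀ ε > 0, ∃ N : ℕ, ∀ i, N ≤ i → dist (x i) (y₀, 0) < ε) :
    BoxNull (fun i k => dist (reenc h ρ C x ζ i k) 0) := by
  have hC0 : 0 < C := by linarith
  have hy0 : (decY h ρ C (fun _ => (0 : F))) = fun _ => y₀ := by
    funext k
    exact decY_zero h0 hρ k
  -- the letters
  have hb : BoxNull (fun i k => ((2 * C) ^ k)⁻¹ * dist (decY h ρ C (ζ i) k) y₀) := by
    refine ((hζ.max hζ.succ).mul_const (2 * C ^ 3) (by positivity)).of_le fun i k => ?_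
    have := decY_dist (h := h) hC hL' hρL (ζ i) (fun _ => 0) k
    rwa [decY_zero h0 hρ] at this
  -- the carries
  have hM : BoxNull (fun i k => ((2 * C) ^ k)⁻¹
      * dist (encM h (x i) (decY h ρ C (ζ i)) k) (y₀, 0)) := by
    refine boxNull_rec (fun i k => by positivity) hb ?_ ?_
    · simpa [encM] using hx
    · intro i k
      have := encM_dist hC hL (x i) (y₀, 0) (decY h ρ C (ζ i)) (fun _ => y₀) k
      rwa [encM_zero h0, encM_zero h0] at this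
  refine ((hM.max hb).mul_const C hC0).of_le fun i k => ?_
  have := encC_dist hC hL (x i) (y₀, 0) (decY h ρ C (ζ i)) (fun _ => y₀) k
  rwa [encM_zero h0, encC_zero h0] at this

theorem fst_null (hC : 1 ≤ C) (hρL : ∀ z z', dist (ρ z) (ρ z') ≤ C * dist z z') {y₀ : Y}
    (h0 : h ((y₀, 0), y₀) = ((y₀, 0), 0)) (hρ : ∀ m z, (h.symm (m, z)).1 = ρ z)
    (ζ : ℕ → ℕ → F) (hζ : BoxNull (fun i k => dist (ζ i k) 0)) :
    ∀ ε > 0, ∃ N : ℕ, ∀ i, N ≤ i → dist (fst ρ C ζ i) (y₀, 0) < ε := by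
  intro ε hε
  have hC0 : 0 < C := by linarith
  obtain ⟨N, hN⟩ := (hζ.mul_const C hC0) ε hε
  refine ⟨N, fun i hi => ?_⟩
  have h1 := fst_dist (ρ := ρ) hC hρL ζ (fun _ _ => 0) i
  have h2 : fst ρ C (fun _ _ => (0 : F)) i = (y₀, 0) := by
    rw [fst, decM, smul_zero, rho_zero h0 hρ]
  rw [h2] at h1
  exact h1.trans_lt (hN i 0 (Or.inl hi))

theorem xF_null (hC : 1 ≤ C) (hρL : ∀ z z', dist (ρ z) (ρ z') ≤ C * dist z z') {y₀ : Y}
    (h0 : h ((y₀, 0), y₀) = ((y₀, 0), 0)) (hρ : ∀ m z, (h.symm (m, z)).1 = ρ z) (e : E)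
    (ζ : ℕ → ℕ → F) (hζ : BoxNull (fun i k => dist (ζ i k) 0)) :
    ∀ ε > 0, ∃ N : ℕ, ∀ i, N ≤ i → dist (xF ρ C e ζ i) (y₀, 0) < ε := by
  intro ε hε
  obtain ⟨N, hN⟩ := fst_null hC hρL h0 hρ ζ hζ ε hε
  refine ⟨N + 1, fun i hi => ?_⟩
  obtain ⟨j, rfl⟩ : ∃ j, i = j + 1 := ⟨i - 1, by omega⟩
  rw [Prod.dist_eq]
  refine max_lt ?_ ?_
  · refine lt_of_le_of_lt ?_ (hN (j + 1) (by omega))
    rw [Prod.dist_eq]
    exact le_max_left _ _
  · refine lt_of_le_of_lt ?_ (hN j (by omega))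
    rw [Prod.dist_eq]
    exact le_max_right _ _

theorem xB_null (hC : 1 ≤ C) (hρL : ∀ z z', dist (ρ z) (ρ z') ≤ C * dist z z') {y₀ : Y}
    (h0 : h ((y₀, 0), y₀) = ((y₀, 0), 0)) (hρ : ∀ m z, (h.symm (m, z)).1 = ρ z)
    (ζ : ℕ → ℕ → F) (hζ : BoxNull (fun i k => dist (ζ i k) 0)) :
    ∀ ε > 0, ∃ N : ℕ, ∀ i, N ≤ i → dist (xB ρ C ζ i) (y₀, 0) < ε := by
  intro ε hε
  obtain ⟨N, hN⟩ := fst_null hC hρL h0 hρ ζ hζ ε hε
  refine ⟨N, fun i hi => ?_⟩
  rw [Prod.dist_eq]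
  refine max_lt ?_ ?_
  · refine lt_of_le_of_lt ?_ (hN i hi)
    rw [Prod.dist_eq]
    exact le_max_left _ _
  · refine lt_of_le_of_lt ?_ (hN (i + 1) (by omega))
    rw [Prod.dist_eq]
    exact le_max_right _ _

theorem xF_dist (hC : 1 ≤ C) (hρL : ∀ z z', dist (ρ z) (ρ z') ≤ C * dist z z') (e e' : E)
    (ζ ζ' : ℕ → ℕ → F) (d : ℝ) (he : dist e e' ≤ d) (hζ : ∀ i k, dist (ζ i k) (ζ' i k) ≤ d)
    (i : ℕ) : dist (xF ρ C e ζ i) (xF ρ C e' ζ' i) ≤ C * d := by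
  have hd : 0 ≤ d := dist_nonneg.trans he
  have h1 : ∀ j, dist (fst ρ C ζ j) (fst ρ C ζ' j) ≤ C * d := fun j =>
    (fst_dist hC hρL ζ ζ' j).trans (by gcongr; exact hζ j 0)
  rw [Prod.dist_eq]
  refine max_le ?_ ?_
  · refine le_trans ?_ (h1 i)
    rw [Prod.dist_eq]
    exact le_max_left _ _
  · cases i with
    | zero => exact he.trans (by nlinarith)
    | succ j =>
      refine le_trans ?_ (h1 j)
      rw [Prod.dist_eq]
      exact le_max_right _ _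

theorem xB_dist (hC : 1 ≤ C) (hρL : ∀ z z', dist (ρ z) (ρ z') ≤ C * dist z z')
    (ζ ζ' : ℕ → ℕ → F) (d : ℝ) (hd : 0 ≤ d) (hζ : ∀ i k, dist (ζ i k) (ζ' i k) ≤ d)
    (i : ℕ) : dist (xB ρ C ζ i) (xB ρ C ζ' i) ≤ C * d := by
  have h1 : ∀ j, dist (fst ρ C ζ j) (fst ρ C ζ' j) ≤ C * d := fun j =>
    (fst_dist hC hρL ζ ζ' j).trans (by gcongr; exact hζ j 0)
  rw [Prod.dist_eq]
  refine max_le ?_ ?_
  · refine le_trans ?_ (h1 i)
    rw [Prod.dist_eq]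
    exact le_max_left _ _
  · refine le_trans ?_ (h1 (i + 1))
    rw [Prod.dist_eq]
    exact le_max_right _ _

end main

/-- rows of an element of C₀ -/
def rows {F : Type*} [NormedAddCommGroup F] (ζ : C₀(ℕ × ℕ, F)) : ℕ → ℕ → F :=
  fun i k => ζ (i, k)

theorem rows_null {F : Type*} [NormedAddCommGroup F] (ζ : C₀(ℕ × ℕ, F)) :
    BoxNull (fun i k => dist (rows ζ i k) 0) := boxNull_of_C0 ζ

theorem rows_mkC0 {F : Type*} [NormedAddCommGroup F] (f : ℕ → ℕ → F)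
    (hf : BoxNull (fun i k => dist (f i k) 0)) : rows (mkC0 f hf) = f := rfl


end T8a

open T8a in
/-- **T8** transducer + shift of the E-coordinates of the rows -/
theorem T8_transducer {Y E Z : Type*} [MetricSpace Y] [NormedAddCommGroup E] [NormedSpace ℝ E]
    [NormedAddCommGroup Z] [NormedSpace ℝ Z] (y₀ : Y) (h : (Y × E) × Y ≃ (Y × E) × Z) (L : ℝ≥0)
    (hL : LipschitzWith L h) (hL' : LipschitzWith L h.symm)
    (h0 : h ((y₀, 0), y₀) = ((y₀, 0), 0)) (ρ : Z → Y × E)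
    (hρ : ∀ m z, (h.symm (m, z)).1 = ρ z) :
    ∃ (Φ : (E × C₀(ℕ × ℕ, Z)) ≃ C₀(ℕ × ℕ, Z)) (L' : ℝ≥0),
      LipschitzWith L' Φ ∧ LipschitzWith L' Φ.symm := by
  obtain ⟨C, hCdef⟩ : ∃ C : ℝ, C = max (L : ℝ) 1 := ⟨_, rfl⟩
  have hC : 1 ≤ C := by rw [hCdef]; exact le_max_right _ _
  have hLC : (L : ℝ) ≤ C := by rw [hCdef]; exact le_max_left _ _
  have hC0 : 0 < C := by linarith
  have kL : ∀ a b, dist (h a) (h b) ≤ C * dist a b := fun a b =>
    (hL.dist_le_mul a b).trans (by gcongr)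
  have kL' : ∀ a b, dist (h.symm a) (h.symm b) ≤ C * dist a b := fun a b =>
    (hL'.dist_le_mul a b).trans (by gcongr)
  have kρ : ∀ z z', dist (ρ z) (ρ z') ≤ C * dist z z' := by
    intro z z'
    have h1 := kL' ((y₀, 0), z) ((y₀, 0), z')
    rw [Prod.dist_eq, Prod.dist_eq (x := ((y₀, (0 : E)), z))] at h1
    rw [hρ, hρ] at h1
    simp only [dist_self] at h1
    rw [max_eq_right dist_nonneg] at h1
    exact (le_max_left _ _).trans h1
  let fwd : E × C₀(ℕ × ℕ, Z) → C₀(ℕ × ℕ, Z) := fun p =>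
    mkC0 (reenc h ρ C (xF ρ C p.1 (rows p.2)) (rows p.2))
      (reenc_null hC kL kL' kρ h0 hρ _ _ (rows_null p.2)
        (xF_null hC kρ h0 hρ p.1 (rows p.2) (rows_null p.2)))
  let bwd : C₀(ℕ × ℕ, Z) → E × C₀(ℕ × ℕ, Z) := fun ζ =>
    ((fst ρ C (rows ζ) 0).2, mkC0 (reenc h ρ C (xB ρ C (rows ζ)) (rows ζ))
      (reenc_null hC kL kL' kρ h0 hρ _ _ (rows_null ζ)
        (xB_null hC kρ h0 hρ (rows ζ) (rows_null ζ))))
  have hfwd : ∀ p, rows (fwd p) = reenc h ρ C (xF ρ C p.1 (rows p.2)) (rows p.2) :=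
    fun p => rfl
  have hbwd : ∀ ζ, rows (bwd ζ).2 = reenc h ρ C (xB ρ C (rows ζ)) (rows ζ) := fun ζ => rfl
  have hbwd1 : ∀ ζ, (bwd ζ).1 = (fst ρ C (rows ζ) 0).2 := fun ζ => rfl
  have ext' : ∀ ζ ζ' : C₀(ℕ × ℕ, Z), rows ζ = rows ζ' → ζ = ζ' := by
    intro ζ ζ' hh
    ext ⟨i, k⟩
    exact congrFun (congrFun hh i) k
  have left : ∀ p, bwd (fwd p) = p := by
    rintro ⟨e, ζ⟩
    apply Prod.ext
    · rw [hbwd1, hfwd, fst_reenc hC0 hρ]
      rfl
    · apply ext'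
      rw [hbwd, hfwd]
      exact reenc_reenc hC0 hρ _ _ _ (xB_reenc_xF hC0 hρ e (rows ζ))
  have right : ∀ ζ, fwd (bwd ζ) = ζ := by
    intro ζ
    apply ext'
    rw [hfwd, hbwd, hbwd1]
    exact reenc_reenc hC0 hρ _ _ _ (xF_reenc_xB hC0 hρ (rows ζ))
  have hK0 : 0 ≤ 2 * C ^ 4 := by positivity
  refine ⟨⟨fwd, bwd, left, right⟩, ⟨2 * C ^ 4, hK0⟩, ?_, ?_⟩
  · refine LipschitzWith.of_dist_le_mul ?_
    rintro ⟨e, ζ⟩ ⟨e', ζ'⟩
    change dist (fwd (e, ζ)) (fwd (e', ζ')) ≤ 2 * C ^ 4 * dist (e, ζ) (e', ζ')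
    refine C0_dist_le _ _ _ (by positivity) fun i k => ?_
    have hd1 : dist e e' ≤ dist (e, ζ) (e', ζ') := by
      rw [Prod.dist_eq]; exact le_max_left _ _
    have hd2 : ∀ i k, dist (rows ζ i k) (rows ζ' i k) ≤ dist (e, ζ) (e', ζ') := by
      intro i k
      rw [Prod.dist_eq]
      exact (C0_dist_apply ζ ζ' (i, k)).trans (le_max_right _ _)
    exact reenc_dist hC kL kL' kρ _ _ (rows ζ) (rows ζ') _ hd2
      (xF_dist hC kρ e e' (rows ζ) (rows ζ') _ hd1 hd2) i k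
  · refine LipschitzWith.of_dist_le_mul ?_
    intro ζ ζ'
    change dist (bwd ζ) (bwd ζ') ≤ 2 * C ^ 4 * dist ζ ζ'
    have hd2 : ∀ i k, dist (rows ζ i k) (rows ζ' i k) ≤ dist ζ ζ' := fun i k =>
      C0_dist_apply ζ ζ' (i, k)
    rw [Prod.dist_eq]
    refine max_le ?_ ?_
    · have h1 : dist (fst ρ C (rows ζ) 0) (fst ρ C (rows ζ') 0) ≤ C * dist ζ ζ' :=
        (fst_dist hC kρ (rows ζ) (rows ζ') 0).trans (by gcongr; exact hd2 0 0)
      refine le_trans (le_trans ?_ h1) ?_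
      · rw [Prod.dist_eq (x := fst ρ C (rows ζ) 0)]
        exact le_max_right _ _
      · have h2 : C ≤ 2 * C ^ 4 := by
          have h3 : (1 : ℝ) ≤ C ^ 3 := one_le_pow₀ hC
          nlinarith
        gcongr
    · refine C0_dist_le _ _ _ (by positivity) fun i k => ?_
      exact reenc_dist hC kL kL' kρ _ _ (rows ζ) (rows ζ') _ hd2
        (xB_dist hC kρ (rows ζ) (rows ζ') _ dist_nonneg hd2) i k

end P124H186
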