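import Vale.Agent.P124.H186.Defs

/-!
P124 (helper58): piece T9 of the spec of helper186:
`C₀(ℕ × ℕ, Z)` is separable and complete; it is a complemented subspace of a `C(K)`,
hence `E × C₀(ℕ × ℕ, Z)` is not isomorphic to it when `E` is not complemented in any `C(K)`.
-/

open scoped NNReal ZeroAtInfty
open Filter Topology TopologicalSpace

namespace P124H186

theorem c0_dist_le {f g : C₀(ℕ × ℕ, Z)} {C : ℝ} (hC : 0 ≤ C) :
    dist f g ≤ C ↔ ∀ d, dist (f d) (g d) ≤ C := by
  rw [← ZeroAtInftyContinuousMap.dist_toBCF_eq_dist]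
  exact BoundedContinuousFunction.dist_le hC

theorem c0_norm_le {f : C₀(ℕ × ℕ, Z)} {C : ℝ} (hC : 0 ≤ C) :
    ‖f‖ ≤ C ↔ ∀ d, ‖f d‖ ≤ C := by
  rw [← ZeroAtInftyContinuousMap.norm_toBCF_eq_norm]
  exact BoundedContinuousFunction.norm_le hC

theorem c0_norm_apply_le (f : C₀(ℕ × ℕ, Z)) (d : ℕ × ℕ) : ‖f d‖ ≤ ‖f‖ :=
  (c0_norm_le (norm_nonneg f)).1 le_rfl d

theorem c0_tendsto (f : C₀(ℕ × ℕ, Z)) : Tendsto f cofinite (𝓝 0) := by
  have h := zero_at_infty f
  rwa [cocompact_eq_cofinite] at h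

/-- finitely supported elements -/
noncomputable def finC0 (F : Finset (ℕ × ℕ)) (z : F → Z) : C₀(ℕ × ℕ, Z) where
  toFun d := if h : d ∈ F then z ⟨d, h⟩ else 0
  continuous_toFun := continuous_of_discreteTopology
  zero_at_infty' := by
    rw [cocompact_eq_cofinite]
    refine tendsto_const_nhds.congr' ?_
    filter_upwards [F.finite_toSet.compl_mem_cofinite] with d hd
    have hd' : d ∉ F := by simpa using hd
    simp [hd']

theorem finC0_apply (F : Finset (ℕ × ℕ)) (z : F → Z) (d : ℕ × ℕ) :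
    finC0 F z d = if h : d ∈ F then z ⟨d, h⟩ else 0 := rfl

theorem continuous_finC0 (F : Finset (ℕ × ℕ)) : Continuous (finC0 F) := by
  have h : LipschitzWith 1 (finC0 F) := by
    refine LipschitzWith.of_dist_le_mul fun z z' => ?_
    rw [NNReal.coe_one, one_mul, c0_dist_le dist_nonneg]
    intro d
    rw [finC0_apply, finC0_apply]
    split_ifs with hd
    · exact dist_le_pi_dist z z' ⟨d, hd⟩
    · simp
  exact h.continuous

theorem c0_separable : SeparableSpace C₀(ℕ × ℕ, Z) := by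
  rw [← isSeparable_univ_iff]
  have h1 : IsSeparable (⋃ F : Finset (ℕ × ℕ), Set.range (finC0 F)) :=
    IsSeparable.iUnion fun F => isSeparable_range (continuous_finC0 F)
  refine h1.closure.mono ?_
  intro f _
  rw [Metric.mem_closure_iff]
  intro ε hε
  have h2 : ∀ᶠ d in cofinite, ‖f d‖ < ε / 2 := by
    have h3 := (c0_tendsto f).norm
    rw [norm_zero] at h3
    exact h3.eventually_lt_const (half_pos hε)
  have h4 : {d | ¬ ‖f d‖ < ε / 2}.Finite := h2
  refine ⟨finC0 h4.toFinset fun d => f d, Set.mem_iUnion.2 ⟨_, Set.mem_range_self _⟩, ?_⟩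
  refine lt_of_le_of_lt ((c0_dist_le (half_pos hε).le).2 fun d => ?_) (half_lt_self hε)
  rw [finC0_apply]
  split_ifs with hd
  · simp [(half_pos hε).le]
  · have hd' : ‖f d‖ < ε / 2 := by
      by_contra hcon
      exact hd (by simpa using hcon)
    rw [dist_zero_right]
    exact hd'.le

/-- **T9b** separability and completeness -/
theorem T9_sep : SeparableSpace (C₀(ℕ × ℕ, Z)) ∧ CompleteSpace (C₀(ℕ × ℕ, Z)) :=
  ⟨c0_separable, inferInstance⟩

/-- the compact space -/
abbrev KK : Type := OnePoint (ℕ × ℕ) × Q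

/-- the embedding of `C₀(ℕ × ℕ, Z)` in `C(KK)` -/
noncomputable def JJ (f : C₀(ℕ × ℕ, Z)) : C(KK, ℝ) :=
  ContinuousMap.uncurry (OnePoint.continuousMapMkDiscrete f 0 (c0_tendsto f))

theorem JJ_coe (f : C₀(ℕ × ℕ, Z)) (d : ℕ × ℕ) (q : Q) :
    JJ f ((d : OnePoint (ℕ × ℕ)), q) = f d q := rfl

theorem JJ_infty (f : C₀(ℕ × ℕ, Z)) (q : Q) :
    JJ f ((OnePoint.infty : OnePoint (ℕ × ℕ)), q) = 0 := rfl

/-- the retraction of `C(KK)` on `C₀(ℕ × ℕ, Z)` -/
noncomputable def PP (g : C(KK, ℝ)) : C₀(ℕ × ℕ, Z) where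
  toFun d := g.curry (d : OnePoint (ℕ × ℕ)) - g.curry OnePoint.infty
  continuous_toFun := continuous_of_discreteTopology
  zero_at_infty' := by
    have h1 : Tendsto (fun d : ℕ × ℕ => g.curry (d : OnePoint (ℕ × ℕ))) (cocompact (ℕ × ℕ))
        (𝓝 (g.curry OnePoint.infty)) := by
      rw [← coclosedCompact_eq_cocompact]
      exact (g.curry.continuous.tendsto OnePoint.infty).comp OnePoint.tendsto_coe_infty
    simpa using h1.sub_const (g.curry OnePoint.infty)

theorem PP_apply (g : C(KK, ℝ)) (d : ℕ × ℕ) (q : Q) :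
    PP g d q = g ((d : OnePoint (ℕ × ℕ)), q) - g (OnePoint.infty, q) := rfl

theorem PP_JJ (f : C₀(ℕ × ℕ, Z)) : PP (JJ f) = f := by
  ext d q
  rw [PP_apply, JJ_coe, JJ_infty, sub_zero]

/-- the embedding as a continuous linear map -/
noncomputable def JL : C₀(ℕ × ℕ, Z) →L[ℝ] C(KK, ℝ) :=
  LinearMap.mkContinuous
    { toFun := JJ
      map_add' := by
        intro f g
        ext ⟨x, q⟩
        induction x using OnePoint.rec with
        | infty => simp [JJ_infty]
        | coe d => simp [JJ_coe]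
      map_smul' := by
        intro c f
        ext ⟨x, q⟩
        induction x using OnePoint.rec with
        | infty => simp [JJ_infty]
        | coe d => simp [JJ_coe] } 1 (by
    intro f
    rw [one_mul]
    refine (ContinuousMap.norm_le _ (norm_nonneg f)).2 ?_
    rintro ⟨x, q⟩
    induction x using OnePoint.rec with
    | infty => simp [JJ_infty]
    | coe d =>
      simp only [LinearMap.coe_mk, AddHom.coe_mk, JJ_coe]
      exact (ContinuousMap.norm_coe_le_norm (f d) q).trans (c0_norm_apply_le f d))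

/-- the retraction as a continuous linear map -/
noncomputable def PL : C(KK, ℝ) →L[ℝ] C₀(ℕ × ℕ, Z) :=
  LinearMap.mkContinuous
    { toFun := PP
      map_add' := by
        intro f g
        ext d q
        simp only [PP_apply, ContinuousMap.add_apply, ZeroAtInftyContinuousMap.add_apply]
        ring
      map_smul' := by
        intro c f
        ext d q
        simp only [PP_apply, ContinuousMap.smul_apply, ZeroAtInftyContinuousMap.smul_apply,
          smul_eq_mul, RingHom.id_apply]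
        ring } 2 (by
    intro g
    refine (c0_norm_le (by positivity)).2 fun d => ?_
    refine (ContinuousMap.norm_le _ (by positivity)).2 fun q => ?_
    simp only [LinearMap.coe_mk, AddHom.coe_mk, PP_apply]
    have h1 := ContinuousMap.norm_coe_le_norm g ((d : OnePoint (ℕ × ℕ)), q)
    have h2 := ContinuousMap.norm_coe_le_norm g (OnePoint.infty, q)
    calc ‖g ((d : OnePoint (ℕ × ℕ)), q) - g (OnePoint.infty, q)‖ ≤ _ := norm_sub_le _ _
      _ ≤ 2 * ‖g‖ := by linarith)

theorem PL_JL (f : C₀(ℕ × ℕ, Z)) : PL (JL f) = f := PP_JJ f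

/-- **T9a** no linear isomorphism -/
theorem T9_noiso {E : Type} [NormedAddCommGroup E] [NormedSpace ℝ E] [CompleteSpace E]
    (hE : ∀ (K : Type) [TopologicalSpace K] [CompactSpace K] (T : E →L[ℝ] C(K, ℝ))
      (S : C(K, ℝ) →L[ℝ] E), S.comp T ≠ ContinuousLinearMap.id ℝ E) :
    IsEmpty ((E × C₀(ℕ × ℕ, Z)) ≃L[ℝ] C₀(ℕ × ℕ, Z)) := by
  refine ⟨fun e => ?_⟩
  let T : E →L[ℝ] C(KK, ℝ) :=
    JL.comp ((e : (E × C₀(ℕ × ℕ, Z)) →L[ℝ] C₀(ℕ × ℕ, Z)).comp
      (ContinuousLinearMap.inl ℝ E C₀(ℕ × ℕ, Z)))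
  let S : C(KK, ℝ) →L[ℝ] E :=
    (ContinuousLinearMap.fst ℝ E C₀(ℕ × ℕ, Z)).comp
      ((e.symm : C₀(ℕ × ℕ, Z) →L[ℝ] (E × C₀(ℕ × ℕ, Z))).comp PL)
  refine hE KK T S ?_
  ext x
  simp [T, S, PL_JL]

end P124H186
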