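import Vale.Agent.P124.H186.T1
import Vale.Agent.P124.H186.T2
import Vale.Agent.P124.H186.T3
import Vale.Agent.P124.H186.T6all
import Vale.Agent.P124.H186.T8
import Vale.Agent.P124.H186.T9
import Vale.Agent.P124.H186.T10

/-! P124 (helper432): the final statement with only the geometric theorem T4 as a hypothesis. -/

open Filter Topology TopologicalSpace

namespace P124H186

/-- the full result from T4 -/
theorem main_of_T4
    (T4 : ∀ (g : Geo) (n : ℕ), Valid n g → ∀ t0 : ℕ, t0 ≤ n → ∀ rho : ℝ, 0 < rho →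
      ∃ ts w R, IsCS g t0 rho ts w R) :
    ∃ (X Y : Type) (_ : NormedAddCommGroup X) (_ : NormedSpace ℝ X) (_ : CompleteSpace X)
      (_ : SeparableSpace X) (_ : NormedAddCommGroup Y) (_ : NormedSpace ℝ Y)
      (_ : CompleteSpace Y) (_ : SeparableSpace Y),
      (∃ (f : X ≃ Y) (c C : ℝ), 0 < c ∧ c ≤ C ∧ ∀ x x' : X,
        c * ‖x - x'‖ ≤ ‖f x - f x'‖ ∧ ‖f x - f x'‖ ≤ C * ‖x - x'‖) ∧
      ¬ ∃ T : X →L[ℝ] Y, Function.Bijective T :=
  T10.main_of T1_katetov T2_space T3_dense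
    (fun W _ _ hW E _ _ Ed hE h0 ec hec zc hzc =>
      T6_run_of_T4 T4 W hW E Ed hE h0 ec hec zc hzc)
    (fun y₀ h L hL hL' h0 ρ hρ => T8_transducer y₀ h L hL hL' h0 ρ hρ)
    (fun hE => T9_noiso hE) T9_sep

end P124H186
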