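import Vale.Agent.P124.H186.Defs

/-!
P124 (helper186; file split off by helper510): the structure `Play`, verbatim from Spec.lean,
imported by T6 and T7.
-/

open Filter Topology TopologicalSpace

namespace P124H186

/-- what T6 produces: the infinite play. `U' , U, V` are sequences in `W`. -/
structure Play (W : Type) [MetricSpace W] (E : Type) [NormedAddCommGroup E] (ec : ℕ → E)
    (zc : ℕ → Z) where
  U' : ℕ → W
  U : ℕ → W
  V : ℕ → W
  e' : ℕ → E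
  e : ℕ → E
  z : ℕ → Z
  D : ℕ → ℕ → ℝ
  h1 : ∀ k l, dist (U' k) (U' l) ≤ D k l ∧ dist (e' k) (e' l) ≤ D k l ∧ dist (z k) (z l) ≤ D k l
  h1' : ∀ k l, D k l ≤ (2 + 10^15) * dist (U' k) (U' l) + dist (e' k) (e' l)
    + 10^15 * dist (z k) (z l)
  h2 : ∀ k l, dist (U k) (U l) ≤ dist (z k) (z l) ∧ dist (e k) (e l) ≤ dist (z k) (z l)
  h3 : ∀ k l, dist (V k) (V l) ≤ D k l ∧ 10^15 * dist (U k) (U l) ≤ D k l ∧
    10^15 * dist (e k) (e l) ≤ D k l
  h3' : ∀ k l, D k l ≤ 2 * dist (V k) (V l) + 10^15 * max (dist (U k) (U l)) (dist (e k) (e l))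
  /-- A-moves: every used `W`-point, every `ec i`, every `zc j` is played -/
  dA : ∀ y ∈ (Set.range U' ∪ Set.range U ∪ Set.range V : Set W), ∀ i j,
    ∃ k, U' k = y ∧ e' k = ec i ∧ z k = zc j
  dB : ∀ y ∈ (Set.range U' ∪ Set.range U ∪ Set.range V : Set W),
    ∀ y' ∈ (Set.range U' ∪ Set.range U ∪ Set.range V : Set W), ∀ i,
    ∃ k, U k = y ∧ e k = ec i ∧ V k = y'
  h00 : U' 0 = U 0 ∧ U 0 = V 0 ∧ e' 0 = 0 ∧ e 0 = 0 ∧ z 0 = 0

end P124H186
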