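import Vale.Agent.P124.H186.Defs

/-!
P124, T1 (helper413): a metric space with the exact finite Katetov extension property
(no separability). `X₀ = point`, `X_{n+1} = ` bounded continuous functions on `X_n`
(Kuratowski embedding), `W` = inductive limit. A finite Katetov function `f` on `x_0,…,x_n`
is realised in `X_{n+1}` by `y ↦ min_i (f_i + d(x_i,y)) - d(x₀,y)`.
-/

open scoped BoundedContinuousFunction

namespace P124H186

namespace H413

/-- pointed metric space -/
structure PM where
  X : Type
  m : MetricSpace X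
  x0 : X

attribute [instance] PM.m

/-- bounded continuous functions on `p` -/
noncomputable def PM.next (p : PM) : PM := ⟨p.X →ᵇ ℝ, inferInstance, 0⟩

/-- A function at bounded distance from `dist x0 ·` as a point of the next space. -/
noncomputable def mkf (p : PM) (g : p.X → ℝ) (hg : Continuous g) (C : ℝ)
    (hC : ∀ y, |g y - dist p.x0 y| ≤ C) : p.X →ᵇ ℝ :=
  BoundedContinuousFunction.ofNormedAddCommGroup (fun y => g y - dist p.x0 y)
    (hg.sub (continuous_const.dist continuous_id)) C (by simpa using hC)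

theorem dist_mkf_le (p : PM) {g h : p.X → ℝ} {hg hh C C' hC hC'} {r : ℝ} (hr : 0 ≤ r)
    (H : ∀ y, |g y - h y| ≤ r) : dist (mkf p g hg C hC) (mkf p h hh C' hC') ≤ r := by
  rw [BoundedContinuousFunction.dist_le hr]
  intro y
  rw [Real.dist_eq]
  show |(g y - dist p.x0 y) - (h y - dist p.x0 y)| ≤ r
  rw [sub_sub_sub_cancel_right]
  exact H y

theorem le_dist_mkf (p : PM) {g h : p.X → ℝ} {hg hh C C' hC hC'} {r : ℝ} (y : p.X)
    (H : r ≤ |g y - h y|) : r ≤ dist (mkf p g hg C hC) (mkf p h hh C' hC') := by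
  refine le_trans ?_ (BoundedContinuousFunction.dist_coe_le_dist y)
  rw [Real.dist_eq]
  show r ≤ |(g y - dist p.x0 y) - (h y - dist p.x0 y)|
  rw [sub_sub_sub_cancel_right]
  exact H

/-- Kuratowski embedding -/
noncomputable def emb (p : PM) (x : p.X) : p.next.X :=
  mkf p (fun y => dist x y) (by fun_prop) (dist x p.x0) (fun y => by
    rw [abs_le]; constructor <;>
    linarith [dist_triangle x p.x0 y, dist_triangle p.x0 x y, dist_comm x p.x0])

theorem emb_isometry (p : PM) : Isometry (emb p) := by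
  refine Isometry.of_dist_eq fun x x' => le_antisymm ?_ ?_
  · refine dist_mkf_le p dist_nonneg fun y => ?_
    rw [abs_le]; constructor <;>
    linarith [dist_triangle x x' y, dist_triangle x' x y, dist_comm x x']
  · refine le_dist_mkf p x' ?_
    rw [dist_self, sub_zero]
    exact le_abs_self _

/-- realisation of a finite Katetov function in the next space -/
theorem realise (p : PM) (n : ℕ) (x : ℕ → p.X) (f : ℕ → ℝ)
    (h1 : ∀ i ≤ n, ∀ j ≤ n, f i - f j ≤ dist (x i) (x j))
    (h2 : ∀ i ≤ n, ∀ j ≤ n, dist (x i) (x j) ≤ f i + f j) :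
    ∃ w : p.next.X, ∀ i ≤ n, dist w (emb p (x i)) = f i := by
  classical
  have hne : (Finset.range (n+1)).Nonempty := ⟨0, by simp⟩
  set g : p.X → ℝ := fun y => (Finset.range (n+1)).inf' hne (fun i => f i + dist (x i) y) with hg
  have gle : ∀ y, ∀ i ≤ n, g y ≤ f i + dist (x i) y := fun y i hi =>
    Finset.inf'_le (f := fun i => f i + dist (x i) y) (Finset.mem_range.2 (by omega))
  have leg : ∀ y r, (∀ i ≤ n, r ≤ f i + dist (x i) y) → r ≤ g y := fun y r hr =>
    Finset.le_inf' _ _ (fun i hi => hr i (by simpa [Nat.lt_succ_iff] using hi))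
  have fnn : ∀ i ≤ n, 0 ≤ f i := fun i hi => by
    have := h2 i hi i hi
    rw [dist_self] at this
    linarith
  have glip : LipschitzWith 1 g := by
    refine LipschitzWith.of_le_add fun y z => ?_
    have : g y - dist y z ≤ g z := leg z _ fun i hi => by
      linarith [gle y i hi, dist_triangle (x i) z y, dist_comm z y]
    linarith
  -- distance from `g` to `dist (x i) ·`
  have key : ∀ i ≤ n, ∀ y, |g y - dist (x i) y| ≤ f i := fun i hi y => by
    rw [abs_le]
    constructor
    · have : dist (x i) y - f i ≤ g y := leg y _ fun j hj => by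
        linarith [h2 i hi j hj, dist_triangle (x i) (x j) y]
      linarith
    · linarith [gle y i hi]
  have gb : ∀ y, |g y - dist p.x0 y| ≤ f 0 + dist (x 0) p.x0 := fun y => by
    have h := key 0 (Nat.zero_le _) y
    rw [abs_le] at h ⊢
    constructor <;>
    linarith [h.1, h.2, dist_triangle (x 0) p.x0 y, dist_triangle p.x0 (x 0) y,
      dist_comm (x 0) p.x0]
  refine ⟨mkf p g glip.continuous _ gb, fun i hi => le_antisymm ?_ ?_⟩
  · exact dist_mkf_le p (fnn i hi) (key i hi)
  · refine le_dist_mkf p (x i) ?_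
    rw [dist_self, sub_zero]
    refine le_trans (leg (x i) (f i) fun j hj => ?_) (le_abs_self _)
    linarith [h1 i hi j hj, dist_comm (x i) (x j)]

/-- the tower -/
noncomputable def tower : ℕ → PM
  | 0 => ⟨PUnit, inferInstance, PUnit.unit⟩
  | n+1 => (tower n).next

noncomputable abbrev TX (n : ℕ) : Type := (tower n).X

noncomputable def temb (n : ℕ) (x : TX n) : TX (n+1) := emb (tower n) x

theorem temb_isometry (n : ℕ) : Isometry (temb n) := emb_isometry (tower n)

theorem trealise (N n : ℕ) (x : ℕ → TX N) (f : ℕ → ℝ)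
    (h1 : ∀ i ≤ n, ∀ j ≤ n, f i - f j ≤ dist (x i) (x j))
    (h2 : ∀ i ≤ n, ∀ j ≤ n, dist (x i) (x j) ≤ f i + f j) :
    ∃ w : TX (N+1), ∀ i ≤ n, dist w (temb N (x i)) = f i :=
  realise (tower N) n x f h1 h2

/-- the limit space -/
abbrev WW : Type := Metric.InductiveLimit (X := TX) (f := temb) temb_isometry

noncomputable abbrev tI (n : ℕ) : TX n → WW := Metric.toInductiveLimit temb_isometry n

theorem tI_succ (n : ℕ) (x : TX n) : tI (n+1) (temb n x) = tI n x :=
  congrFun (Metric.toInductiveLimit_commute temb_isometry n) x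

theorem tI_dist (n : ℕ) (x y : TX n) : dist (tI n x) (tI n y) = dist x y :=
  (Metric.toInductiveLimit_isometry temb_isometry n).dist_eq x y

theorem range_mono {m n : ℕ} (h : m ≤ n) (w : WW) (hw : ∃ x, tI m x = w) : ∃ x, tI n x = w := by
  induction h with
  | refl => exact hw
  | step _ ih => obtain ⟨x, hx⟩ := ih; exact ⟨temb _ x, by rw [tI_succ, hx]⟩

theorem exists_rep (w : WW) : ∃ n x, tI n x = w := by
  obtain ⟨n, x⟩ := w
  exact ⟨n, x, rfl⟩

theorem common_rep (n : ℕ) (w : ℕ → WW) : ∃ N, ∀ i ≤ n, ∃ x, tI N x = w i := by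
  choose N x hx using fun i => exists_rep (w i)
  refine ⟨(Finset.range (n+1)).sup N, fun i hi => ?_⟩
  exact range_mono (Finset.le_sup (f := N) (Finset.mem_range.2 (by omega))) _ ⟨x i, hx i⟩

theorem WW_katProp : KatProp WW := by
  classical
  intro n w f h1 h2
  obtain ⟨N, hN⟩ := common_rep n w
  have : Nonempty (TX N) := ⟨(tower N).x0⟩
  choose! x hx using hN
  have hd : ∀ i ≤ n, ∀ j ≤ n, dist (x i) (x j) = dist (w i) (w j) := fun i hi j hj => by
    rw [← tI_dist N (x i) (x j), hx i hi, hx j hj]
  obtain ⟨v, hv⟩ := trealise N n x f (fun i hi j hj => by rw [hd i hi j hj]; exact h1 i hi j hj)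
    (fun i hi j hj => by rw [hd i hi j hj]; exact h2 i hi j hj)
  refine ⟨tI (N+1) v, fun i hi => ?_⟩
  rw [← hx i hi, ← tI_succ N (x i), tI_dist, hv i hi]

end H413

/-- **T1** Katetov tower (no separability needed). -/
theorem T1_katetov : ∃ (W : Type) (_ : MetricSpace W) (_ : Nonempty W), KatProp W :=
  ⟨H413.WW, inferInstance, ⟨H413.tI 0 PUnit.unit⟩, H413.WW_katProp⟩

end P124H186
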