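import Vale.Agent.P124.H186.Defs

/-!
P124, piece T2a (helper854): the Banach space `E` of the Urysohn line of helper186.

`par j` is the pair of parents of the index `j`; every pair occurs infinitely often.
`FF N` is the space of bounded functions `f` on `ℕ` with `f j = (f (pa j) + f (pb j)) / 2` for
all `j ≥ N`; `E` is the closure of the union of the `FF N` in the bounded functions on `ℕ`.
-/

open Filter Topology TopologicalSpace
open scoped BoundedContinuousFunction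

namespace P124H186.T2

/-- first parent -/
def pa (j : ℕ) : ℕ := (Nat.unpair (Nat.unpair (j - 1)).1).1
/-- second parent -/
def pb (j : ℕ) : ℕ := (Nat.unpair (Nat.unpair (j - 1)).1).2

lemma pa_lt {j : ℕ} (hj : 0 < j) : pa j < j := by
  have h1 := Nat.unpair_left_le (Nat.unpair (j - 1)).1
  have h2 := Nat.unpair_left_le (j - 1)
  unfold pa
  omega

lemma pb_lt {j : ℕ} (hj : 0 < j) : pb j < j := by
  have h1 := Nat.unpair_right_le (Nat.unpair (j - 1)).1
  have h2 := Nat.unpair_left_le (j - 1)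
  unfold pb
  omega

lemma pa_zero : pa 0 = 0 := by
  have h1 := Nat.unpair_left_le (Nat.unpair (0 - 1)).1
  have h2 := Nat.unpair_left_le (0 - 1)
  unfold pa
  omega

lemma pb_zero : pb 0 = 0 := by
  have h1 := Nat.unpair_right_le (Nat.unpair (0 - 1)).1
  have h2 := Nat.unpair_left_le (0 - 1)
  unfold pb
  omega

/-- every pair of parents occurs infinitely often -/
lemma exists_par (a b M : ℕ) : ∃ j, M < j ∧ pa j = a ∧ pb j = b := by
  refine ⟨Nat.pair (Nat.pair a b) M + 1, ?_, ?_, ?_⟩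
  · have := Nat.right_le_pair (Nat.pair a b) M
    omega
  · simp [pa]
  · simp [pb]

/-- the bounded functions on `ℕ` satisfying the averaging relation from `N` on -/
def FF (N : ℕ) : Submodule ℝ (ℕ →ᵇ ℝ) where
  carrier := {f | ∀ j, N ≤ j → f j = (f (pa j) + f (pb j)) / 2}
  add_mem' := by
    intro f g hf hg j hj
    simp only [BoundedContinuousFunction.coe_add, Pi.add_apply]
    rw [hf j hj, hg j hj]; ring
  zero_mem' := by
    intro j _; simp
  smul_mem' := by
    intro c f hf j hj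
    simp only [BoundedContinuousFunction.coe_smul, smul_eq_mul]
    rw [hf j hj]; ring

lemma mem_FF {N : ℕ} {f : ℕ →ᵇ ℝ} :
    f ∈ FF N ↔ ∀ j, N ≤ j → f j = (f (pa j) + f (pb j)) / 2 := Iff.rfl

lemma FF_mono : Monotone FF := by
  intro N M h f hf j hj
  exact hf j (h.trans hj)

/-- the bound: outside a set `P` of indices the averaging relation holds -/
lemma abs_le_of_rel {f : ℕ → ℝ} {P : ℕ → Prop} {M : ℝ} (h0 : P 0)
    (hP : ∀ j, P j → |f j| ≤ M) (hr : ∀ j, ¬ P j → f j = (f (pa j) + f (pb j)) / 2) :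
    ∀ j, |f j| ≤ M := by
  intro j
  induction j using Nat.strong_induction_on with
  | _ j ih =>
    by_cases hj : P j
    · exact hP j hj
    · have hj0 : 0 < j := by
        rcases Nat.eq_zero_or_pos j with h | h
        · exact absurd (h ▸ h0) hj
        · exact h
      have h1 := ih _ (pa_lt hj0)
      have h2 := ih _ (pb_lt hj0)
      rw [hr j hj]
      rw [abs_le] at *
      constructor <;> linarith [h1.1, h1.2, h2.1, h2.2]

/-- the extension of a prescription `x` on the indices `P` -/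
noncomputable def ext (P : ℕ → Prop) (x : ℕ → ℝ) (j : ℕ) : ℝ :=
  open Classical in
  if h : P j ∨ j = 0 then x j
  else (ext P x (pa j) + ext P x (pb j)) / 2
termination_by j
decreasing_by
  · exact pa_lt (Nat.pos_of_ne_zero (fun h' => h (Or.inr h')))
  · exact pb_lt (Nat.pos_of_ne_zero (fun h' => h (Or.inr h')))

lemma ext_of (P : ℕ → Prop) (x : ℕ → ℝ) {j : ℕ} (h : P j ∨ j = 0) : ext P x j = x j := by
  rw [ext]; simp [h]

lemma ext_not (P : ℕ → Prop) (x : ℕ → ℝ) {j : ℕ} (h : ¬ (P j ∨ j = 0)) :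
    ext P x j = (ext P x (pa j) + ext P x (pb j)) / 2 := by
  rw [ext]; simp [h]

lemma ext_bound (P : ℕ → Prop) (x : ℕ → ℝ) {M : ℝ} (hM : ∀ j, P j ∨ j = 0 → |x j| ≤ M) :
    ∀ j, |ext P x j| ≤ M :=
  abs_le_of_rel (P := fun j => P j ∨ j = 0) (Or.inr rfl)
    (fun j hj => by rw [ext_of P x hj]; exact hM j hj) (fun j hj => ext_not P x hj)

/-- norm bound for bounded functions with the relations outside `P` -/
lemma norm_le_of_rel {f : ℕ →ᵇ ℝ} {P : ℕ → Prop} {M : ℝ} (h0 : P 0)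
    (hP : ∀ j, P j → |f j| ≤ M) (hr : ∀ j, ¬ P j → f j = (f (pa j) + f (pb j)) / 2) :
    ‖f‖ ≤ M := by
  have hM : 0 ≤ M := (abs_nonneg _).trans (hP 0 h0)
  rw [BoundedContinuousFunction.norm_le hM]
  intro j
  exact abs_le_of_rel h0 hP hr j

/-- the bounded function with prescribed values on `P` (bounded by `M`) -/
noncomputable def extB (P : ℕ → Prop) (x : ℕ → ℝ) (M : ℝ)
    (hM : ∀ j, P j ∨ j = 0 → |x j| ≤ M) : ℕ →ᵇ ℝ :=
  BoundedContinuousFunction.ofNormedAddCommGroupDiscrete (ext P x) M (ext_bound P x hM)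

@[simp] lemma extB_apply (P : ℕ → Prop) (x : ℕ → ℝ) (M : ℝ)
    (hM : ∀ j, P j ∨ j = 0 → |x j| ≤ M) (j : ℕ) : extB P x M hM j = ext P x j := rfl

/-- every vector of `ℝ^N` is the initial segment of an element of `FF N` -/
lemma exists_FF (N : ℕ) (hN : 0 < N) (x : ℕ → ℝ) :
    ∃ f ∈ FF N, ∀ j < N, f j = x j := by
  classical
  obtain ⟨M, hM⟩ : ∃ M : ℝ, ∀ j, j < N ∨ j = 0 → |x j| ≤ M := by
    refine ⟨∑ i ∈ Finset.range N, |x i|, ?_⟩
    intro j hj
    have hj' : j ∈ Finset.range N := by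
      rcases hj with h | h
      · exact Finset.mem_range.2 h
      · exact Finset.mem_range.2 (h ▸ hN)
    exact Finset.single_le_sum (f := fun i => |x i|) (fun i _ => abs_nonneg _) hj'
  refine ⟨extB (fun j => j < N) x M hM, ?_, ?_⟩
  · intro j hj
    simp only [extB_apply]
    exact ext_not _ _ (by rintro (h | h) <;> omega)
  · intro j hj
    simp only [extB_apply]
    exact ext_of _ _ (Or.inl hj)

lemma norm_FF_le {N : ℕ} (hN : 0 < N) {f : ℕ →ᵇ ℝ} (hf : f ∈ FF N) {M : ℝ}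
    (hM : ∀ j < N, |f j| ≤ M) : ‖f‖ ≤ M :=
  norm_le_of_rel (P := fun j => j < N) hN hM (fun j hj => hf j (not_lt.1 hj))

/-- the union of the `FF N` as a submodule -/
def UF : Submodule ℝ (ℕ →ᵇ ℝ) := ⨆ N, FF N

lemma mem_UF {f : ℕ →ᵇ ℝ} : f ∈ UF ↔ ∃ N, f ∈ FF N :=
  Submodule.mem_iSup_of_directed _ FF_mono.directed_le

/-- the space `E` -/
def E : Type := ↥(UF.topologicalClosure)

noncomputable instance : NormedAddCommGroup E :=
  inferInstanceAs (NormedAddCommGroup ↥(UF.topologicalClosure))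

noncomputable instance : NormedSpace ℝ E :=
  inferInstanceAs (NormedSpace ℝ ↥(UF.topologicalClosure))

instance : CompleteSpace E := by
  have : IsClosed (UF.topologicalClosure : Set (ℕ →ᵇ ℝ)) :=
    Submodule.isClosed_topologicalClosure _
  exact this.completeSpace_coe

/-- the inclusion in the bounded functions -/
noncomputable def inc : E →L[ℝ] (ℕ →ᵇ ℝ) := (UF.topologicalClosure).subtypeL

lemma norm_inc (f : E) : ‖inc f‖ = ‖f‖ := rfl

/-- the coordinate functionals -/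
noncomputable def ev (j : ℕ) : E →L[ℝ] ℝ :=
  (BoundedContinuousFunction.evalCLM ℝ j).comp inc

lemma ev_def (j : ℕ) (f : E) : ev j f = inc f j := rfl

/-- the filtration of `E` -/
def F (N : ℕ) : Submodule ℝ E where
  carrier := {f | ∀ j, N ≤ j → ev j f = (ev (pa j) f + ev (pb j) f) / 2}
  add_mem' := by
    intro f g hf hg j hj
    simp only [map_add]
    rw [hf j hj, hg j hj]; ring
  zero_mem' := by
    intro j _; simp
  smul_mem' := by
    intro c f hf j hj
    simp only [map_smul, smul_eq_mul]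
    rw [hf j hj]; ring

lemma mem_F {N : ℕ} {f : E} :
    f ∈ F N ↔ ∀ j, N ≤ j → ev j f = (ev (pa j) f + ev (pb j) f) / 2 := Iff.rfl

lemma F_mono : Monotone F := fun _ _ h _ hf j hj => hf j (h.trans hj)

/-- an element of `FF N` as an element of `E` -/
def mk {N : ℕ} (f : ℕ →ᵇ ℝ) (hf : f ∈ FF N) : E :=
  (⟨f, Submodule.le_topologicalClosure _ (mem_UF.2 ⟨N, hf⟩)⟩ : ↥(UF.topologicalClosure))

lemma inc_mk {N : ℕ} (f : ℕ →ᵇ ℝ) (hf : f ∈ FF N) : inc (mk f hf) = f := rfl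

lemma mk_mem {N : ℕ} (f : ℕ →ᵇ ℝ) (hf : f ∈ FF N) : mk f hf ∈ F N := hf

lemma abs_ev_le (j : ℕ) (f : E) : |ev j f| ≤ ‖f‖ :=
  BoundedContinuousFunction.norm_coe_le_norm (inc f) j

lemma norm_le_of_ev {f : E} {M : ℝ} (hM : ∀ j, |ev j f| ≤ M) : ‖f‖ ≤ M := by
  have h0 : 0 ≤ M := (abs_nonneg _).trans (hM 0)
  exact (BoundedContinuousFunction.norm_le (f := inc f) h0).2 (fun j => hM j)

/-- the relation in `F N` -/
lemma ev_rel {N : ℕ} {f : E} (hf : f ∈ F N) {j : ℕ} (hj : N ≤ j) :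
    ev j f = (ev (pa j) f + ev (pb j) f) / 2 := hf j hj

/-- norm bound when the averaging relation holds outside `P` -/
lemma norm_le_of_rel' {f : E} {P : ℕ → Prop} {M : ℝ} (h0 : P 0)
    (hP : ∀ j, P j → |ev j f| ≤ M) (hr : ∀ j, ¬ P j → ev j f = (ev (pa j) f + ev (pb j) f) / 2) :
    ‖f‖ ≤ M :=
  norm_le_of_rel (f := inc f) h0 hP hr

lemma norm_F_le {N : ℕ} (hN : 0 < N) {f : E} (hf : f ∈ F N) {M : ℝ}
    (hM : ∀ j < N, |ev j f| ≤ M) : ‖f‖ ≤ M :=
  norm_le_of_rel' (P := fun j => j < N) hN hM (fun j hj => hf j (not_lt.1 hj))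

lemma exists_F (N : ℕ) (hN : 0 < N) (x : ℕ → ℝ) :
    ∃ f ∈ F N, ∀ j < N, ev j f = x j := by
  obtain ⟨f, hf, h⟩ := exists_FF N hN x
  exact ⟨mk f hf, mk_mem f hf, h⟩

/-- two elements of `F N` with the same first `N` coordinates are equal -/
lemma F_ext {N : ℕ} (hN : 0 < N) {f g : E} (hf : f ∈ F N) (hg : g ∈ F N)
    (h : ∀ j < N, ev j f = ev j g) : f = g := by
  have : ‖f - g‖ ≤ 0 := norm_F_le hN ((F N).sub_mem hf hg) (fun j hj => by
    rw [map_sub, h j hj]; simp)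
  exact sub_eq_zero.1 (norm_le_zero_iff.1 this)

/-- the dense union -/
def Ed : Set E := {f | ∃ N, f ∈ F N}

lemma zero_mem_Ed : (0 : E) ∈ Ed := ⟨0, (F 0).zero_mem⟩

lemma dense_Ed : Dense Ed := by
  intro f
  rw [Metric.mem_closure_iff]
  intro ε hε
  have hf : inc f ∈ closure (UF : Set (ℕ →ᵇ ℝ)) := by
    have := (show ↥(UF.topologicalClosure) from f).2
    exact this
  rw [Metric.mem_closure_iff] at hf
  obtain ⟨g, hg, hd⟩ := hf ε hε
  obtain ⟨N, hN⟩ := mem_UF.1 hg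
  exact ⟨mk g hN, ⟨N, hN⟩, hd⟩

/-- exact ball property on `Ed` -/
theorem ballPropOn_Ed : BallPropOn Ed := by
  intro n x r hx hd
  choose! N hN using hx
  -- a common N
  obtain ⟨K, hK0, hK⟩ : ∃ K, 0 < K ∧ ∀ i ≤ n, x i ∈ F K := by
    refine ⟨(Finset.range (n+1)).sup N + 1, by omega, ?_⟩
    intro i hi
    refine F_mono ?_ (hN i hi)
    have h1 : i ∈ Finset.range (n+1) := Finset.mem_range.2 (Nat.lt_succ_of_le hi)
    have h2 : N i ≤ (Finset.range (n+1)).sup N := Finset.le_sup (f := N) h1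
    exact h2.trans (Nat.le_succ _)
  have hne : (Finset.range (n+1)).Nonempty := ⟨0, Finset.mem_range.2 (Nat.succ_pos n)⟩
  obtain ⟨y, hy, hyv⟩ := exists_F K hK0
    (fun j => (Finset.range (n+1)).sup' hne (fun i => ev j (x i) - r i))
  refine ⟨y, ⟨K, hy⟩, ?_⟩
  intro i hi
  rw [dist_eq_norm]
  refine norm_F_le hK0 ((F K).sub_mem hy (hK i hi)) ?_
  intro j hj
  rw [map_sub, hyv j hj, abs_le]
  constructor
  · have h1 : i ∈ Finset.range (n+1) := Finset.mem_range.2 (Nat.lt_succ_of_le hi)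
    have := Finset.le_sup' (fun i => ev j (x i) - r i) h1
    linarith
  · have : (Finset.range (n+1)).sup' hne (fun i => ev j (x i) - r i) ≤ ev j (x i) + r i := by
      refine Finset.sup'_le _ _ ?_
      intro k hk
      have hk' : k ≤ n := Nat.lt_succ_iff.1 (Finset.mem_range.1 hk)
      have h1 := hd k hk' i hi
      rw [dist_eq_norm] at h1
      have h2 := abs_ev_le j (x k - x i)
      rw [map_sub] at h2
      have h3 := (abs_le.1 (h2.trans h1)).2
      linarith
    linarith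

/-- a dense sequence in `Ed` -/
theorem exists_dense_seq : ∃ ec : ℕ → E, (∀ i, ec i ∈ Ed) ∧ DenseRange ec := by
  classical
  -- index set
  let I : Type := Σ N : ℕ, (Fin (N+1) → ℚ)
  have hex : ∀ q : I, ∃ f ∈ F (q.1 + 1), ∀ j < q.1 + 1,
      ev j f = (if h : j < q.1 + 1 then (q.2 ⟨j, h⟩ : ℝ) else 0) := fun q =>
    exists_F (q.1 + 1) (Nat.succ_pos _) _
  choose g hg hgv using hex
  have hI : Nonempty I := ⟨⟨0, fun _ => 0⟩⟩
  obtain ⟨e, he⟩ := exists_surjective_nat I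
  refine ⟨fun i => g (e i), fun i => ⟨_, hg _⟩, ?_⟩
  intro f
  rw [Metric.mem_closure_iff]
  intro ε hε
  obtain ⟨f1, ⟨N, hN⟩, hf1⟩ := Metric.mem_closure_iff.1 (dense_Ed f) (ε/2) (by positivity)
  have hq : ∀ j : Fin (N+1), ∃ q : ℚ, |(q : ℝ) - ev j f1| < ε/4 := by
    intro j
    obtain ⟨q, h1, h2⟩ := exists_rat_btwn (show ev j f1 - ε/4 < ev j f1 + ε/4 by linarith)
    exact ⟨q, abs_lt.2 ⟨by linarith, by linarith⟩⟩
  choose q hq using hq
  obtain ⟨i, hi⟩ := he ⟨N, q⟩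
  refine ⟨g (e i), ⟨i, rfl⟩, ?_⟩
  rw [hi]
  have h1 : ‖g ⟨N, q⟩ - f1‖ ≤ ε/4 := by
    refine norm_F_le (N := N+1) (Nat.succ_pos _)
      ((F (N+1)).sub_mem (hg ⟨N, q⟩) (F_mono (Nat.le_succ N) hN)) ?_
    intro j hj
    rw [map_sub, hgv ⟨N, q⟩ j hj, dif_pos hj]
    exact (hq ⟨j, hj⟩).le
  have h2 : dist f1 (g ⟨N, q⟩) ≤ ε/4 := by
    rw [dist_comm, dist_eq_norm]; exact h1
  calc dist f (g ⟨N, q⟩) ≤ dist f f1 + dist f1 (g ⟨N, q⟩) := dist_triangle _ _ _
    _ < ε := by linarith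

end P124H186.T2
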