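import Vale.Agent.P124.H186.T4core

/-! P124, T4, CASE G (helper826): great height. -/

namespace P124H186

variable {g : Geo} {n : ℕ} {t0 : ℕ} {rho : ℝ} {sig : ℕ → ℝ}

/-- CASE G: great height. `p := fun _ => pt`, `Th := 5*h`, `w` = end of the canonical chain,
`gam := h - rho - rho/1000`, `r := 40*h`, `h := sig t0 - sig pt`. -/
theorem caseG (hg : Valid n g) (ht0 : t0 ≤ n) (hrho : 0 < rho) {ts pt : ℕ} (hts : ts ≤ t0)
    (hsig : IsSig g ts t0 sig) (hpt : pt ≤ ts) (hnear : ∀ k ≤ ts, g.D t0 pt ≤ g.D t0 k)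
    (hd : g.D t0 pt ≤ 10^8 * rho) (hh : 6/5 * rho ≤ sig t0 - sig pt) :
    ∃ ts w R, IsCS g t0 rho ts w R := by
  obtain ⟨h, hhdef⟩ : ∃ h, h = sig t0 - sig pt := ⟨_, rfl⟩
  rw [← hhdef] at hh
  have hd0 : 0 ≤ g.D t0 pt := hg.D_nonneg ht0 (by omega)
  have hhd : h ≤ g.D t0 pt := by
    rw [hhdef]
    exact hg.S_lip t0 ht0 sig hsig.mem t0 le_rfl pt (by omega)
  have hTh : 0 < 5 * h := by linarith
  have hp : ∀ t, ts ≤ t → t < t0 → (fun _ : ℕ => pt) (t+1) ≤ t := fun t h1 _ => by
    show pt ≤ t
    omega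
  -- general bounds for states
  have key : ∀ {t u v : ℕ} {Q As Ac : ℝ}, St g t0 rho sig (fun _ => pt) (5 * h) t u v Q As Ac →
      ts ≤ t → sig t0 - sig v ≤ h + g.D v pt / 10^15 ∧
        g.D v pt + Ac ≤ 8 * 10^8 * rho ∧
        g.D v pt ≤ g.D t0 pt + (sig t0 - sig v) - (1 - 1/10^15) * Ac + (1 + 1/10^15) * As ∧
        0 ≤ g.D v pt := by
    intro t u v Q As Ac hst ht
    have hinv := hst.inv hg ht0 hsig hTh hrho ht
    have hI3 := hst.I3 (t1 := ts) (q := pt) hg ht0 hsig hTh hrho (fun _ _ _ => rfl) hpt ht ht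
    have hv0 : v ≤ t0 := hinv.v_le.trans hinv.t_le
    have h1 := hsig.lower hg ht0 hpt hts hv0
    have h2 := hg.D_symm pt (by omega) v (by omega)
    have h3 := hg.D_nonneg (i := v) (j := pt) (by omega) (by omega)
    have h4 := hinv.As0
    have h5 := hinv.AsT
    have h6 := hinv.Ac0
    rw [h2] at h1
    refine ⟨by linarith, ?_, by linarith, h3⟩
    have h7 : (1 - 1/10^15) * (g.D v pt + Ac) ≤ g.D t0 pt + h + (1 + 1/10^15) * (5 * h) := by
      nlinarith
    nlinarith
  obtain ⟨w, Qw, Acw, hw⟩ := St.canonical (rho := rho) (Th := 5 * h) (p := fun _ => pt) hg ht0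
    hsig hTh hrho hp le_rfl hts
  have hwinv := hw.inv hg ht0 hsig hTh hrho le_rfl
  obtain ⟨hw1, hw2, hw3, hw4⟩ := key hw le_rfl
  have hwts : w ≤ ts := hwinv.v_le
  have hwAc0 := hwinv.Ac0
  have hwH : sig t0 - sig w ≤ h + rho / 10^6 := by linarith
  -- endpoint bounds at time ts
  have near : ∀ {u v : ℕ} {Q As Ac : ℝ}, St g t0 rho sig (fun _ => pt) (5 * h) ts u v Q As Ac →
      g.D v pt ≤ 2 * h + 2 * As + rho / 10^5 := by
    intro u v Q As Ac hst
    have hinv := hst.inv hg ht0 hsig hTh hrho le_rfl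
    obtain ⟨k1, k2, k3, k4⟩ := key hst le_rfl
    have k5 := hnear v hinv.v_le
    have k6 := hinv.I4
    have k7 := hinv.As0
    have k8 := hinv.AsT
    have k9 := hinv.Ac0
    linarith
  have hwpt : g.D w pt ≤ 2 * h + rho / 10^5 := by
    have := near hw
    linarith
  refine ⟨ts, w, RR g t0 rho sig (fun _ => pt) (5 * h) w (h - rho - rho / 1000), ?_⟩
  have hstop : StopOK g t0 rho sig (fun _ => pt) (5 * h) ts w (h - rho - rho / 1000) := by
    intro t u v Q As Ac ht1 ht2 hst P hP hPT s hs hsP
    have hinv := hst.inv hg ht0 hsig hTh hrho ht1.le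
    obtain ⟨k1, k2, k3, k4⟩ := key hst ht1.le
    have hBw : ∀ s ∈ g.S t0, |s t0 - s w| ≤ sig t0 - sig w + 2 * (Acw + 0) / 10^15 :=
      hwinv.I6
    have k5 := hst.stop hg ht0 hsig hTh hrho ht1.le hwts hBw hP hPT hs hsP
    have k9 := hinv.Ac0
    linarith
  obtain ⟨p0, pA, pB1, pB2⟩ := RR.persist hg ht0 hts hsig hTh hrho hp hwts hstop
  refine ⟨hrho, hts, hwts, p0, pA, pB1, pB2, ?_, ?_, ?_, ?_, ?_⟩
  · -- Rle
    rintro t ht1 ht2 u q (⟨v, Q, As, Ac, hst, -⟩ | ⟨hu, -⟩)
    · exact (hst.inv hg ht0 hsig hTh hrho ht1).u_le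
    · omega
  · -- Rlow
    rintro t ht1 ht2 u q (⟨v, Q, As, Ac, hst, hq⟩ | ⟨hu, hq⟩)
    · have hinv := hst.inv hg ht0 hsig hTh hrho ht1
      obtain ⟨k1, k2, k3, k4⟩ := key hst ht1
      have k5 := hinv.Q0
      have k8 := hinv.AsT
      rw [hq]
      linarith
    · rw [hq]
      linarith
  · -- Rfar
    rintro t ht1 ht2 u q (⟨v, Q, As, Ac, hst, hq⟩ | ⟨hu, hq⟩)
    · have hinv := hst.inv hg ht0 hsig hTh hrho ht1
      obtain ⟨k1, k2, k3, k4⟩ := key hst ht1
      have hut := hinv.u_le
      have hvt := hinv.v_le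
      have e1 := hg.D_tri w (by omega) pt (by omega) u (by omega)
      have e2 := hg.D_tri pt (by omega) v (by omega) u (by omega)
      have e3 := hg.D_symm pt (by omega) v (by omega)
      have e4 := hg.D_symm v (by omega) u (by omega)
      have k5 := hinv.I2
      have k6 := hinv.As0
      have k8 := hinv.AsT
      have k9 := hinv.Ac0
      rw [hq]
      linarith
    · rw [hq, hu, hg.D_self w (by omega)]
      linarith
  · -- R5
    have e1 := hg.D_tri t0 (by omega) pt (by omega) w (by omega)
    have e2 := hg.D_symm pt (by omega) w (by omega)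
    linarith
  · -- R4
    refine ⟨40 * h, h - rho - rho / 1000, by linarith, ?_, Or.inl (by linarith), ?_⟩
    · rintro s hs lam hsat u q (⟨v, Q, As, Ac, hst, hq⟩ | ⟨hu, hq⟩)
      · have hinv := hst.inv hg ht0 hsig hTh hrho le_rfl
        obtain ⟨k1, k2, k3, k4⟩ := key hst le_rfl
        have kn := near hst
        have hut := hinv.u_le
        have hvt := hinv.v_le
        have e0 := hsat u _ ⟨hut, rfl⟩
        have e1 := hg.D_tri w (by omega) pt (by omega) u (by omega)
        have e2 := hg.D_tri pt (by omega) v (by omega) u (by omega)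
        have e3 := hg.D_symm pt (by omega) v (by omega)
        have e4 := hg.D_symm v (by omega) u (by omega)
        have e5 := hg.D_tri u (by omega) w (by omega) pt (by omega)
        have e6 := hg.D_symm u (by omega) w (by omega)
        have k5 := hinv.I2
        have k6 := hinv.As0
        have k7 := hinv.AsT
        have k8 := hinv.Ac0
        have k9 := hinv.I5
        have kf := hsig.flat u hut pt hpt
        have ex0 := hg.D_nonneg (i := w) (j := u) (by omega) (by omega)
        have hmax : Psi (40 * h) (g.D w u) + (h - rho - rho / 1000) ≤ q := by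
          rw [hq]
          unfold Psi
          rcases le_total (g.D w u) (40 * h) with hx | hx
          · have : max (g.D w u / 10^15) (g.D w u - (1 - 1/10^15) * (40 * h)) ≤
                (40 * h) / 10^15 := by
              apply max_le
              · linarith
              · linarith
            linarith
          · have : max (g.D w u / 10^15) (g.D w u - (1 - 1/10^15) * (40 * h)) ≤
                g.D w u - (1 - 1/10^15) * (40 * h) := by
              apply max_le
              · linarith
              · linarith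
            linarith
        linarith
      · have e0 := hsat w _ ⟨hwts, rfl⟩
        have : Psi (40 * h) (g.D w w) = 0 := by
          rw [hg.D_self w (by omega)]
          unfold Psi
          rw [max_eq_left]
          · norm_num
          · linarith
        rw [this] at e0
        rw [hu, hq]
        linarith
    · intro heq
      exfalso
      have := hnear t0 (by omega)
      rw [hg.D_self t0 ht0] at this
      linarith
end P124H186
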