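import Vale.Agent.P124.H186.T4core

/-! P124, T4, CASE I (helper186): jump. -/

namespace P124H186

variable {g : Geo} {n : ℕ} {t0 : ℕ} {rho : ℝ} {sig : ℕ → ℝ}

/-- CASE I: jump at `ts` (or `ts = 0`). -/
theorem caseI (hg : Valid n g) (ht0 : t0 ≤ n) (hrho : 0 < rho) {ts : ℕ} (hts : ts ≤ t0)
    (hsig : IsSig g ts t0 sig) (hd : g.D t0 ts ≤ 10^8 * rho)
    (hjump : ∀ k < ts, g.D t0 ts + 20 * rho ≤ g.D t0 k) (hh : sig t0 - sig ts < 6/5 * rho) :
    ∃ ts w R, IsCS g t0 rho ts w R := by
  have hTh : 0 < 6 * rho := by linarith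
  have hp : ∀ t, ts ≤ t → t < t0 → (fun _ : ℕ => ts) (t+1) ≤ t := fun t h1 _ => h1
  have hd0 : 0 ≤ g.D t0 ts := hg.D_nonneg ht0 (by omega)
  -- general bounds
  have key : ∀ {t u v : ℕ} {Q As Ac : ℝ}, St g t0 rho sig (fun _ => ts) (6 * rho) t u v Q As Ac →
      ts ≤ t → sig t0 - sig v ≤ 6/5 * rho + g.D v ts / 10^15 ∧
        g.D v ts + Ac ≤ 2 * 10^8 * rho ∧
        g.D v ts ≤ g.D t0 ts + (sig t0 - sig v) - (1 - 1/10^15) * Ac + (1 + 1/10^15) * As ∧
        0 ≤ g.D v ts := by
    intro t u v Q As Ac hst ht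
    have hinv := hst.inv hg ht0 hsig hTh hrho ht
    have hI3 := hst.I3 (t1 := ts) (q := ts) hg ht0 hsig hTh hrho (fun _ _ _ => rfl) le_rfl ht ht
    have hv0 : v ≤ t0 := hinv.v_le.trans hinv.t_le
    have h1 := hsig.lower hg ht0 (p := ts) le_rfl hts hv0
    have h2 := hg.D_symm ts (by omega) v (by omega)
    have h3 := hg.D_nonneg (i := v) (j := ts) (by omega) (by omega)
    have h4 := hinv.As0
    have h5 := hinv.AsT
    have h6 := hinv.Ac0
    rw [h2] at h1
    exact ⟨by linarith, by linarith, by linarith, h3⟩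
  -- all unstopped pairs end with v = ts
  have vts : ∀ {u v : ℕ} {Q As Ac : ℝ}, St g t0 rho sig (fun _ => ts) (6 * rho) ts u v Q As Ac →
      v = ts := by
    intro u v Q As Ac hst
    have hinv := hst.inv hg ht0 hsig hTh hrho le_rfl
    obtain ⟨k1, k2, k3, k4⟩ := key hst le_rfl
    by_contra hne
    have hlt : v < ts := lt_of_le_of_ne hinv.v_le hne
    have k5 := hjump v hlt
    have k6 := hinv.I4
    have k7 := hinv.As0
    have k8 := hinv.AsT
    have k9 := hinv.Ac0
    linarith
  obtain ⟨w', Qw, Acw, hw⟩ := St.canonical (rho := rho) (Th := 6 * rho) (p := fun _ => ts) hg ht0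
    hsig hTh hrho hp le_rfl hts
  have hw' : w' = ts := vts hw
  subst hw'
  have hwinv := hw.inv hg ht0 hsig hTh hrho le_rfl
  obtain ⟨hw1, hw2, hw3, hw4⟩ := key hw le_rfl
  have hwAc0 := hwinv.Ac0
  have hself : g.D w' w' = 0 := hg.D_self w' (by omega)
  have hstop : StopOK g t0 rho sig (fun _ => w') (6 * rho) w' w' 0 := by
    intro t u v Q As Ac ht1 ht2 hst P hP hPT s hs hsP
    have hinv := hst.inv hg ht0 hsig hTh hrho ht1.le
    obtain ⟨k1, k2, k3, k4⟩ := key hst ht1.le
    have hBw : ∀ s ∈ g.S t0, |s t0 - s w'| ≤ sig t0 - sig w' + 2 * (Acw + 0) / 10^15 :=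
      hwinv.I6
    have k5 := hst.stop hg ht0 hsig hTh hrho ht1.le (le_refl w') hBw hP hPT hs hsP
    have k9 := hinv.Ac0
    linarith
  obtain ⟨p0, pA, pB1, pB2⟩ := RR.persist hg ht0 hts hsig hTh hrho hp (le_refl w') hstop
  -- bounds of needs at ts
  have need : ∀ {u v : ℕ} {Q As Ac : ℝ},
      St g t0 rho sig (fun _ => w') (6 * rho) w' u v Q As Ac →
      g.D w' u - 6/5 * rho - rho - rho / 10^5 ≤ Q - (Ac + As) / 10^15 ∧
        - (rho / 10^5) ≤ Q - (Ac + As) / 10^15 := by
    intro u v Q As Ac hst
    have hinv := hst.inv hg ht0 hsig hTh hrho le_rfl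
    obtain ⟨k1, k2, k3, k4⟩ := key hst le_rfl
    have hv := vts hst
    subst hv
    have i2 := hinv.I2
    have k6 := hinv.As0
    have k7 := hinv.AsT
    have k8 := hinv.Ac0
    have k9 := hinv.Q0
    have hut := hinv.u_le
    have e1 := hg.D_symm u (by omega) v (by omega)
    constructor
    · linarith
    · linarith
  refine ⟨w', w', RR g t0 rho sig (fun _ => w') (6 * rho) w' 0, ?_⟩
  refine ⟨hrho, hts, le_rfl, p0, pA, pB1, pB2, ?_, ?_, ?_, ?_, ?_⟩
  · -- Rle
    rintro t ht1 ht2 u q (⟨v, Q, As, Ac, hst, -⟩ | ⟨hu, -⟩)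
    · exact (hst.inv hg ht0 hsig hTh hrho ht1).u_le
    · omega
  · -- Rlow
    rintro t ht1 ht2 u q (⟨v, Q, As, Ac, hst, hq⟩ | ⟨hu, hq⟩)
    · have hinv := hst.inv hg ht0 hsig hTh hrho ht1
      obtain ⟨k1, k2, k3, k4⟩ := key hst ht1
      have k5 := hinv.Q0
      have k8 := hinv.AsT
      rw [hq]
      linarith
    · rw [hq]
      have : 0 ≤ rho / 10^4 := by positivity
      linarith
  · -- Rfar
    rintro t ht1 ht2 u q (⟨v, Q, As, Ac, hst, hq⟩ | ⟨hu, hq⟩)
    · have hinv := hst.inv hg ht0 hsig hTh hrho ht1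
      obtain ⟨k1, k2, k3, k4⟩ := key hst ht1
      have hut := hinv.u_le
      have hvt := hinv.v_le
      have e2 := hg.D_tri w' (by omega) v (by omega) u (by omega)
      have e3 := hg.D_symm w' (by omega) v (by omega)
      have e4 := hg.D_symm v (by omega) u (by omega)
      have k5 := hinv.I2
      have k6 := hinv.As0
      have k8 := hinv.AsT
      have k9 := hinv.Ac0
      rw [hq]
      linarith
    · rw [hq, hu, hself]
      linarith
  · -- R5
    linarith
  · -- R4
    by_cases hB : 0 < w' ∧ ¬ g.isA w'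
    · -- founder
      obtain ⟨hpos, hnA⟩ := hB
      have hfar : ∀ l < w', 20 * rho ≤ g.D w' l := by
        intro l hl
        have e1 := hjump l hl
        have e2 := hg.D_tri t0 ht0 w' (by omega) l (by omega)
        linarith
      have hfou : ∀ l < w', 4 * (3 * rho) ≤ g.D w' l := by
        intro l hl
        have := hfar l hl
        linarith
      refine ⟨3 * rho, -(rho / 1000), by linarith, ?_, Or.inr ⟨rfl, hpos, hnA, hfou, by linarith⟩,
        fun h => ⟨h, Or.inr ⟨hpos, hnA, hfou, by linarith⟩⟩⟩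
      rintro s hs lam hsat u q (⟨v, Q, As, Ac, hst, hq⟩ | ⟨hu, hq⟩)
      · have hinv := hst.inv hg ht0 hsig hTh hrho le_rfl
        obtain ⟨n1, n2⟩ := need hst
        have hut := hinv.u_le
        have e0 := hsat u _ ⟨hut, rfl⟩
        rw [hq]
        rcases Nat.lt_or_ge u w' with hlt | hge
        · have e1 := hfar u hlt
          have hmax : Psi (3 * rho) (g.D w' u) ≤ g.D w' u - (1 - 1/10^15) * (3 * rho) := by
            unfold Psi
            apply max_le
            · linarith
            · exact le_rfl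
          linarith
        · have : u = w' := by omega
          subst this
          have hmax : Psi (3 * rho) (g.D u u) ≤ 0 := by
            unfold Psi
            rw [hself]
            apply max_le
            · simp
            · linarith
          linarith
      · have e0 := hsat w' _ ⟨le_rfl, rfl⟩
        have hmax : Psi (3 * rho) (g.D w' w') ≤ 0 := by
          unfold Psi
          rw [hself]
          apply max_le
          · simp
          · linarith
        rw [hq, hu]
        linarith
    · -- A-born or ts = 0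
      refine ⟨0, -(rho / 1000), le_rfl, ?_, Or.inl (by linarith), fun h => ⟨h, Or.inl rfl⟩⟩
      intro s hs lam hsat
      have e0 := hsat w' _ ⟨le_rfl, rfl⟩
      have hmax : Psi 0 (g.D w' w') ≤ 0 := by
        unfold Psi
        rw [hself]
        apply max_le
        · simp
        · linarith
      have hlam : lam ≤ s w' := by linarith
      rintro u q (⟨v, Q, As, Ac, hst, hq⟩ | ⟨hu, hq⟩)
      · have hinv := hst.inv hg ht0 hsig hTh hrho le_rfl
        obtain ⟨n1, n2⟩ := need hst
        have hut := hinv.u_le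
        rw [hq]
        rcases Nat.lt_or_ge u w' with hlt | hge
        · have hpos : 0 < w' := by omega
          have hA : g.isA w' := by
            by_contra hnA
            exact hB ⟨hpos, hnA⟩
          obtain ⟨k, hk⟩ : ∃ k, w' = k + 1 := ⟨w' - 1, by omega⟩
          rw [hk] at hA
          obtain ⟨l, hl, hD⟩ := hg.A_eq k (by omega) hA u (by omega)
          have hf := abs_le.1 (hg.A_flat k (by omega) hA s (hk ▸ hs) l hl)
          have h1 := hg.A_le k (by omega) hA l hl l hl
          have h2 := hg.D_self l (by omega)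
          have h3 := hjump l (by omega)
          have h4 := hg.D_tri t0 ht0 w' (by omega) l (by omega)
          have h5 := abs_le.1 (hg.lip (t := w') (i := u) (j := l) (by omega) hs hut (by omega))
          have h6 := hg.D_symm u (by omega) l (by omega)
          rw [hk] at h3 h4 n1 hlam
          rw [hk] at hd
          linarith [hf.1, hf.2, h5.1, h5.2]
        · have : u = w' := by omega
          subst this
          linarith
      · rw [hq, hu]
        linarith

end P124H186
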