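import Vale.Agent.P124.H186.T4core
import Vale.Agent.P124.H822.Merge

/-! P124 (helper822), T4: case S (slow approach). -/

namespace P124H186

variable {g : Geo} {n : ℕ} {t0 : ℕ} {rho : ℝ} {sig : ℕ → ℝ}

namespace CaseS

/-- the target function -/
def tg (a b : ℕ) (t : ℕ) : ℕ := if a < t then a else b

theorem tg_hi {a b t : ℕ} (h : a < t) : tg a b t = a := if_pos h
theorem tg_lo {a b t : ℕ} (h : t ≤ a) : tg a b t = b := if_neg (by omega)

/-- (I3) above `a` -/
theorem i3a (hg : Valid n g) (ht0 : t0 ≤ n) (hrho : 0 < rho) {a b : ℕ} (hab : b < a)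
    (hsig : IsSig g b t0 sig)
    {t u v : ℕ} {Q As Ac : ℝ}
    (h : St g t0 rho sig (tg a b) (6 * rho) t u v Q As Ac) (ht : a ≤ t) :
    g.D v a + sig v ≤ g.D t0 a + sig t0 - (1 - 1/10^15) * Ac + (1 + 1/10^15) * As :=
  St.I3 hg ht0 hsig (by linarith) hrho (t1 := a) (q := a)
    (fun t h1 _ => tg_hi (by omega)) le_rfl h (by omega) ht

/-- the first bound, all times -/
theorem k1 (hg : Valid n g) (ht0 : t0 ≤ n) (hrho : 0 < rho) {a b : ℕ} (hab : b < a)
    (ha : a ≤ t0) (hsig : IsSig g b t0 sig)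
    {t u v : ℕ} {Q As Ac : ℝ}
    (h : St g t0 rho sig (tg a b) (6 * rho) t u v Q As Ac) (ht : b ≤ t) :
    g.D v b + sig v ≤ 2 * g.D t0 a + g.D t0 b + sig t0 - (1 - 1/10^15) * Ac +
      (1 + 1/10^15) * As := by
  have hTh : (0 : ℝ) < 6 * rho := by linarith
  have hi : ∀ {t u v : ℕ} {Q As Ac : ℝ}, St g t0 rho sig (tg a b) (6 * rho) t u v Q As Ac →
      a ≤ t → g.D v b + sig v ≤ 2 * g.D t0 a + g.D t0 b + sig t0 - (1 - 1/10^15) * Ac +
      (1 + 1/10^15) * As := by
    intro t u v Q As Ac h ht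
    have h3 := i3a hg ht0 hrho hab hsig h ht
    have hinv := St.inv hg ht0 hsig hTh hrho h (by omega)
    have hv := hinv.v_le
    have hte := hinv.t_le
    have h4 := hg.D_tri v (by omega) a (by omega) b (by omega)
    have h5 := hg.D_tri a (by omega) t0 ht0 b (by omega)
    have h6 := hg.D_symm a (by omega) t0 ht0
    linarith
  induction h with
  | init c hc => exact hi (St.init c hc) ha
  | @keep t u v Q As Ac h hu hv ih => exact ih (by omega)
  | @uA t v l Q As Ac h hv hA hl hD hT ih =>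
    have h1 := ih (by omega)
    have hte := h.t_le
    have hP := hg.P_nonneg (t := t) (by omega) hA hl
    linarith
  | @vA t u l Q As Ac h hu hA hl hD hT ih =>
    have h1 := ih (by omega)
    have hte := h.t_le
    have hP := hg.P_nonneg (t := t) (by omega) hA hl
    have hf := abs_le.1 (hg.flatA (t' := t0) (by omega) ht0 hA hsig.mem hl)
    have hle := hg.A_le t (by omega) hA l hl l hl
    have h0 := hg.D_self l (by omega)
    have htri := hg.D_tri l (by omega) (t+1) (by omega) b (by omega)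
    have hsy := hg.D_symm l (by omega) (t+1) (by omega)
    linarith [hf.1, hf.2]
  | @cA t l Q As Ac h hA hl hD ih =>
    have h1 := ih (by omega)
    have hte := h.t_le
    rcases Nat.lt_or_ge t a with hta | hta
    · rw [tg_lo (by omega)] at hD
      have hP := hg.P_nonneg (t := t) (by omega) hA hl
      have hf := abs_le.1 (hg.flatA (t' := t0) (by omega) ht0 hA hsig.mem hl)
      linarith [hf.1, hf.2]
    · exact hi (St.cA h hA hl hD) hta
  | @uB t v l Q As Ac h hv hB hl ih => exact ih (by omega)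
  | @vB t u l Q As Ac h hu hB hl hs ih =>
    have h1 := ih (by omega)
    have hte := h.t_le
    have htri := hg.D_tri l (by omega) (t+1) (by omega) b (by omega)
    have hsy := hg.D_symm l (by omega) (t+1) (by omega)
    linarith
  | @cB t l l' Q As Ac h hB hl hl' hs ih =>
    have h1 := ih (by omega)
    have hte := h.t_le
    have htri := hg.D_tri l' (by omega) (t+1) (by omega) b (by omega)
    have hsy := hg.D_symm l' (by omega) (t+1) (by omega)
    linarith

/-- bounds for all states -/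
theorem bounds (hg : Valid n g) (ht0 : t0 ≤ n) (hrho : 0 < rho) {a b : ℕ} (hab : b < a)
    (ha : a ≤ t0) (hsig : IsSig g b t0 sig)
    (hd : g.D t0 b ≤ 10^8 * rho) (hgap : g.D t0 a + 80 * rho ≤ g.D t0 b)
    (hh : sig t0 - sig b < 6/5 * rho)
    {t u v : ℕ} {Q As Ac : ℝ}
    (h : St g t0 rho sig (tg a b) (6 * rho) t u v Q As Ac) (ht : b ≤ t) :
    Inv g t0 rho sig (6 * rho) t u v Q As Ac ∧ Ac ≤ 4 * 10^8 * rho ∧
    g.D v b ≤ 4 * 10^8 * rho ∧ sig t0 - sig v ≤ 6/5 * rho + rho / 10^6 ∧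
    sig b - rho / 10^6 ≤ sig v := by
  have hTh : (0 : ℝ) < 6 * rho := by linarith
  have hinv := St.inv hg ht0 hsig hTh hrho h ht
  have h1 := k1 hg ht0 hrho hab ha hsig h ht
  have hv := hinv.v_le
  have hte := hinv.t_le
  have hlow := hsig.lower hg ht0 (p := b) le_rfl (by omega) (c := v) (by omega)
  have hDs : g.D b v = g.D v b := hg.D_symm b (by omega) v (by omega)
  have hD0 : 0 ≤ g.D v b := hg.D_nonneg (by omega) (by omega)
  have hAs0 := hinv.As0
  have hAsT := hinv.AsT
  have hAc0 := hinv.Ac0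
  rw [hDs] at hlow
  have hb1 : g.D v b ≤ 4 * 10^8 * rho := by nlinarith
  refine ⟨hinv, ?_, hb1, ?_, ?_⟩
  · nlinarith
  · linarith
  · linarith

/-- upper bound of `sig v` for the states at times `≤ a` -/
theorem sig_up (hg : Valid n g) (ht0 : t0 ≤ n) (hrho : 0 < rho) {a b : ℕ} (hab : b < a)
    (ha : a ≤ t0) (hsig : IsSig g b t0 sig) {sig' : ℕ → ℝ} (hsig' : IsSig g a t0 sig')
    (hd : g.D t0 b ≤ 10^8 * rho) (hgap : g.D t0 a + 80 * rho ≤ g.D t0 b)
    (hh : sig t0 - sig b < 6/5 * rho)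
    (hbeta : sig t0 - sig b ≤ sig' t0 - sig' a + 2/10^6 * rho)
    {t u v : ℕ} {Q As Ac : ℝ}
    (h : St g t0 rho sig (tg a b) (6 * rho) t u v Q As Ac) (ht : b ≤ t) (hta : t ≤ a) :
    sig v ≤ sig b + 4 / 10^6 * rho := by
  obtain ⟨hinv, hAc, hDv, hsv, hlow⟩ := bounds hg ht0 hrho hab ha hsig hd hgap hh h ht
  have hv := hinv.v_le
  have hte := hinv.t_le
  have h6 := abs_le.1 (hinv.I6 sig' hsig'.mem)
  have hfl := hsig'.flat v (by omega) a le_rfl
  have h4 := hg.D_tri v (by omega) b (by omega) a (by omega)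
  have h5 := hg.D_tri b (by omega) t0 ht0 a (by omega)
  have h7 := hg.D_symm b (by omega) t0 ht0
  have h8 := hinv.AsT
  have h9 := hg.D_nonneg (i := t0) (j := a) (by omega) (by omega)
  linarith [h6.2]

/-- the data carried below `a` -/
structure KS (g : Geo) (t0 : ℕ) (rho : ℝ) (sig : ℕ → ℝ) (a b : ℕ) (v u : ℕ)
    (Q As Ac : ℝ) : Prop where
  k2 : (g.D v a + sig v ≤ g.D t0 a + sig t0 - (1 - 1/10^15) * Ac + (1 + 1/10^15) * As) ∨
    (sig v - (sig b + 4 / 10^6 * rho) - Ac / 10^15 ≤ Q - g.D u v)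
  k5 : ∃ va ≤ a, g.D va a ≤ 15 * rho ∧ sig b - rho / 10^6 ≤ sig va ∧
    sig va ≤ sig b + 4 / 10^6 * rho ∧
    ∀ s ∈ g.S a, |s va - s v| ≤ sig va - sig v + 2 * (Ac + As) / 10^15

theorem ks_start (hg : Valid n g) (ht0 : t0 ≤ n) (hrho : 0 < rho) {a b : ℕ} (hab : b < a)
    (ha : a ≤ t0) (hsig : IsSig g b t0 sig) {sig' : ℕ → ℝ} (hsig' : IsSig g a t0 sig')
    (hna : ∀ k ≤ a, g.D t0 a ≤ g.D t0 k)
    (hd : g.D t0 b ≤ 10^8 * rho) (hgap : g.D t0 a + 80 * rho ≤ g.D t0 b)
    (hh : sig t0 - sig b < 6/5 * rho)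
    (hbeta : sig t0 - sig b ≤ sig' t0 - sig' a + 2/10^6 * rho)
    {t u v : ℕ} {Q As Ac : ℝ}
    (h : St g t0 rho sig (tg a b) (6 * rho) t u v Q As Ac) (hta : t = a) :
    KS g t0 rho sig a b v u Q As Ac := by
  subst hta
  obtain ⟨hinv, hAc, hDv, hsv, hlow⟩ := bounds hg ht0 hrho hab ha hsig hd hgap hh h hab.le
  have hup := sig_up hg ht0 hrho hab ha hsig hsig' hd hgap hh hbeta h hab.le le_rfl
  have h3 := i3a hg ht0 hrho hab hsig h le_rfl
  have hv := hinv.v_le
  have h4 := hinv.I4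
  have h5 := hna v hv
  have h6 := hinv.AsT
  have h7 := hinv.As0
  have h8 := hinv.Ac0
  refine ⟨Or.inl h3, v, hv, ?_, hlow, hup, ?_⟩
  · linarith
  · intro s _
    rw [sub_self, sub_self, abs_zero, zero_add]
    positivity

theorem ks (hg : Valid n g) (ht0 : t0 ≤ n) (hrho : 0 < rho) {a b : ℕ} (hab : b < a)
    (ha : a ≤ t0) (hsig : IsSig g b t0 sig) {sig' : ℕ → ℝ} (hsig' : IsSig g a t0 sig')
    (hna : ∀ k ≤ a, g.D t0 a ≤ g.D t0 k)
    (hd : g.D t0 b ≤ 10^8 * rho) (hgap : g.D t0 a + 80 * rho ≤ g.D t0 b)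
    (hh : sig t0 - sig b < 6/5 * rho)
    (hbeta : sig t0 - sig b ≤ sig' t0 - sig' a + 2/10^6 * rho)
    {t u v : ℕ} {Q As Ac : ℝ}
    (h : St g t0 rho sig (tg a b) (6 * rho) t u v Q As Ac) :
    b ≤ t → t ≤ a → KS g t0 rho sig a b v u Q As Ac := by
  have st : ∀ {t u v : ℕ} {Q As Ac : ℝ}, St g t0 rho sig (tg a b) (6 * rho) t u v Q As Ac →
      t = a → KS g t0 rho sig a b v u Q As Ac := fun h hta =>
    ks_start hg ht0 hrho hab ha hsig hsig' hna hd hgap hh hbeta h hta
  induction h with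
  | init c hc => exact fun _ h2 => st (St.init c hc) (by omega)
  | @keep t u v Q As Ac h hu hv ih =>
    intro hb hta
    rcases Nat.lt_or_ge t a with hlt | hge
    · exact ih (by omega) (by omega)
    · exact st (St.keep h hu hv) (by omega)
  | @uA t v l Q As Ac h hv hA hl hD hT ih =>
    intro hb hta
    rcases Nat.lt_or_ge t a with hlt | hge
    · obtain ⟨h2, va, hva, h5, h6, h7, h8⟩ := ih (by omega) (by omega)
      have hte := h.t_le
      have hP := hg.P_nonneg (t := t) (by omega) hA hl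
      refine ⟨?_, va, hva, h5, h6, h7, ?_⟩
      · rcases h2 with h2 | h2
        · left; linarith
        · right; linarith
      · intro s hs
        have := h8 s hs
        linarith
    · exact st (St.uA h hv hA hl hD hT) (by omega)
  | @vA t u l Q As Ac h hu hA hl hD hT ih =>
    intro hb hta
    rcases Nat.lt_or_ge t a with hlt | hge
    · obtain ⟨h2, va, hva, h5, h6, h7, h8⟩ := ih (by omega) (by omega)
      have hte := h.t_le
      have hP := hg.P_nonneg (t := t) (by omega) hA hl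
      have hf := abs_le.1 (hg.flatA (t' := t0) (by omega) ht0 hA hsig.mem hl)
      have hle := hg.A_le t (by omega) hA l hl l hl
      have h0 := hg.D_self l (by omega)
      have htri := hg.D_tri l (by omega) (t+1) (by omega) a (by omega)
      have hsy := hg.D_symm l (by omega) (t+1) (by omega)
      have hsu := hg.D_symm u (by omega) (t+1) (by omega)
      have hsl := hg.D_symm u (by omega) l (by omega)
      refine ⟨?_, va, hva, h5, h6, h7, ?_⟩
      · rcases h2 with h2 | h2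
        · left; linarith [hf.1, hf.2]
        · right; linarith [hf.1, hf.2]
      · intro s hs
        have h9 := abs_le.1 (h8 s hs)
        have hfs := abs_le.1 (hg.flatA (t' := a) (by omega) (by omega) hA hs hl)
        rw [abs_le]
        constructor <;> linarith [hf.1, hf.2, hfs.1, hfs.2, h9.1, h9.2]
    · exact st (St.vA h hu hA hl hD hT) (by omega)
  | @cA t l Q As Ac h hA hl hD ih =>
    intro hb hta
    rcases Nat.lt_or_ge t a with hlt | hge
    · obtain ⟨h2, va, hva, h5, h6, h7, h8⟩ := ih (by omega) (by omega)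
      have hte := h.t_le
      have hP := hg.P_nonneg (t := t) (by omega) hA hl
      have hf := abs_le.1 (hg.flatA (t' := t0) (by omega) ht0 hA hsig.mem hl)
      have hnew := St.cA h hA hl hD
      have hup := sig_up hg ht0 hrho hab ha hsig hsig' hd hgap hh hbeta hnew hb hta
      have hinv := (bounds hg ht0 hrho hab ha hsig hd hgap hh hnew hb).1
      have hQ := hinv.Q0
      have hAc := hinv.Ac0
      refine ⟨?_, va, hva, h5, h6, h7, ?_⟩
      · right
        rw [hg.D_self l (by omega)]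
        have : 0 ≤ (Ac + g.P (t+1) l) / 10^15 := by positivity
        linarith
      · intro s hs
        have h9 := abs_le.1 (h8 s hs)
        have hfs := abs_le.1 (hg.flatA (t' := a) (by omega) (by omega) hA hs hl)
        rw [abs_le]
        constructor <;> linarith [hf.1, hf.2, hfs.1, hfs.2, h9.1, h9.2]
    · exact st (St.cA h hA hl hD) (by omega)
  | @uB t v l Q As Ac h hv hB hl ih =>
    intro hb hta
    rcases Nat.lt_or_ge t a with hlt | hge
    · obtain ⟨h2, va, hva, h5, h6, h7, h8⟩ := ih (by omega) (by omega)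
      have hte := h.t_le
      have htri := hg.D_tri l (by omega) (t+1) (by omega) v (by omega)
      have hsy := hg.D_symm l (by omega) (t+1) (by omega)
      refine ⟨?_, va, hva, h5, h6, h7, h8⟩
      rcases h2 with h2 | h2
      · left; linarith
      · right; linarith
    · exact st (St.uB h hv hB hl) (by omega)
  | @vB t u l Q As Ac h hu hB hl hs ih =>
    intro hb hta
    rcases Nat.lt_or_ge t a with hlt | hge
    · obtain ⟨h2, va, hva, h5, h6, h7, h8⟩ := ih (by omega) (by omega)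
      have hte := h.t_le
      have htri := hg.D_tri u (by omega) (t+1) (by omega) l (by omega)
      have htri2 := hg.D_tri l (by omega) (t+1) (by omega) a (by omega)
      have hsy := hg.D_symm l (by omega) (t+1) (by omega)
      refine ⟨?_, va, hva, h5, h6, h7, ?_⟩
      · rcases h2 with h2 | h2
        · left; linarith
        · right; linarith
      · intro s hs'
        have h9 := abs_le.1 (h8 s hs')
        have hfs := abs_le.1 (hg.lip (by omega) hs' (i := t+1) (j := l) (by omega) (by omega))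
        rw [abs_le]
        constructor <;> linarith [hfs.1, hfs.2, h9.1, h9.2]
    · exact st (St.vB h hu hB hl hs) (by omega)
  | @cB t l l' Q As Ac h hB hl hl' hs ih =>
    intro hb hta
    rcases Nat.lt_or_ge t a with hlt | hge
    · obtain ⟨h2, va, hva, h5, h6, h7, h8⟩ := ih (by omega) (by omega)
      have hte := h.t_le
      have htri := hg.D_tri l (by omega) (t+1) (by omega) l' (by omega)
      have htri2 := hg.D_tri l' (by omega) (t+1) (by omega) a (by omega)
      have hsy := hg.D_symm l (by omega) (t+1) (by omega)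
      have hsy' := hg.D_symm l' (by omega) (t+1) (by omega)
      have h0 := hg.D_self (t+1) (by omega)
      refine ⟨?_, va, hva, h5, h6, h7, ?_⟩
      · rcases h2 with h2 | h2
        · left; linarith
        · right; linarith
      · intro s hs'
        have h9 := abs_le.1 (h8 s hs')
        have hfs := abs_le.1 (hg.lip (by omega) hs' (i := t+1) (j := l') (by omega) (by omega))
        rw [abs_le]
        constructor <;> linarith [hfs.1, hfs.2, h9.1, h9.2]
    · exact st (St.cB h hB hl hl' hs) (by omega)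

/-- at the stop time the need is far enough -/
theorem end_q (hg : Valid n g) (ht0 : t0 ≤ n) (hrho : 0 < rho) {a b : ℕ} (hab : b < a)
    (ha : a ≤ t0) (hsig : IsSig g b t0 sig) {sig' : ℕ → ℝ} (hsig' : IsSig g a t0 sig')
    (hna : ∀ k ≤ a, g.D t0 a ≤ g.D t0 k) (hnb : ∀ k ≤ b, g.D t0 b ≤ g.D t0 k)
    (hd : g.D t0 b ≤ 10^8 * rho) (hgap : g.D t0 a + 80 * rho ≤ g.D t0 b)
    (hh : sig t0 - sig b < 6/5 * rho)
    (hbeta : sig t0 - sig b ≤ sig' t0 - sig' a + 2/10^6 * rho)
    {u v : ℕ} {Q As Ac : ℝ}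
    (h : St g t0 rho sig (tg a b) (6 * rho) b u v Q As Ac) :
    g.D u v - 7 / 10^6 * rho ≤ Q - (Ac + As) / 10^15 := by
  obtain ⟨hinv, hAc, hDv, hsv, hlow⟩ := bounds hg ht0 hrho hab ha hsig hd hgap hh h le_rfl
  have hks := ks hg ht0 hrho hab ha hsig hsig' hna hd hgap hh hbeta h le_rfl hab.le
  have hv := hinv.v_le
  have hAsT := hinv.AsT
  have hAs0 := hinv.As0
  rcases hks.k2 with h2 | h2
  · exfalso
    have h4 := hinv.I4
    have h5 := hnb v hv
    have h6 := hg.D_tri t0 ht0 a (by omega) v (by omega)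
    have h7 := hg.D_symm a (by omega) v (by omega)
    linarith
  · linarith

/-- at the stop time all second coordinates are equivalent -/
theorem end_v (hg : Valid n g) (ht0 : t0 ≤ n) (hrho : 0 < rho) {a b : ℕ} (hab : b < a)
    (ha : a ≤ t0) (hsig : IsSig g b t0 sig) {sig' : ℕ → ℝ} (hsig' : IsSig g a t0 sig')
    (hna : ∀ k ≤ a, g.D t0 a ≤ g.D t0 k) (hnb : ∀ k ≤ b, g.D t0 b ≤ g.D t0 k)
    (hd : g.D t0 b ≤ 10^8 * rho) (hgap : g.D t0 a + 80 * rho ≤ g.D t0 b)
    (hh : sig t0 - sig b < 6/5 * rho)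
    (hbeta : sig t0 - sig b ≤ sig' t0 - sig' a + 2/10^6 * rho)
    {u v : ℕ} {Q As Ac : ℝ}
    (h : St g t0 rho sig (tg a b) (6 * rho) b u v Q As Ac)
    {u' v' : ℕ} {Q' As' Ac' : ℝ}
    (h' : St g t0 rho sig (tg a b) (6 * rho) b u' v' Q' As' Ac')
    {s : ℕ → ℝ} (hs : s ∈ g.S b) : s v' - s v ≤ rho / 10^4 := by
  obtain ⟨hinv, hAc, hDv, hsv, hlow⟩ := bounds hg ht0 hrho hab ha hsig hd hgap hh h le_rfl
  obtain ⟨hinv', hAc', hDv', hsv', hlow'⟩ := bounds hg ht0 hrho hab ha hsig hd hgap hh h' le_rfl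
  obtain ⟨-, x, hx, hx1, hx2, hx3, hx4⟩ :=
    ks hg ht0 hrho hab ha hsig hsig' hna hd hgap hh hbeta h le_rfl hab.le
  obtain ⟨-, y, hy, hy1, hy2, hy3, hy4⟩ :=
    ks hg ht0 hrho hab ha hsig hsig' hna hd hgap hh hbeta h' le_rfl hab.le
  obtain ⟨s1, hs1, he⟩ := hg.ext (t' := a) hab.le (by omega) hs
  have hv := hinv.v_le
  have hv' := hinv'.v_le
  have e1 := he v hv
  have e2 := he v' hv'
  have h1 := abs_le.1 (hx4 s1 hs1)
  have h2 := abs_le.1 (hy4 s1 hs1)
  have a1 := hg.D_symm x (by omega) a (by omega)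
  have a2 := hg.D_symm y (by omega) a (by omega)
  have a3 := hg.D_tri y (by omega) a (by omega) x (by omega)
  have a4 := hg.D_tri t0 ht0 a (by omega) x (by omega)
  have a5 := hg.D_tri t0 ht0 a (by omega) y (by omega)
  have hm := merge hg ht0 hrho hsig hd hnb hab.le ha y hy x hx (by linarith) (by linarith)
    s1 hs1
  have b1 := hinv.AsT
  have b2 := hinv'.AsT
  rw [← e1, ← e2]
  linarith [h1.1, h1.2, h2.1, h2.2]

theorem stopOK (hg : Valid n g) (ht0 : t0 ≤ n) (hrho : 0 < rho) {a b : ℕ} (hab : b < a)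
    (ha : a ≤ t0) (hsig : IsSig g b t0 sig)
    (hd : g.D t0 b ≤ 10^8 * rho) (hgap : g.D t0 a + 80 * rho ≤ g.D t0 b)
    (hh : sig t0 - sig b < 6/5 * rho)
    {w : ℕ} {Q' Ac' : ℝ} (hc : St g t0 rho sig (tg a b) (6 * rho) b w w Q' 0 Ac') :
    StopOK g t0 rho sig (tg a b) (6 * rho) b w 0 := by
  intro t u v Q As Ac ht htt0 h P hP hPT s hs hsP
  have hTh : (0 : ℝ) < 6 * rho := by linarith
  obtain ⟨hinv, hAc, hDv, hsv, hlow⟩ := bounds hg ht0 hrho hab ha hsig hd hgap hh h ht.le
  obtain ⟨hinv', hAc', hDv', hsv', hlow'⟩ := bounds hg ht0 hrho hab ha hsig hd hgap hh hc le_rfl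
  have hst := St.stop hg ht0 hsig hTh hrho h ht.le (w := w) hinv'.v_le hinv'.I6 hP hPT hs hsP
  linarith

end CaseS

/-- CASE S: slow approach. -/
theorem caseS (hg : Valid n g) (ht0 : t0 ≤ n) (hrho : 0 < rho) {a b : ℕ} (hab : b < a)
    (ha : a ≤ t0) {sig' : ℕ → ℝ} (hsig : IsSig g b t0 sig) (hsig' : IsSig g a t0 sig')
    (hna : ∀ k ≤ a, g.D t0 a ≤ g.D t0 k) (hnb : ∀ k ≤ b, g.D t0 b ≤ g.D t0 k)
    (hd : g.D t0 b ≤ 10^8 * rho) (hgap : g.D t0 a + 80 * rho ≤ g.D t0 b)
    (hh : sig t0 - sig b < 6/5 * rho)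
    (hbeta : sig t0 - sig b ≤ sig' t0 - sig' a + 2/10^6 * rho) :
    ∃ ts w R, IsCS g t0 rho ts w R := by
  have hTh : (0 : ℝ) < 6 * rho := by linarith
  have hp : ∀ t, b ≤ t → t < t0 → CaseS.tg a b (t+1) ≤ t := by
    intro t h1 h2
    unfold CaseS.tg
    split_ifs <;> omega
  obtain ⟨w, Q0, Ac0, hc⟩ := St.canonical hg ht0 hsig hTh hrho hp (t := b) le_rfl (by omega)
  obtain ⟨hinv', hAc', hDv', hsv', hlow'⟩ :=
    CaseS.bounds hg ht0 hrho hab ha hsig hd hgap hh hc le_rfl
  have hw : w ≤ b := hinv'.v_le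
  obtain ⟨hR0, hRA, hRB1, hRB2⟩ := RR.persist hg ht0 (by omega) hsig hTh hrho hp
    (w := w) hw (CaseS.stopOK hg ht0 hrho hab ha hsig hd hgap hh hc)
  have hwb := hg.D_symm w (by omega) b (by omega)
  refine ⟨b, w, RR g t0 rho sig (CaseS.tg a b) (6 * rho) w 0, ?_⟩
  refine
    { rho_pos := hrho
      ts_le := by omega
      w_le := hw
      R0 := hR0
      RA := hRA
      RB1 := hRB1
      RB2 := hRB2
      Rle := ?_
      Rlow := ?_
      Rfar := ?_
      R5 := ?_
      R4 := ?_ }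
  · rintro t h1 h2 u q (⟨v, Q, As, Ac, h, rfl⟩ | ⟨rfl, rfl⟩)
    · exact (CaseS.bounds hg ht0 hrho hab ha hsig hd hgap hh h h1).1.u_le
    · omega
  · rintro t h1 h2 u q (⟨v, Q, As, Ac, h, rfl⟩ | ⟨rfl, rfl⟩)
    · obtain ⟨hinv, hAc, hDv, hsv, hlow⟩ :=
        CaseS.bounds hg ht0 hrho hab ha hsig hd hgap hh h h1
      have hQ := hinv.Q0
      have hAsT := hinv.AsT
      linarith
    · linarith
  · rintro t h1 h2 u q (⟨v, Q, As, Ac, h, rfl⟩ | ⟨rfl, rfl⟩)
    · obtain ⟨hinv, hAc, hDv, hsv, hlow⟩ :=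
        CaseS.bounds hg ht0 hrho hab ha hsig hd hgap hh h h1
      have h2 := hinv.I2
      have hu := hinv.u_le
      have hv := hinv.v_le
      have htt := hinv.t_le
      have htri := hg.D_tri w (by omega) b (by omega) u (by omega)
      have htri2 := hg.D_tri b (by omega) v (by omega) u (by omega)
      have hs1 := hg.D_symm b (by omega) v (by omega)
      have hs2 := hg.D_symm u (by omega) v (by omega)
      have hAsT := hinv.AsT
      have hAs0 := hinv.As0
      linarith
    · have := hg.D_self u (by omega)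
      linarith
  · have htri := hg.D_tri t0 ht0 b (by omega) w (by omega)
    linarith
  · refine ⟨0, -(rho / 1000), le_rfl, ?_, ?_, ?_⟩
    · intro s hs lam hsat u q hR
      have hc0 := hsat w (Psi 0 (g.D w w)) ⟨hw, rfl⟩
      have hPsi : Psi 0 (g.D w w) = 0 := by
        unfold Psi
        rw [hg.D_self w (by omega)]
        norm_num
      rw [hPsi] at hc0
      rcases hR with ⟨v, Q, As, Ac, h, rfl⟩ | ⟨rfl, rfl⟩
      · have hq := CaseS.end_q hg ht0 hrho hab ha hsig hsig' hna hnb hd hgap hh hbeta h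
        have hvw := CaseS.end_v hg ht0 hrho hab ha hsig hsig' hna hnb hd hgap hh hbeta h hc hs
        have hinv := (CaseS.bounds hg ht0 hrho hab ha hsig hd hgap hh h le_rfl).1
        have hl := abs_le.1 (hg.lip (by omega) hs (i := u) (j := v) hinv.u_le hinv.v_le)
        linarith [hl.1]
      · linarith
    · left
      linarith
    · intro h
      omega

end P124H186
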