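import Vale.Agent.P124.H186.Defs

/-! P124 (helper186), T4: common core (functionals, pair process, invariants, persistence). -/

namespace P124H186

section basics
variable {g : Geo} {n : ℕ}

theorem Valid.D_nonneg (hg : Valid n g) {i j : ℕ} (hi : i ≤ n) (hj : j ≤ n) : 0 ≤ g.D i j := by
  have h1 := hg.D_tri i hi j hj i hi
  have h2 := hg.D_self i hi
  have h3 := hg.D_symm i hi j hj
  linarith

theorem Valid.S_mono (hg : Valid n g) {t t' : ℕ} (h : t ≤ t') (ht' : t' ≤ n) {s : ℕ → ℝ}
    (hs : s ∈ g.S t') : s ∈ g.S t := by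
  induction t', h using Nat.le_induction with
  | base => exact hs
  | succ k hk ih => exact ih (by omega) (hg.S_res k (by omega) s hs)

theorem Valid.lip (hg : Valid n g) {t : ℕ} (ht : t ≤ n) {s : ℕ → ℝ} (hs : s ∈ g.S t) {i j : ℕ}
    (hi : i ≤ t) (hj : j ≤ t) : |s i - s j| ≤ g.D i j := by
  rw [abs_le]
  have h1 := hg.S_lip t ht s hs i hi j hj
  have h2 := hg.S_lip t ht s hs j hj i hi
  have h3 := hg.D_symm i (by omega) j (by omega)
  constructor <;> linarith

/-- flatness along an A-birth, any time -/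
theorem Valid.flatA (hg : Valid n g) {t t' : ℕ} (ht : t < t') (ht' : t' ≤ n)
    (hA : g.isA (t+1)) {s : ℕ → ℝ} (hs : s ∈ g.S t') {l : ℕ} (hl : l ≤ t) :
    |s (t+1) - s l| ≤ g.P (t+1) l / 10^15 :=
  hg.A_flat t (by omega) hA s (hg.S_mono (by omega) ht' hs) l hl

theorem Valid.P_nonneg (hg : Valid n g) {t : ℕ} (ht : t < n) (hA : g.isA (t+1)) {l : ℕ}
    (hl : l ≤ t) : 0 ≤ g.P (t+1) l := by
  have h1 := hg.A_le t ht hA l hl l hl
  have h2 := hg.D_self l (by omega)
  have h3 := hg.D_nonneg (i := t+1) (j := l) (by omega) (by omega)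
  linarith

/-- every functional extends -/
theorem Valid.ext (hg : Valid n g) {t t' : ℕ} (h : t ≤ t') (ht' : t' ≤ n) {s : ℕ → ℝ}
    (hs : s ∈ g.S t) : ∃ s' ∈ g.S t', ∀ i ≤ t, s' i = s i := by
  induction t', h using Nat.le_induction with
  | base => exact ⟨s, hs, fun i _ => rfl⟩
  | succ k hk ih =>
    obtain ⟨s1, hs1, he⟩ := ih (by omega)
    by_cases hA : g.isA (k+1)
    · obtain ⟨s2, hs2, he2⟩ := hg.A_ext k (by omega) hA s1 hs1
      exact ⟨s2, hs2, fun i hi => (he2 i (by omega)).trans (he i hi)⟩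
    · obtain ⟨l, hl, hmin⟩ := Finset.exists_min_image (Finset.range (k+1))
        (fun l => s1 l + g.D (k+1) l) ⟨0, by simp⟩
      have hlk : l ≤ k := by simpa [Nat.lt_succ_iff] using hl
      refine ⟨Function.update s1 (k+1) (s1 l + g.D (k+1) l), ?_, ?_⟩
      · apply hg.B_ext k (by omega) hA
        · apply hg.S_congr k (by omega) s1 _ _ hs1
          intro i hi
          rw [Function.update_of_ne (by omega)]
        · intro j hj
          rw [Function.update_self, Function.update_of_ne (by omega), abs_le]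
          have h1 := hmin j (by simp; omega)
          have h2 := hg.S_lip k (by omega) s1 hs1 j hj l hlk
          have h3 := hg.D_tri j (by omega) (k+1) (by omega) l (by omega)
          have h4 := hg.D_symm j (by omega) (k+1) (by omega)
          have h5 := hg.D_nonneg (i := k+1) (j := l) (by omega) (by omega)
          constructor
          · linarith
          · linarith
      · intro i hi
        rw [Function.update_of_ne (by omega)]
        exact he i hi

/-- flat functionals exist -/
theorem Valid.flat (hg : Valid n g) {t : ℕ} (ht : t ≤ n) :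
    ∃ s ∈ g.S t, ∀ i ≤ t, ∀ j ≤ t, s i - s j ≤ g.D i j / 10^15 := by
  induction t with
  | zero =>
    obtain ⟨s, hs⟩ := hg.S_ne
    refine ⟨s, hs, fun i hi j hj => ?_⟩
    have h1 : i = 0 := by omega
    have h2 : j = 0 := by omega
    subst h1; subst h2
    rw [hg.D_self 0 (by omega)]; simp
  | succ k ih =>
    obtain ⟨s, hs, hf⟩ := ih (by omega)
    by_cases hA : g.isA (k+1)
    · obtain ⟨s2, hs2, he2⟩ := hg.A_ext k (by omega) hA s hs
      refine ⟨s2, hs2, ?_⟩
      have key : ∀ j ≤ k, |s2 (k+1) - s2 j| ≤ g.D (k+1) j / 10^15 := by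
        intro j hj
        obtain ⟨l, hl, hD⟩ := hg.A_eq k (by omega) hA j hj
        have h1 := abs_le.1 (hg.A_flat k (by omega) hA s2 hs2 l hl)
        have h2 := hf l hl j hj
        have h3 := hf j hj l hl
        have h4 := hg.D_symm l (by omega) j (by omega)
        rw [he2 l hl] at h1
        rw [he2 j hj, abs_le]
        constructor <;> linarith [h1.1, h1.2]
      intro i hi j hj
      rcases Nat.lt_or_ge k i with hik | hik
      · have : i = k+1 := by omega
        subst this
        rcases Nat.lt_or_ge k j with hjk | hjk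
        · have : j = k+1 := by omega
          subst this
          rw [hg.D_self (k+1) (by omega)]; simp
        · exact (abs_le.1 (key j hjk)).2
      · rcases Nat.lt_or_ge k j with hjk | hjk
        · have : j = k+1 := by omega
          subst this
          have h1 := (abs_le.1 (key i hik)).1
          have h2 := hg.D_symm i (by omega) (k+1) (by omega)
          rw [h2]; linarith
        · rw [he2 i hik, he2 j hjk]; exact hf i hik j hjk
    · obtain ⟨l, hl, hmin⟩ := Finset.exists_min_image (Finset.range (k+1))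
        (fun l => s l + g.D (k+1) l / 10^15) ⟨0, by simp⟩
      have hlk : l ≤ k := by simpa [Nat.lt_succ_iff] using hl
      have key : ∀ j ≤ k, |s l + g.D (k+1) l / 10^15 - s j| ≤ g.D (k+1) j / 10^15 := by
        intro j hj
        have h1 := hmin j (by simp; omega)
        have h2 := hf j hj l hlk
        have h3 := hg.D_tri j (by omega) (k+1) (by omega) l (by omega)
        have h4 := hg.D_symm j (by omega) (k+1) (by omega)
        rw [abs_le]
        constructor <;> linarith
      refine ⟨Function.update s (k+1) (s l + g.D (k+1) l / 10^15), ?_, ?_⟩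
      · apply hg.B_ext k (by omega) hA
        · apply hg.S_congr k (by omega) s _ _ hs
          intro i hi
          rw [Function.update_of_ne (by omega)]
        · intro j hj
          rw [Function.update_self, Function.update_of_ne (by omega)]
          have h5 := hg.D_nonneg (i := k+1) (j := j) (by omega) (by omega)
          refine (key j hj).trans ?_
          linarith
      · intro i hi j hj
        rcases Nat.lt_or_ge k i with hik | hik
        · have : i = k+1 := by omega
          subst this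
          rw [Function.update_self]
          rcases Nat.lt_or_ge k j with hjk | hjk
          · have : j = k+1 := by omega
            subst this
            rw [Function.update_self, hg.D_self (k+1) (by omega)]; simp
          · rw [Function.update_of_ne (by omega)]
            exact (abs_le.1 (key j hjk)).2
        · rw [Function.update_of_ne (show i ≠ k+1 by omega)]
          rcases Nat.lt_or_ge k j with hjk | hjk
          · have : j = k+1 := by omega
            subst this
            rw [Function.update_self]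
            have h1 := (abs_le.1 (key i hik)).1
            have h2 := hg.D_symm i (by omega) (k+1) (by omega)
            rw [h2]; linarith
          · rw [Function.update_of_ne (by omega)]; exact hf i hik j hjk

/-- `sig` is flat on `{0..ts}` and maximal at the later B-births up to `t0` -/
structure IsSig (g : Geo) (ts t0 : ℕ) (sig : ℕ → ℝ) : Prop where
  mem : sig ∈ g.S t0
  flat : ∀ i ≤ ts, ∀ j ≤ ts, sig i - sig j ≤ g.D i j / 10^15
  maxB : ∀ t, ts ≤ t → t < t0 → ¬ g.isA (t+1) → ∃ l ≤ t, sig (t+1) = sig l + g.D (t+1) l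

theorem Valid.exists_sig (hg : Valid n g) {ts t0 : ℕ} (h : ts ≤ t0) (ht0 : t0 ≤ n) :
    ∃ sig, IsSig g ts t0 sig := by
  induction t0, h using Nat.le_induction with
  | base =>
    obtain ⟨s, hs, hf⟩ := hg.flat (t := ts) ht0
    exact ⟨s, hs, hf, fun t h1 h2 => by omega⟩
  | succ k hk ih =>
    obtain ⟨s, hs⟩ := ih (by omega)
    by_cases hA : g.isA (k+1)
    · obtain ⟨s2, hs2, he2⟩ := hg.A_ext k (by omega) hA s hs.mem
      refine ⟨s2, hs2, ?_, ?_⟩
      · intro i hi j hj
        rw [he2 i (by omega), he2 j (by omega)]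
        exact hs.flat i hi j hj
      · intro t h1 h2 h3
        rcases Nat.lt_or_ge t k with h4 | h4
        · obtain ⟨l, hl, hl2⟩ := hs.maxB t h1 h4 h3
          refine ⟨l, hl, ?_⟩
          rw [he2 (t+1) (by omega), he2 l (by omega)]
          exact hl2
        · have : t = k := by omega
          subst this
          exact absurd hA h3
    · obtain ⟨l, hl, hmin⟩ := Finset.exists_min_image (Finset.range (k+1))
        (fun l => s l + g.D (k+1) l) ⟨0, by simp⟩
      have hlk : l ≤ k := by simpa [Nat.lt_succ_iff] using hl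
      refine ⟨Function.update s (k+1) (s l + g.D (k+1) l), ?_, ?_, ?_⟩
      · apply hg.B_ext k (by omega) hA
        · apply hg.S_congr k (by omega) s _ _ hs.mem
          intro i hi
          rw [Function.update_of_ne (by omega)]
        · intro j hj
          rw [Function.update_self, Function.update_of_ne (by omega), abs_le]
          have h1 := hmin j (by simp; omega)
          have h2 := hg.S_lip k (by omega) s hs.mem j hj l hlk
          have h3 := hg.D_tri j (by omega) (k+1) (by omega) l (by omega)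
          have h4 := hg.D_symm j (by omega) (k+1) (by omega)
          have h5 := hg.D_nonneg (i := k+1) (j := l) (by omega) (by omega)
          constructor
          · linarith
          · linarith
      · intro i hi j hj
        rw [Function.update_of_ne (by omega), Function.update_of_ne (by omega)]
        exact hs.flat i hi j hj
      · intro t h1 h2 h3
        rcases Nat.lt_or_ge t k with h4 | h4
        · obtain ⟨l', hl', hl2⟩ := hs.maxB t h1 h4 h3
          refine ⟨l', hl', ?_⟩
          rw [Function.update_of_ne (by omega), Function.update_of_ne (by omega)]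
          exact hl2
        · have : t = k := by omega
          subst this
          refine ⟨l, hlk, ?_⟩
          rw [Function.update_self, Function.update_of_ne (by omega)]

/-- lower bound from the flat part -/
theorem IsSig.lower (hg : Valid n g) {ts t0 : ℕ} (ht0 : t0 ≤ n) {sig : ℕ → ℝ}
    (hs : IsSig g ts t0 sig) {p : ℕ} (hp : p ≤ ts) (hts : ts ≤ t0) {c : ℕ} (hc : c ≤ t0) :
    sig p - g.D p c / 10^15 ≤ sig c := by
  induction c using Nat.strong_induction_on with
  | _ c ih =>
    rcases Nat.lt_or_ge ts c with h | h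
    · obtain ⟨t, rfl⟩ : ∃ t, c = t+1 := ⟨c-1, by omega⟩
      by_cases hA : g.isA (t+1)
      · obtain ⟨l, hl, hD⟩ := hg.A_eq t (by omega) hA p (by omega)
        have h1 := abs_le.1 (hg.flatA (t' := t0) (by omega) ht0 hA hs.mem hl)
        have h2 := ih l (by omega) (by omega)
        have h3 := hg.D_symm p (by omega) (t+1) (by omega)
        have h4 := hg.D_symm p (by omega) l (by omega)
        rw [h3, hD]
        rw [h4] at h2
        linarith [h1.1]
      · obtain ⟨l, hl, hD⟩ := hs.maxB t (by omega) (by omega) hA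
        have h2 := ih l (by omega) (by omega)
        have h3 := hg.D_tri p (by omega) (t+1) (by omega) l (by omega)
        have h5 := hg.D_nonneg (i := t+1) (j := l) (by omega) (by omega)
        rw [hD]
        linarith
    · have := hs.flat p hp c h
      linarith

end basics

/-- the pair process; `p t` = target of the common A-steps at the birth `t`. -/
inductive St (g : Geo) (t0 : ℕ) (rho : ℝ) (sig : ℕ → ℝ) (p : ℕ → ℕ) (Th : ℝ) :
    ℕ → ℕ → ℕ → ℝ → ℝ → ℝ → Prop
  | init (c : ℕ) (hc : c ≤ t0) : St g t0 rho sig p Th t0 c t0 (max (g.D c t0 - rho) 0) 0 0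
  | keep {t u v : ℕ} {Q As Ac : ℝ} (h : St g t0 rho sig p Th (t+1) u v Q As Ac) (hu : u ≤ t)
      (hv : v ≤ t) : St g t0 rho sig p Th t u v Q As Ac
  | uA {t v l : ℕ} {Q As Ac : ℝ} (h : St g t0 rho sig p Th (t+1) (t+1) v Q As Ac) (hv : v ≤ t)
      (hA : g.isA (t+1)) (hl : l ≤ t) (hD : g.D (t+1) v = g.P (t+1) l + g.D l v)
      (hT : As + g.P (t+1) l < Th) : St g t0 rho sig p Th t l v Q (As + g.P (t+1) l) Ac
  | vA {t u l : ℕ} {Q As Ac : ℝ} (h : St g t0 rho sig p Th (t+1) u (t+1) Q As Ac) (hu : u ≤ t)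
      (hA : g.isA (t+1)) (hl : l ≤ t) (hD : g.D (t+1) u = g.P (t+1) l + g.D l u)
      (hT : As + g.P (t+1) l < Th) : St g t0 rho sig p Th t u l Q (As + g.P (t+1) l) Ac
  | cA {t l : ℕ} {Q As Ac : ℝ} (h : St g t0 rho sig p Th (t+1) (t+1) (t+1) Q As Ac)
      (hA : g.isA (t+1)) (hl : l ≤ t)
      (hD : g.D (t+1) (p (t+1)) = g.P (t+1) l + g.D l (p (t+1))) :
      St g t0 rho sig p Th t l l Q As (Ac + g.P (t+1) l)
  | uB {t v l : ℕ} {Q As Ac : ℝ} (h : St g t0 rho sig p Th (t+1) (t+1) v Q As Ac) (hv : v ≤ t)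
      (hB : ¬ g.isA (t+1)) (hl : l ≤ t) : St g t0 rho sig p Th t l v (Q + g.D (t+1) l) As Ac
  | vB {t u l : ℕ} {Q As Ac : ℝ} (h : St g t0 rho sig p Th (t+1) u (t+1) Q As Ac) (hu : u ≤ t)
      (hB : ¬ g.isA (t+1)) (hl : l ≤ t) (hs : sig (t+1) = sig l + g.D (t+1) l) :
      St g t0 rho sig p Th t u l Q As Ac
  | cB {t l l' : ℕ} {Q As Ac : ℝ} (h : St g t0 rho sig p Th (t+1) (t+1) (t+1) Q As Ac)
      (hB : ¬ g.isA (t+1)) (hl : l ≤ t) (hl' : l' ≤ t) (hs : sig (t+1) = sig l' + g.D (t+1) l') :
      St g t0 rho sig p Th t l l' (Q + g.D (t+1) l) As Ac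

/-- the target-independent invariants -/
structure Inv (g : Geo) (t0 : ℕ) (rho : ℝ) (sig : ℕ → ℝ) (Th : ℝ) (t u v : ℕ)
    (Q As Ac : ℝ) : Prop where
  t_le : t ≤ t0
  u_le : u ≤ t
  v_le : v ≤ t
  Q0 : 0 ≤ Q
  As0 : 0 ≤ As
  AsT : As < Th
  Ac0 : 0 ≤ Ac
  I2 : sig v - sig t0 - rho + (1 - 1/10^15) * As - Ac / 10^15 ≤ Q - g.D u v
  I4 : g.D t0 v + sig v ≤ sig t0 + (1 + 1/10^15) * (Ac + As)
  I5 : sig t0 - rho - (Ac + As) / 10^15 ≤ Q + sig u
  I6 : ∀ s ∈ g.S t0, |s t0 - s v| ≤ sig t0 - sig v + 2 * (Ac + As) / 10^15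

variable {g : Geo} {n : ℕ} {t0 : ℕ} {rho : ℝ} {sig : ℕ → ℝ} {p : ℕ → ℕ} {Th : ℝ}

theorem St.t_le {t u v : ℕ} {Q As Ac : ℝ} (h : St g t0 rho sig p Th t u v Q As Ac) : t ≤ t0 := by
  induction h <;> omega

theorem St.inv (hg : Valid n g) (ht0 : t0 ≤ n) {ts : ℕ} (hsig : IsSig g ts t0 sig)
    (hTh : 0 < Th) (hrho : 0 < rho) {t u v : ℕ} {Q As Ac : ℝ}
    (h : St g t0 rho sig p Th t u v Q As Ac) (hts : ts ≤ t) :
    Inv g t0 rho sig Th t u v Q As Ac := by
  have ht := h.t_le
  induction h with
  | init c hc =>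
    have h1 := le_max_left (g.D c t0 - rho) 0
    have h2 := le_max_right (g.D c t0 - rho) 0
    have h3 := hg.lip ht0 hsig.mem hc le_rfl
    have h4 := abs_le.1 h3
    have h5 := hg.D_self t0 ht0
    refine ⟨le_rfl, hc, le_rfl, h2, le_rfl, hTh, le_rfl, ?_, ?_, ?_, ?_⟩
    · linarith
    · linarith
    · linarith [h4.1, h4.2]
    · intro s hs
      simp
  | @keep t u v Q As Ac h hu hv ih =>
    have ht1 := h.t_le
    have I := ih (by omega) (by omega)
    exact ⟨by omega, hu, hv, I.Q0, I.As0, I.AsT, I.Ac0, I.I2, I.I4, I.I5, I.I6⟩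
  | @uA t v l Q As Ac h hv hA hl hD hT ih =>
    have ht1 := h.t_le
    have I := ih (by omega) (by omega)
    have hP := hg.P_nonneg (t := t) (by omega) hA hl
    have hf := abs_le.1 (hg.flatA (t' := t0) (by omega) ht0 hA hsig.mem hl)
    have i2 := I.I2; have i4 := I.I4; have i5 := I.I5
    have a0 := I.As0; have c0 := I.Ac0
    refine ⟨by omega, hl, hv, I.Q0, by linarith, hT, I.Ac0, ?_, ?_, ?_, ?_⟩
    · linarith
    · linarith
    · linarith [hf.1, hf.2]
    · intro s hs
      have := I.I6 s hs
      linarith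
  | @vA t u l Q As Ac h hu hA hl hD hT ih =>
    have ht1 := h.t_le
    have I := ih (by omega) (by omega)
    have hP := hg.P_nonneg (t := t) (by omega) hA hl
    have hf := abs_le.1 (hg.flatA (t' := t0) (by omega) ht0 hA hsig.mem hl)
    have i2 := I.I2; have i4 := I.I4; have i5 := I.I5
    have a0 := I.As0; have c0 := I.Ac0
    have e1 := hg.D_symm u (by omega) (t+1) (by omega)
    have e2 := hg.D_symm u (by omega) l (by omega)
    have e3 := hg.D_tri t0 ht0 (t+1) (by omega) l (by omega)
    have e4 := hg.A_le t (by omega) hA l hl l hl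
    have e5 := hg.D_self l (by omega)
    refine ⟨by omega, hu, hl, I.Q0, by linarith, hT, I.Ac0, ?_, ?_, ?_, ?_⟩
    · linarith [hf.1, hf.2]
    · linarith [hf.1, hf.2]
    · linarith [hf.1, hf.2]
    · intro s hs
      have i6 := abs_le.1 (I.I6 s hs)
      have hf' := abs_le.1 (hg.flatA (t' := t0) (by omega) ht0 hA hs hl)
      rw [abs_le]
      constructor <;> linarith [hf.1, hf.2, hf'.1, hf'.2, i6.1, i6.2]
  | @cA t l Q As Ac h hA hl hD ih =>
    have ht1 := h.t_le
    have I := ih (by omega) (by omega)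
    have hP := hg.P_nonneg (t := t) (by omega) hA hl
    have hf := abs_le.1 (hg.flatA (t' := t0) (by omega) ht0 hA hsig.mem hl)
    have i2 := I.I2; have i4 := I.I4; have i5 := I.I5
    have a0 := I.As0; have c0 := I.Ac0
    have e3 := hg.D_tri t0 ht0 (t+1) (by omega) l (by omega)
    have e4 := hg.A_le t (by omega) hA l hl l hl
    have e5 := hg.D_self l (by omega)
    have e6 := hg.D_self (t+1) (by omega)
    refine ⟨by omega, hl, hl, I.Q0, I.As0, I.AsT, by linarith, ?_, ?_, ?_, ?_⟩
    · linarith [hf.1, hf.2]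
    · linarith [hf.1, hf.2]
    · linarith [hf.1, hf.2]
    · intro s hs
      have i6 := abs_le.1 (I.I6 s hs)
      have hf' := abs_le.1 (hg.flatA (t' := t0) (by omega) ht0 hA hs hl)
      rw [abs_le]
      constructor <;> linarith [hf.1, hf.2, hf'.1, hf'.2, i6.1, i6.2]
  | @uB t v l Q As Ac h hv hB hl ih =>
    have ht1 := h.t_le
    have I := ih (by omega) (by omega)
    have i2 := I.I2; have i4 := I.I4; have i5 := I.I5
    have hf := abs_le.1 (hg.lip (i := t+1) (j := l) ht0 hsig.mem (by omega) (by omega))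
    have e1 := hg.D_tri l (by omega) (t+1) (by omega) v (by omega)
    have e2 := hg.D_symm l (by omega) (t+1) (by omega)
    have e3 := hg.D_nonneg (i := t+1) (j := l) (by omega) (by omega)
    refine ⟨by omega, hl, hv, by linarith [I.Q0], I.As0, I.AsT, I.Ac0, ?_, i4, ?_, I.I6⟩
    · linarith
    · linarith [hf.1, hf.2]
  | @vB t u l Q As Ac h hu hB hl hs ih =>
    have ht1 := h.t_le
    have I := ih (by omega) (by omega)
    have i2 := I.I2; have i4 := I.I4; have i5 := I.I5
    have e1 := hg.D_tri u (by omega) (t+1) (by omega) l (by omega)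
    have e3 := hg.D_tri t0 ht0 (t+1) (by omega) l (by omega)
    refine ⟨by omega, hu, hl, I.Q0, I.As0, I.AsT, I.Ac0, ?_, ?_, i5, ?_⟩
    · linarith
    · linarith
    · intro s hs'
      have i6 := abs_le.1 (I.I6 s hs')
      have hf := abs_le.1 (hg.lip (i := t+1) (j := l) ht0 hs' (by omega) (by omega))
      rw [abs_le]
      constructor <;> linarith [hf.1, hf.2, i6.1, i6.2]
  | @cB t l l' Q As Ac h hB hl hl' hs ih =>
    have ht1 := h.t_le
    have I := ih (by omega) (by omega)
    have i2 := I.I2; have i4 := I.I4; have i5 := I.I5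
    have hf0 := abs_le.1 (hg.lip (i := t+1) (j := l) ht0 hsig.mem (by omega) (by omega))
    have e1 := hg.D_tri l (by omega) (t+1) (by omega) l' (by omega)
    have e2 := hg.D_symm l (by omega) (t+1) (by omega)
    have e3 := hg.D_tri t0 ht0 (t+1) (by omega) l' (by omega)
    have e6 := hg.D_self (t+1) (by omega)
    have e7 := hg.D_nonneg (i := t+1) (j := l) (by omega) (by omega)
    refine ⟨by omega, hl, hl', by linarith [I.Q0], I.As0, I.AsT, I.Ac0, ?_, ?_, ?_, ?_⟩
    · linarith
    · linarith
    · linarith [hf0.1, hf0.2]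
    · intro s hs'
      have i6 := abs_le.1 (I.I6 s hs')
      have hf := abs_le.1 (hg.lip (i := t+1) (j := l') ht0 hs' (by omega) (by omega))
      rw [abs_le]
      constructor <;> linarith [hf.1, hf.2, i6.1, i6.2]

/-- invariant (I3) with target `q` (used by the process at all births `> t1`, from `t0` to `t1`) -/
theorem St.I3 (hg : Valid n g) (ht0 : t0 ≤ n) {ts : ℕ} (hsig : IsSig g ts t0 sig)
    (hTh : 0 < Th) (hrho : 0 < rho) {t1 q : ℕ} (hp : ∀ t, t1 ≤ t → t < t0 → p (t+1) = q)
    (hq : q ≤ t1)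
    {t u v : ℕ} {Q As Ac : ℝ}
    (h : St g t0 rho sig p Th t u v Q As Ac) (hts : ts ≤ t) (ht1 : t1 ≤ t) :
    g.D v q + sig v ≤ g.D t0 q + sig t0 - (1 - 1/10^15) * Ac + (1 + 1/10^15) * As := by
  have ht := h.t_le
  induction h with
  | init c hc => linarith
  | @keep t u v Q As Ac h hu hv ih =>
    have htt := h.t_le
    exact ih (by omega) (by omega) (by omega)
  | @uA t v l Q As Ac h hv hA hl hD hT ih =>
    have htt := h.t_le
    have I := ih (by omega) (by omega) (by omega)
    have hP := hg.P_nonneg (t := t) (by omega) hA hl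
    linarith
  | @vA t u l Q As Ac h hu hA hl hD hT ih =>
    have htt := h.t_le
    have I := ih (by omega) (by omega) (by omega)
    have hP := hg.P_nonneg (t := t) (by omega) hA hl
    have hf := abs_le.1 (hg.flatA (t' := t0) (by omega) ht0 hA hsig.mem hl)
    have e2 := hg.D_symm l (by omega) (t+1) (by omega)
    have e3 := hg.D_tri l (by omega) (t+1) (by omega) q (by omega)
    have e4 := hg.A_le t (by omega) hA l hl l hl
    have e5 := hg.D_self l (by omega)
    linarith [hf.1, hf.2]
  | @cA t l Q As Ac h hA hl hD ih =>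
    have htt := h.t_le
    have I := ih (by omega) (by omega) (by omega)
    have hP := hg.P_nonneg (t := t) (by omega) hA hl
    have hf := abs_le.1 (hg.flatA (t' := t0) (by omega) ht0 hA hsig.mem hl)
    rw [hp t (by omega) (by omega)] at hD
    linarith [hf.1, hf.2]
  | @uB t v l Q As Ac h hv hB hl ih =>
    have htt := h.t_le
    exact ih (by omega) (by omega) (by omega)
  | @vB t u l Q As Ac h hu hB hl hs ih =>
    have htt := h.t_le
    have I := ih (by omega) (by omega) (by omega)
    have e2 := hg.D_symm l (by omega) (t+1) (by omega)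
    have e3 := hg.D_tri l (by omega) (t+1) (by omega) q (by omega)
    linarith
  | @cB t l l' Q As Ac h hB hl hl' hs ih =>
    have htt := h.t_le
    have I := ih (by omega) (by omega) (by omega)
    have e2 := hg.D_symm l' (by omega) (t+1) (by omega)
    have e3 := hg.D_tri l' (by omega) (t+1) (by omega) q (by omega)
    linarith

/-- canonical chain -/
theorem St.canonical (hg : Valid n g) (ht0 : t0 ≤ n) {ts : ℕ} (hsig : IsSig g ts t0 sig)
    (hTh : 0 < Th) (hrho : 0 < rho) (hp : ∀ t, ts ≤ t → t < t0 → p (t+1) ≤ t)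
    {t : ℕ} (hts : ts ≤ t) (ht : t ≤ t0) :
    ∃ w Q Ac, St g t0 rho sig p Th t w w Q 0 Ac := by
  obtain ⟨k, rfl⟩ : ∃ k, t = t0 - k := ⟨t0 - t, by omega⟩
  induction k with
  | zero => exact ⟨t0, _, 0, St.init t0 le_rfl⟩
  | succ k ih =>
    rcases Nat.lt_or_ge k t0 with hk | hk
    · obtain ⟨w, Q, Ac, h⟩ := ih (by omega) (by omega)
      obtain ⟨t, ht'⟩ : ∃ t, t0 - k = t + 1 := ⟨t0 - k - 1, by omega⟩
      have e : t0 - (k+1) = t := by omega
      rw [ht'] at h
      rw [e] at hts ⊢
      rcases Nat.lt_or_ge t w with hw | hw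
      · have hinv := h.inv hg ht0 hsig hTh hrho (by omega)
        have : w = t + 1 := by have := hinv.u_le; omega
        subst this
        by_cases hA : g.isA (t+1)
        · obtain ⟨l, hl, hD⟩ := hg.A_eq t (by omega) hA (p (t+1)) (hp t hts (by omega))
          exact ⟨l, _, _, St.cA h hA hl hD⟩
        · obtain ⟨l, hl, hD⟩ := hsig.maxB t hts (by omega) hA
          exact ⟨l, _, _, St.cB h hA hl hl hD⟩
      · exact ⟨w, Q, Ac, St.keep h hw hw⟩
    · have e : t0 - (k+1) = t0 - k := by omega
      rw [e] at hts ⊢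
      exact ih hts (by omega)

/-- the needs of the process -/
def RR (g : Geo) (t0 : ℕ) (rho : ℝ) (sig : ℕ → ℝ) (p : ℕ → ℕ) (Th : ℝ) (w : ℕ) (gam : ℝ)
    (t u : ℕ) (q : ℝ) : Prop :=
  (∃ v Q As Ac, St g t0 rho sig p Th t u v Q As Ac ∧ q = Q - (Ac + As) / 10^15) ∨
    (u = w ∧ q = gam)

/-- the harmlessness of stopping, to be checked in every case: a state from which the separate
step of length `P` is forbidden has its need implied by `(w, gam)`.  -/
def StopOK (g : Geo) (t0 : ℕ) (rho : ℝ) (sig : ℕ → ℝ) (p : ℕ → ℕ) (Th : ℝ) (ts w : ℕ)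
    (gam : ℝ) : Prop :=
  ∀ t u v Q As Ac, ts < t → t ≤ t0 → St g t0 rho sig p Th t u v Q As Ac →
    ∀ P : ℝ, 0 ≤ P → Th ≤ As + P → ∀ s ∈ g.S t, s v - g.D u v + (1 - 1/10^15) * P ≤ s u →
      s w + gam ≤ s u + (Q - (Ac + As) / 10^15)

/-- quantitative stop lemma -/
theorem St.stop (hg : Valid n g) (ht0 : t0 ≤ n) {ts : ℕ} (hsig : IsSig g ts t0 sig)
    (hTh : 0 < Th) (hrho : 0 < rho) {t u v : ℕ} {Q As Ac : ℝ}
    (h : St g t0 rho sig p Th t u v Q As Ac) (hts : ts ≤ t) {w : ℕ} (hw : w ≤ ts) {Bw : ℝ}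
    (hBw : ∀ s ∈ g.S t0, |s t0 - s w| ≤ Bw) {P : ℝ} (hP : 0 ≤ P) (hPT : Th ≤ As + P)
    {s : ℕ → ℝ} (hs : s ∈ g.S t) (hsP : s v - g.D u v + (1 - 1/10^15) * P ≤ s u) :
    s w - Bw - 2 * (sig t0 - sig v) - rho + (1 - 4/10^15) * Th - 4 * Ac / 10^15 ≤
      s u + (Q - (Ac + As) / 10^15) := by
  have I := h.inv hg ht0 hsig hTh hrho hts
  obtain ⟨s', hs', he⟩ := hg.ext I.t_le ht0 hs
  have h1 := abs_le.1 (hBw s' hs')
  have h2 := abs_le.1 (I.I6 s' hs')
  rw [he w (by omega)] at h1
  rw [he v I.v_le] at h2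
  have i2 := I.I2
  have a0 := I.As0
  have c0 := I.Ac0
  linarith [h1.1, h1.2, h2.1, h2.2]

/-- persistence and (R0) for the needs `RR`. -/
theorem RR.persist (hg : Valid n g) (ht0 : t0 ≤ n) {ts : ℕ} (hts : ts ≤ t0)
    (hsig : IsSig g ts t0 sig)
    (hTh : 0 < Th) (hrho : 0 < rho) (hp : ∀ t, ts ≤ t → t < t0 → p (t+1) ≤ t)
    {w : ℕ} (hw : w ≤ ts) {gam : ℝ} (hstop : StopOK g t0 rho sig p Th ts w gam) :
    (∀ c ≤ t0, ∃ q ≤ Psi rho (g.D t0 c), RR g t0 rho sig p Th w gam t0 c q) ∧
    (∀ t, ts ≤ t → t < t0 → g.isA (t+1) → ∀ s ∈ g.S (t+1), ∀ lam,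
      Sat s lam (RR g t0 rho sig p Th w gam t) → Sat s lam (RR g t0 rho sig p Th w gam (t+1))) ∧
    (∀ t, ts ≤ t → t < t0 → ¬ g.isA (t+1) → ∀ s ∈ g.S t, ∀ lam,
      Sat s lam (RR g t0 rho sig p Th w gam t) →
      ∀ u ≤ t, ∀ q, RR g t0 rho sig p Th w gam (t+1) u q → lam ≤ s u + q) ∧
    (∀ t, ts ≤ t → t < t0 → ¬ g.isA (t+1) → ∀ s ∈ g.S t, ∀ lam,
      Sat s lam (RR g t0 rho sig p Th w gam t) →
      ∀ q, RR g t0 rho sig p Th w gam (t+1) (t+1) q → ∀ l ≤ t, lam ≤ s l + g.D (t+1) l + q) := by
  refine ⟨?_, ?_, ?_, ?_⟩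
  · intro c hc
    refine ⟨max (g.D c t0 - rho) 0, ?_, Or.inl ⟨t0, _, 0, 0, St.init c hc, by ring⟩⟩
    have h1 := hg.D_symm c (by omega) t0 ht0
    have h2 := hg.D_nonneg (i := t0) (j := c) ht0 (by omega)
    unfold Psi
    rw [h1]
    apply max_le
    · refine le_trans ?_ (le_max_right _ _)
      linarith
    · refine le_trans ?_ (le_max_left _ _)
      positivity
  · intro t h1 h2 hA s hs lam hsat u q hR
    rcases hR with ⟨v, Q, As, Ac, hst, rfl⟩ | ⟨rfl, rfl⟩
    · have I := hst.inv hg ht0 hsig hTh hrho (by omega)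
      have hstat : lam ≤ s w + gam := hsat w gam (Or.inr ⟨rfl, rfl⟩)
      have hu := I.u_le
      have hv := I.v_le
      rcases Nat.lt_or_ge t u with hut | hut
      · have : u = t+1 := by omega
        subst this
        rcases Nat.lt_or_ge t v with hvt | hvt
        · have : v = t+1 := by omega
          subst this
          obtain ⟨l, hl, hD⟩ := hg.A_eq t (by omega) hA (p (t+1)) (hp t h1 h2)
          have h3 := hsat l _ (Or.inl ⟨l, Q, As, _, St.cA hst hA hl hD, rfl⟩)
          have hf := abs_le.1 (hg.flatA (t' := t+1) (by omega) (by omega) hA hs hl)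
          linarith [hf.1, hf.2]
        · obtain ⟨l, hl, hD⟩ := hg.A_eq t (by omega) hA v hvt
          have hP := hg.P_nonneg (t := t) (by omega) hA hl
          have hf := abs_le.1 (hg.flatA (t' := t+1) (by omega) (by omega) hA hs hl)
          by_cases hT : As + g.P (t+1) l < Th
          · have h3 := hsat l _ (Or.inl ⟨v, Q, _, Ac, St.uA hst hvt hA hl hD hT, rfl⟩)
            linarith [hf.1, hf.2]
          · have h4 := hstop (t+1) (t+1) v Q As Ac (by omega) (by omega) hst
              (g.P (t+1) l) hP (by linarith) s hs (by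
                have h5 := abs_le.1 (hg.lip (i := l) (j := v) (t := t+1) (by omega) hs
                  (by omega) (by omega))
                linarith [hf.1, hf.2, h5.1, h5.2])
            linarith
      · rcases Nat.lt_or_ge t v with hvt | hvt
        · have : v = t+1 := by omega
          subst this
          obtain ⟨l, hl, hD⟩ := hg.A_eq t (by omega) hA u hut
          have hP := hg.P_nonneg (t := t) (by omega) hA hl
          have hf := abs_le.1 (hg.flatA (t' := t+1) (by omega) (by omega) hA hs hl)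
          by_cases hT : As + g.P (t+1) l < Th
          · have h3 := hsat u _ (Or.inl ⟨l, Q, _, Ac, St.vA hst hut hA hl hD hT, rfl⟩)
            have : (Ac + (As + g.P (t+1) l)) / 10^15 = (Ac + As) / 10^15
              + g.P (t+1) l / 10^15 := by ring
            have : 0 ≤ g.P (t+1) l / 10^15 := by positivity
            linarith
          · have h4 := hstop (t+1) u (t+1) Q As Ac (by omega) (by omega) hst
              (g.P (t+1) l) hP (by linarith) s hs (by
                have h5 := abs_le.1 (hg.lip (i := u) (j := l) (t := t+1) (by omega) hs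
                  (by omega) (by omega))
                have h6 := hg.D_symm u (by omega) (t+1) (by omega)
                have h7 := hg.D_symm u (by omega) l (by omega)
                linarith [hf.1, hf.2, h5.1, h5.2])
            linarith
        · exact hsat u _ (Or.inl ⟨v, Q, As, Ac, St.keep hst hut hvt, rfl⟩)
    · exact hsat _ _ (Or.inr ⟨rfl, rfl⟩)
  · intro t h1 h2 hB s hs lam hsat u hut q hR
    rcases hR with ⟨v, Q, As, Ac, hst, rfl⟩ | ⟨rfl, rfl⟩
    · have I := hst.inv hg ht0 hsig hTh hrho (by omega)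
      have hv := I.v_le
      rcases Nat.lt_or_ge t v with hvt | hvt
      · have : v = t+1 := by omega
        subst this
        obtain ⟨l, hl, hD⟩ := hsig.maxB t h1 h2 hB
        exact hsat u _ (Or.inl ⟨l, Q, As, Ac, St.vB hst hut hB hl hD, rfl⟩)
      · exact hsat u _ (Or.inl ⟨v, Q, As, Ac, St.keep hst hut hvt, rfl⟩)
    · exact hsat _ _ (Or.inr ⟨rfl, rfl⟩)
  · intro t h1 h2 hB s hs lam hsat q hR l hl
    rcases hR with ⟨v, Q, As, Ac, hst, rfl⟩ | ⟨rfl, rfl⟩
    · have I := hst.inv hg ht0 hsig hTh hrho (by omega)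
      have hv := I.v_le
      rcases Nat.lt_or_ge t v with hvt | hvt
      · have : v = t+1 := by omega
        subst this
        obtain ⟨l', hl', hD⟩ := hsig.maxB t h1 h2 hB
        have h3 := hsat l _ (Or.inl ⟨l', _, As, Ac, St.cB hst hB hl hl' hD, rfl⟩)
        linarith
      · have h3 := hsat l _ (Or.inl ⟨v, _, As, Ac, St.uB hst hvt hB hl, rfl⟩)
        linarith
    · omega

end P124H186
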