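import Vale.Agent.P124.H186.Defs

/-!
P124, piece T5 (helper48): the dynamics of the label game, with the geometric theorem T4 as a
hypothesis.  Paper proof: note 14555 (I).
-/

namespace P124H186

/-! ### elementary facts on `Psi` -/

theorem Psi_ge_div (r d : ℝ) : d / 10^15 ≤ Psi r d := le_max_left _ _

theorem Psi_ge_sub (r d : ℝ) : d - (1 - 1 / 10^15) * r ≤ Psi r d := le_max_right _ _

theorem Psi_ge_sub' (r d : ℝ) (hr : 0 ≤ r) : d - r ≤ Psi r d := by
  have := Psi_ge_sub r d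
  linarith

theorem Psi_zero_left (d : ℝ) (hd : 0 ≤ d) : Psi 0 d = d := by
  unfold Psi
  rw [max_eq_right]
  · ring
  · linarith

theorem Psi_zero_right (r : ℝ) (hr : 0 ≤ r) : Psi r 0 = 0 := by
  unfold Psi
  rw [max_eq_left]
  · ring
  · linarith

theorem Psi_add (r d p : ℝ) (hp : 0 ≤ p) : Psi r d + p / 10^15 ≤ Psi r (d + p) := by
  have h1 := Psi_ge_div r (d + p)
  have h2 := Psi_ge_sub r (d + p)
  rcases max_cases (d / 10^15) (d - (1 - 1 / 10^15) * r) with h | h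
  · have : Psi r d = d / 10^15 := h.1
    rw [this]; linarith
  · have : Psi r d = d - (1 - 1 / 10^15) * r := h.1
    rw [this]; linarith

theorem Psi_lip (r d d' e : ℝ) (he : 0 ≤ e) (h : d ≤ d' + e) : Psi r d ≤ Psi r d' + e := by
  have h1 := Psi_ge_div r d'
  have h2 := Psi_ge_sub r d'
  unfold Psi at *
  refine max_le ?_ ?_
  · linarith
  · linarith

/-! ### monotonicity of `Valid`, `Agree` -/

theorem Valid.mono {n k : ℕ} {g : Geo} (h : Valid n g) (hk : k ≤ n) : Valid k g where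
  D_self := fun i hi => h.D_self i (hi.trans hk)
  D_symm := fun i hi j hj => h.D_symm i (hi.trans hk) j (hj.trans hk)
  D_tri := fun i hi j hj l hl => h.D_tri i (hi.trans hk) j (hj.trans hk) l (hl.trans hk)
  S_ne := h.S_ne
  S_congr := fun t ht => h.S_congr t (ht.trans hk)
  S_neg := fun t ht => h.S_neg t (ht.trans hk)
  S_lip := fun t ht => h.S_lip t (ht.trans hk)
  S_res := fun t ht => h.S_res t (ht.trans_le hk)
  A_ext := fun t ht => h.A_ext t (ht.trans_le hk)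
  A_flat := fun t ht => h.A_flat t (ht.trans_le hk)
  A_le := fun t ht => h.A_le t (ht.trans_le hk)
  A_eq := fun t ht => h.A_eq t (ht.trans_le hk)
  B_ext := fun t ht => h.B_ext t (ht.trans_le hk)

theorem Agree.refl (n : ℕ) (g : Geo) : Agree n g g :=
  ⟨fun _ _ _ _ => rfl, fun _ _ => Iff.rfl, fun _ _ _ _ => rfl, fun _ _ => rfl⟩

theorem Agree.symm {n : ℕ} {g g' : Geo} (h : Agree n g g') : Agree n g' g :=
  ⟨fun i hi j hj => (h.D i hi j hj).symm, fun i hi => (h.isA i hi).symm,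
    fun i hi j hj => (h.P i hi j hj).symm, fun i hi => (h.S i hi).symm⟩

theorem Agree.trans {n : ℕ} {g g' g'' : Geo} (h : Agree n g g') (h' : Agree n g' g'') :
    Agree n g g'' :=
  ⟨fun i hi j hj => (h.D i hi j hj).trans (h'.D i hi j hj),
    fun i hi => (h.isA i hi).trans (h'.isA i hi),
    fun i hi j hj => (h.P i hi j hj).trans (h'.P i hi j hj),
    fun i hi => (h.S i hi).trans (h'.S i hi)⟩

theorem Agree.mono {n k : ℕ} {g g' : Geo} (h : Agree n g g') (hk : k ≤ n) : Agree k g g' :=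
  ⟨fun i hi j hj => h.D i (hi.trans hk) j (hj.trans hk),
    fun i hi => h.isA i (hi.trans hk),
    fun i hi j hj => h.P i (hi.trans hk) j hj,
    fun i hi => h.S i (hi.trans hk)⟩

theorem Valid.congr {n : ℕ} {g g' : Geo} (h : Valid n g) (a : Agree n g g') : Valid n g' where
  D_self := fun i hi => by rw [← a.D i hi i hi]; exact h.D_self i hi
  D_symm := fun i hi j hj => by
    rw [← a.D i hi j hj, ← a.D j hj i hi]; exact h.D_symm i hi j hj
  D_tri := fun i hi j hj k hk => by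
    rw [← a.D i hi j hj, ← a.D j hj k hk, ← a.D i hi k hk]; exact h.D_tri i hi j hj k hk
  S_ne := by rw [← a.S 0 (Nat.zero_le _)]; exact h.S_ne
  S_congr := fun t ht s s' hs => by rw [← a.S t ht]; exact h.S_congr t ht s s' hs
  S_neg := fun t ht s => by rw [← a.S t ht]; exact h.S_neg t ht s
  S_lip := fun t ht s hs i hi j hj => by
    rw [← a.S t ht] at hs
    rw [← a.D i (hi.trans ht) j (hj.trans ht)]; exact h.S_lip t ht s hs i hi j hj
  S_res := fun t ht s hs => by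
    rw [← a.S (t+1) ht] at hs
    rw [← a.S t ht.le]; exact h.S_res t ht s hs
  A_ext := fun t ht hA s hs => by
    rw [← a.S t ht.le] at hs
    rw [← a.S (t+1) ht]
    exact h.A_ext t ht ((a.isA (t+1) ht).2 hA) s hs
  A_flat := fun t ht hA s hs l hl => by
    rw [← a.S (t+1) ht] at hs
    rw [← a.P (t+1) ht l (Nat.lt_succ_of_le hl)]
    exact h.A_flat t ht ((a.isA (t+1) ht).2 hA) s hs l hl
  A_le := fun t ht hA k hk l hl => by
    rw [← a.P (t+1) ht l (Nat.lt_succ_of_le hl), ← a.D (t+1) ht k (hk.trans ht.le),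
      ← a.D l (hl.trans ht.le) k (hk.trans ht.le)]
    exact h.A_le t ht ((a.isA (t+1) ht).2 hA) k hk l hl
  A_eq := fun t ht hA k hk => by
    obtain ⟨l, hl, e⟩ := h.A_eq t ht ((a.isA (t+1) ht).2 hA) k hk
    refine ⟨l, hl, ?_⟩
    rw [← a.P (t+1) ht l (Nat.lt_succ_of_le hl), ← a.D (t+1) ht k (hk.trans ht.le),
      ← a.D l (hl.trans ht.le) k (hk.trans ht.le)]
    exact e
  B_ext := fun t ht hB s hs hh => by
    rw [← a.S t ht.le] at hs
    rw [← a.S (t+1) ht]
    refine h.B_ext t ht (fun hA => hB ((a.isA (t+1) ht).1 hA)) s hs ?_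
    intro l hl
    rw [a.D (t+1) ht l (hl.trans ht.le)]
    exact hh l hl

theorem Valid.D_nonneg {n : ℕ} {g : Geo} (h : Valid n g) {i j : ℕ} (hi : i ≤ n) (hj : j ≤ n) :
    0 ≤ g.D i j := by
  have h1 := h.D_tri i hi j hj i hi
  rw [h.D_self i hi, h.D_symm j hj i hi] at h1
  linarith

/-! ### extension at a B-born point -/

theorem extB {n : ℕ} {g : Geo} (hg : Valid (n+1) g) (hB : ¬ g.isA (n+1)) {s : ℕ → ℝ}
    (hs : s ∈ g.S n) (Lo Up : Set ℝ) (h : ∀ a ∈ Lo, ∀ b ∈ Up, a ≤ b)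
    (hLo : ∀ a ∈ Lo, ∀ l ≤ n, a ≤ s l + g.D (n+1) l)
    (hUp : ∀ b ∈ Up, ∀ l ≤ n, s l - g.D (n+1) l ≤ b) :
    ∃ s' ∈ g.S (n+1), (∀ i ≤ n, s' i = s i) ∧ (∀ a ∈ Lo, a ≤ s' (n+1)) ∧
      (∀ b ∈ Up, s' (n+1) ≤ b) := by
  have hn : n ≤ n+1 := Nat.le_succ n
  have hlip := hg.S_lip n hn s hs
  set A : Set ℝ := Lo ∪ {y | ∃ l ≤ n, y = s l - g.D (n+1) l} with hA
  have hbd : ∀ y ∈ A, ∀ l ≤ n, y ≤ s l + g.D (n+1) l := by
    rintro y (hy | ⟨k, hk, rfl⟩) l hl
    · exact hLo y hy l hl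
    · have h1 := hlip k hk l hl
      have h2 := hg.D_tri k (hk.trans hn) (n+1) le_rfl l (hl.trans hn)
      rw [hg.D_symm k (hk.trans hn) (n+1) le_rfl] at h2
      linarith
  have hbdd : BddAbove A := ⟨s 0 + g.D (n+1) 0, fun y hy => hbd y hy 0 (Nat.zero_le _)⟩
  have hne : A.Nonempty := ⟨_, Or.inr ⟨0, Nat.zero_le _, rfl⟩⟩
  set x : ℝ := sSup A with hx
  have hx1 : ∀ a ∈ A, a ≤ x := fun a ha => le_csSup hbdd ha
  have hx2 : ∀ b ∈ Up, x ≤ b := by
    intro b hb
    refine csSup_le hne ?_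
    rintro y (hy | ⟨k, hk, rfl⟩)
    · exact h y hy b hb
    · exact hUp b hb k hk
  have hx3 : ∀ l ≤ n, x ≤ s l + g.D (n+1) l := fun l hl =>
    csSup_le hne (fun y hy => hbd y hy l hl)
  have hx4 : ∀ l ≤ n, s l - g.D (n+1) l ≤ x := fun l hl =>
    hx1 _ (Or.inr ⟨l, hl, rfl⟩)
  have hup : ∀ i ≤ n, Function.update s (n+1) x i = s i := fun i hi => by
    rw [Function.update_of_ne]; omega
  refine ⟨Function.update s (n+1) x, ?_, hup, ?_, ?_⟩
  · refine hg.B_ext n (Nat.lt_succ_self n) hB _ ?_ ?_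
    · exact hg.S_congr n hn s _ (fun i hi => (hup i hi).symm) hs
    · intro l hl
      rw [hup l hl, Function.update_self, abs_le]
      have h3 := hx3 l hl
      have h4 := hx4 l hl
      constructor <;> linarith
  · intro a ha
    rw [Function.update_self]
    exact hx1 a (Or.inl ha)
  · intro b hb
    rw [Function.update_self]
    exact hx2 b hb

/-! ### flat functionals -/

theorem exists_flat (g : Geo) : ∀ n, Valid n g →
    ∃ s ∈ g.S n, ∀ i ≤ n, ∀ j ≤ n, s i - s j ≤ g.D i j / 10^15 := by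
  intro n
  induction n with
  | zero =>
    intro hg
    obtain ⟨s, hs⟩ := hg.S_ne
    refine ⟨s, hs, ?_⟩
    intro i hi j hj
    obtain rfl : i = 0 := Nat.le_zero.1 hi
    obtain rfl : j = 0 := Nat.le_zero.1 hj
    rw [hg.D_self 0 le_rfl]; simp
  | succ n ih =>
    intro hg
    have hn : n ≤ n+1 := Nat.le_succ n
    obtain ⟨s, hs, hf⟩ := ih (hg.mono hn)
    by_cases hA : g.isA (n+1)
    · obtain ⟨s', hs', he⟩ := hg.A_ext n (Nat.lt_succ_self n) hA s hs
      have key : ∀ j ≤ n, |s' (n+1) - s' j| ≤ g.D (n+1) j / 10^15 := by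
        intro j hj
        obtain ⟨l, hl, e⟩ := hg.A_eq n (Nat.lt_succ_self n) hA j hj
        have h1 := abs_le.1 (hg.A_flat n (Nat.lt_succ_self n) hA s' hs' l hl)
        have h2 := hf l hl j hj
        have h3 := hf j hj l hl
        rw [hg.D_symm j (hj.trans hn) l (hl.trans hn)] at h3
        rw [e, abs_le, he j hj]
        rw [he l hl] at h1
        constructor
        · have := h1.1
          linarith
        · have := h1.2
          linarith
      refine ⟨s', hs', ?_⟩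
      intro i hi j hj
      rcases Nat.lt_or_ge i (n+1) with h | h
      · have hi' : i ≤ n := Nat.lt_succ_iff.1 h
        rcases Nat.lt_or_ge j (n+1) with h' | h'
        · have hj' : j ≤ n := Nat.lt_succ_iff.1 h'
          rw [he i hi', he j hj']
          exact hf i hi' j hj'
        · obtain rfl : j = n+1 := le_antisymm hj h'
          have h5 := (abs_le.1 (key i hi')).1
          rw [hg.D_symm i hi (n+1) le_rfl]
          linarith
      · obtain rfl : i = n+1 := le_antisymm hi h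
        rcases Nat.lt_or_ge j (n+1) with h' | h'
        · exact (abs_le.1 (key j (Nat.lt_succ_iff.1 h'))).2
        · obtain rfl : j = n+1 := le_antisymm hj h'
          rw [hg.D_self _ le_rfl]; simp
    · -- B-born: McShane extension of the flat functional
      have hlip : ∀ k ≤ n, ∀ l ≤ n, s k - g.D (n+1) k / 10^15 ≤ s l + g.D (n+1) l / 10^15 := by
        intro k hk l hl
        have h1 := hf k hk l hl
        have h2 := hg.D_tri k (hk.trans hn) (n+1) le_rfl l (hl.trans hn)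
        rw [hg.D_symm k (hk.trans hn) (n+1) le_rfl] at h2
        linarith
      obtain ⟨s', hs', he, hlo, hup⟩ := extB hg hA hs
        {y | ∃ l ≤ n, y = s l - g.D (n+1) l / 10^15} {y | ∃ l ≤ n, y = s l + g.D (n+1) l / 10^15}
        (by
          rintro a ⟨k, hk, rfl⟩ b ⟨l, hl, rfl⟩
          exact hlip k hk l hl)
        (by
          rintro a ⟨k, hk, rfl⟩ l hl
          have := hlip k hk l hl
          have h3 := hg.D_nonneg (le_refl (n+1)) (hl.trans hn)
          linarith)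
        (by
          rintro a ⟨k, hk, rfl⟩ l hl
          have := hlip l hl k hk
          have h3 := hg.D_nonneg (le_refl (n+1)) (hl.trans hn)
          linarith)
      refine ⟨s', hs', ?_⟩
      intro i hi j hj
      rcases Nat.lt_or_ge i (n+1) with h | h
      · have hi' : i ≤ n := Nat.lt_succ_iff.1 h
        rcases Nat.lt_or_ge j (n+1) with h' | h'
        · have hj' : j ≤ n := Nat.lt_succ_iff.1 h'
          rw [he i hi', he j hj']
          exact hf i hi' j hj'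
        · obtain rfl : j = n+1 := le_antisymm hj h'
          have h5 := hlo _ ⟨i, hi', rfl⟩
          rw [hg.D_symm i hi (n+1) le_rfl, he i hi']
          linarith
      · obtain rfl : i = n+1 := le_antisymm hi h
        rcases Nat.lt_or_ge j (n+1) with h' | h'
        · have hj' : j ≤ n := Nat.lt_succ_iff.1 h'
          have h5 := hup _ ⟨j, hj', rfl⟩
          rw [he j hj']
          linarith
        · obtain rfl : j = n+1 := le_antisymm hj h'
          rw [hg.D_self _ le_rfl]; simp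

/-! ### pairs -/

/-- the pair `(R, R')` is satisfied at total level `Lam` by `s` -/
def Pr (s : ℕ → ℝ) (Lam : ℝ) (R R' : ℕ → ℝ → Prop) : Prop :=
  ∀ u q, R u q → ∀ u' q', R' u' q' → Lam ≤ s u + q + (q' - s u')

/-- bounds of needs -/
structure Bd (g : Geo) (n a : ℕ) (rho : ℝ) (R : ℕ → ℝ → Prop) : Prop where
  rho_nonneg : 0 ≤ rho
  a_le : a ≤ n
  le : ∀ u q, R u q → u ≤ n
  low : ∀ u q, R u q → -(rho / 10^4) ≤ q
  far : ∀ u q, R u q → g.D a u - 10^10 * rho ≤ q

theorem Pr.symm {s : ℕ → ℝ} {Lam : ℝ} {R R' : ℕ → ℝ → Prop} (h : Pr s Lam R R') :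
    Pr (-s) Lam R' R := by
  intro u q hq u' q' hq'
  have := h u' q' hq' u q hq
  simp only [Pi.neg_apply]
  linarith

theorem Pr.of_split {s : ℕ → ℝ} {lam lam' Lam : ℝ} {R R' : ℕ → ℝ → Prop} (h : Sat s lam R)
    (h' : Sat (-s) lam' R') (hl : Lam ≤ lam + lam') : Pr s Lam R R' := by
  intro u q hq u' q' hq'
  have h1 := h u q hq
  have h2 := h' u' q' hq'
  simp only [Pi.neg_apply] at h2
  linarith

theorem exists_lower (s : ℕ → ℝ) (n : ℕ) : ∃ c, ∀ i ≤ n, c ≤ s i := by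
  induction n with
  | zero => exact ⟨s 0, fun i hi => by rw [Nat.le_zero.1 hi]⟩
  | succ n ih =>
    obtain ⟨c, hc⟩ := ih
    refine ⟨min c (s (n+1)), fun i hi => ?_⟩
    rcases Nat.lt_or_ge i (n+1) with h | h
    · exact (min_le_left _ _).trans (hc i (Nat.lt_succ_iff.1 h))
    · rw [le_antisymm hi h]; exact min_le_right _ _

theorem Pr.split {g : Geo} {n a a' : ℕ} {rho rho' : ℝ} {s : ℕ → ℝ} {Lam : ℝ}
    {R R' : ℕ → ℝ → Prop} (h : Pr s Lam R R') (hb : Bd g n a rho R) (hb' : Bd g n a' rho' R') :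
    ∃ lam lam', lam + lam' = Lam ∧ Sat s lam R ∧ Sat (-s) lam' R' := by
  by_cases hne : ∃ u q, R u q
  · set A : Set ℝ := {y | ∃ u q, R u q ∧ y = s u + q} with hA
    obtain ⟨c, hc⟩ := exists_lower s n
    have hbdd : BddBelow A := by
      refine ⟨c - rho / 10^4, ?_⟩
      rintro y ⟨u, q, hq, rfl⟩
      have h1 := hc u (hb.le u q hq)
      have h2 := hb.low u q hq
      linarith
    have hne' : A.Nonempty := by
      obtain ⟨u, q, hq⟩ := hne
      exact ⟨_, u, q, hq, rfl⟩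
    refine ⟨sInf A, Lam - sInf A, by ring, ?_, ?_⟩
    · intro u q hq
      exact csInf_le hbdd ⟨u, q, hq, rfl⟩
    · intro u' q' hq'
      have : Lam - (q' - s u') ≤ sInf A := by
        refine le_csInf hne' ?_
        rintro y ⟨u, q, hq, rfl⟩
        have := h u q hq u' q' hq'
        linarith
      simp only [Pi.neg_apply]
      linarith
  · obtain ⟨c, hc⟩ := exists_lower (-s) n
    refine ⟨Lam - (c - rho' / 10^4), c - rho' / 10^4, by ring, ?_, ?_⟩
    · intro u q hq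
      exact absurd ⟨u, q, hq⟩ hne
    · intro u' q' hq'
      have h1 := hc u' (hb'.le u' q' hq')
      have h2 := hb'.low u' q' hq'
      linarith

/-- close pairs are satisfied by a flat functional -/
theorem flat_pair {g : Geo} {n a a' : ℕ} {rho rho' : ℝ} {R R' : ℕ → ℝ → Prop} (hg : Valid n g)
    (hb : Bd g n a rho R) (hb' : Bd g n a' rho' R') {Lam : ℝ}
    (hLam : Lam ≤ -(11 / 10^5) * (rho + rho') - g.D a a' / 10^15) :
    ∃ s ∈ g.S n, Pr s Lam R R' := by
  obtain ⟨s, hs, hf⟩ := exists_flat g n hg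
  refine ⟨s, hs, ?_⟩
  intro u q hq u' q' hq'
  have hu := hb.le u q hq
  have hu' := hb'.le u' q' hq'
  have h1 := hb.low u q hq
  have h2 := hb.far u q hq
  have h1' := hb'.low u' q' hq'
  have h2' := hb'.far u' q' hq'
  have h3 := hf u' hu' u hu
  have h4 := hg.D_tri u' hu' a' hb'.a_le u hu
  have h5 := hg.D_tri a' hb'.a_le a hb.a_le u hu
  rw [hg.D_symm u' hu' a' hb'.a_le] at h4
  rw [hg.D_symm a' hb'.a_le a hb.a_le] at h5
  have h6 := hb.rho_nonneg
  have h6' := hb'.rho_nonneg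
  linarith

/-! ### constraints -/

/-- the constraints at time `n`: actual roots and virtual roots (of any future) -/
inductive Cons (g : Geo) (n : ℕ) : (ℕ → ℝ → Prop) → ℕ → ℝ → ℝ → Prop
  | act (v : ℕ) (hv : v ≤ n) (rho : ℝ) (h : 0 ≤ rho) :
      Cons g n (ActR g n v rho) v rho (rho / 300)
  | vir (g' : Geo) (t0 : ℕ) (rho : ℝ) (ts w : ℕ) (R : ℕ → ℕ → ℝ → Prop) (hag : Agree n g g')
      (hval : Valid t0 g') (hcs : IsCS g' t0 rho ts w R) (h1 : ts ≤ n) (h2 : n ≤ t0) :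
      Cons g n (R n) w rho (rho / 600)

theorem ActR_congr {g g' : Geo} {n v : ℕ} (hv : v ≤ n) (rho : ℝ) (h : Agree n g g') :
    ActR g n v rho = ActR g' n v rho := by
  funext u q
  apply propext
  unfold ActR
  constructor
  · rintro ⟨h1, h2⟩
    exact ⟨h1, by rw [h2, h.D v hv u h1]⟩
  · rintro ⟨h1, h2⟩
    exact ⟨h1, by rw [h2, h.D v hv u h1]⟩

theorem Cons.congr {g g' : Geo} {n : ℕ} {R : ℕ → ℝ → Prop} {a : ℕ} {rho loss : ℝ}
    (h : Cons g n R a rho loss) (ag : Agree n g g') : Cons g' n R a rho loss := by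
  cases h with
  | act _ hv _ h =>
    rw [ActR_congr hv _ ag]
    exact Cons.act _ hv _ h
  | vir g'' t0 _ ts _ R hag hval hcs h1 h2 =>
    exact Cons.vir g'' t0 _ ts _ R (ag.symm.trans hag) hval hcs h1 h2

theorem Bd_act {g : Geo} {n v : ℕ} {rho : ℝ} (hg : Valid n g) (hv : v ≤ n) (h : 0 ≤ rho) :
    Bd g n v rho (ActR g n v rho) := by
  refine ⟨h, hv, fun u q hq => hq.1, ?_, ?_⟩
  · rintro u q ⟨hu, rfl⟩
    have h1 := Psi_ge_div rho (g.D v u)
    have h2 := hg.D_nonneg hv hu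
    linarith
  · rintro u q ⟨hu, rfl⟩
    have h1 := Psi_ge_sub' rho (g.D v u) h
    linarith

theorem Cons.bd {g : Geo} {n : ℕ} (hg : Valid n g) {R : ℕ → ℝ → Prop} {a : ℕ} {rho loss : ℝ}
    (h : Cons g n R a rho loss) : Bd g n a rho R := by
  cases h with
  | act _ hv _ h => exact Bd_act hg hv h
  | vir g'' t0 _ ts _ R hag hval hcs h1 h2 =>
    have hle := hcs.Rle n h1 h2
    refine ⟨hcs.rho_pos.le, hcs.w_le.trans h1, hle, hcs.Rlow n h1 h2, ?_⟩
    intro u q hq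
    rw [hag.D _ (hcs.w_le.trans h1) u (hle u q hq)]
    exact hcs.Rfar n h1 h2 u q hq

theorem Cons.loss_ge {g : Geo} {n : ℕ} {R : ℕ → ℝ → Prop} {a : ℕ} {rho loss : ℝ}
    (h : Cons g n R a rho loss) : rho / 600 ≤ loss := by
  cases h with
  | act v hv rho h => linarith
  | vir g'' t0 rho ts w R hag hval hcs h1 h2 => exact le_rfl

/-- an old constraint at time `n+1`: `R` at time `n`, `R1` at time `n+1` -/
structure Old (g : Geo) (n : ℕ) (R R1 : ℕ → ℝ → Prop) (a : ℕ) (rho loss : ℝ) : Prop where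
  cons : Cons g n R a rho loss
  bd1 : Bd g (n+1) a rho R1
  stepA : g.isA (n+1) → ∀ s ∈ g.S (n+1), ∀ lam, Sat s lam R → Sat s lam R1
  stepB1 : ¬ g.isA (n+1) → ∀ s ∈ g.S n, ∀ lam, Sat s lam R →
    ∀ u ≤ n, ∀ q, R1 u q → lam ≤ s u + q
  stepB2 : ¬ g.isA (n+1) → ∀ s ∈ g.S n, ∀ lam, Sat s lam R →
    ∀ q, R1 (n+1) q → ∀ l ≤ n, lam ≤ s l + g.D (n+1) l + q

theorem P_nonneg {g : Geo} {n : ℕ} (hg : Valid (n+1) g) (hA : g.isA (n+1)) {l : ℕ} (hl : l ≤ n) :
    0 ≤ g.P (n+1) l := by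
  obtain ⟨s, hs, -⟩ := exists_flat g (n+1) hg
  have := hg.A_flat n (Nat.lt_succ_self n) hA s hs l hl
  have h2 := (abs_nonneg _).trans this
  by_contra h
  push Not at h
  linarith

theorem Old_act {g : Geo} {n v : ℕ} {rho : ℝ} (hg : Valid (n+1) g) (hv : v ≤ n) (h : 0 ≤ rho) :
    Old g n (ActR g n v rho) (ActR g (n+1) v rho) v rho (rho / 300) := by
  have hn : n ≤ n+1 := Nat.le_succ n
  refine ⟨Cons.act v hv rho h, Bd_act hg (hv.trans hn) h, ?_, ?_, ?_⟩
  · rintro hA s hs lam hsat u q ⟨hu, rfl⟩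
    rcases Nat.lt_or_ge u (n+1) with h' | h'
    · exact hsat u _ ⟨Nat.lt_succ_iff.1 h', rfl⟩
    · obtain rfl : u = n+1 := le_antisymm hu h'
      obtain ⟨l, hl, e⟩ := hg.A_eq n (Nat.lt_succ_self n) hA v hv
      have h1 := hsat l _ ⟨hl, rfl⟩
      have h2 := hg.A_flat n (Nat.lt_succ_self n) hA s hs l hl
      have h3 := Psi_add rho (g.D v l) (g.P (n+1) l) (P_nonneg hg hA hl)
      have h4 := (abs_le.1 h2).1
      rw [hg.D_symm v (hv.trans hn) (n+1) le_rfl, e, hg.D_symm l (hl.trans hn) v (hv.trans hn),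
        add_comm (g.P (n+1) l)]
      linarith
  · rintro hB s hs lam hsat u hu q ⟨-, rfl⟩
    exact hsat u _ ⟨hu, rfl⟩
  · rintro hB s hs lam hsat q ⟨-, rfl⟩ l hl
    have h1 := hsat l _ ⟨hl, rfl⟩
    have h2 := Psi_lip rho (g.D v l) (g.D v (n+1)) (g.D (n+1) l)
      (hg.D_nonneg le_rfl (hl.trans hn))
      (hg.D_tri v (hv.trans hn) (n+1) le_rfl l (hl.trans hn))
    linarith

theorem Old_vir {g : Geo} {n : ℕ} {g' : Geo} {t0 : ℕ} {rho : ℝ} {ts w : ℕ}
    {R : ℕ → ℕ → ℝ → Prop} (hg : Valid (n+1) g) (hag : Agree (n+1) g g')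
    (hval : Valid t0 g') (hcs : IsCS g' t0 rho ts w R) (h1 : ts ≤ n) (h2 : n+1 ≤ t0) :
    Old g n (R n) (R (n+1)) w rho (rho / 600) := by
  have hn : n ≤ n+1 := Nat.le_succ n
  refine ⟨Cons.vir g' t0 rho ts w R (hag.mono hn) hval hcs h1 (hn.trans h2),
    (Cons.vir g' t0 rho ts w R hag hval hcs (h1.trans hn) h2).bd hg, ?_, ?_, ?_⟩
  · intro hA s hs lam hsat
    rw [hag.S (n+1) le_rfl] at hs
    exact hcs.RA n h1 h2 ((hag.isA (n+1) le_rfl).1 hA) s hs lam hsat
  · intro hB s hs lam hsat u hu q hq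
    rw [hag.S n hn] at hs
    exact hcs.RB1 n h1 h2 (fun hA => hB ((hag.isA (n+1) le_rfl).2 hA)) s hs lam hsat u hu q hq
  · intro hB s hs lam hsat q hq l hl
    rw [hag.S n hn] at hs
    rw [hag.D (n+1) le_rfl l (hl.trans hn)]
    exact hcs.RB2 n h1 h2 (fun hA => hB ((hag.isA (n+1) le_rfl).2 hA)) s hs lam hsat q hq l hl

/-- persistence of pairs -/
theorem persist {g : Geo} {n : ℕ} (hg : Valid (n+1) g) {R R1 R' R1' : ℕ → ℝ → Prop} {a a' : ℕ}
    {rho loss rho' loss' : ℝ} (hO : Old g n R R1 a rho loss) (hO' : Old g n R' R1' a' rho' loss')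
    {Lam : ℝ} (cap : Lam ≤ g.D a a' - 10^10 * rho - 10^10 * rho') {s : ℕ → ℝ} (hs : s ∈ g.S n)
    (hp : Pr s Lam R R') : ∃ s' ∈ g.S (n+1), Pr s' Lam R1 R1' := by
  have hn : n ≤ n+1 := Nat.le_succ n
  have hgn := hg.mono hn
  have hb := hO.cons.bd hgn
  have hb' := hO'.cons.bd hgn
  obtain ⟨lam, lam', hsum, h1, h2⟩ := hp.split hb hb'
  have hsneg := hg.S_neg n hn s hs
  by_cases hA : g.isA (n+1)
  · obtain ⟨s', hs', he⟩ := hg.A_ext n (Nat.lt_succ_self n) hA s hs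
    refine ⟨s', hs', Pr.of_split (lam := lam) (lam' := lam') ?_ ?_ hsum.ge⟩
    · refine hO.stepA hA s' hs' lam ?_
      intro u q hq
      rw [he u (hb.le u q hq)]
      exact h1 u q hq
    · refine hO'.stepA hA (-s') (hg.S_neg (n+1) le_rfl s' hs') lam' ?_
      intro u q hq
      have := h2 u q hq
      simp only [Pi.neg_apply] at this ⊢
      rw [he u (hb'.le u q hq)]
      exact this
  · obtain ⟨s', hs', he, hlo, hup⟩ := extB hg hA hs
      {y | ∃ q, R1 (n+1) q ∧ y = lam - q} {y | ∃ q, R1' (n+1) q ∧ y = q - lam'}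
      (by
        rintro x ⟨q, hq, rfl⟩ y ⟨q', hq', rfl⟩
        have h3 := hO.bd1.far _ _ hq
        have h4 := hO'.bd1.far _ _ hq'
        have h5 := hg.D_tri a hO.bd1.a_le (n+1) le_rfl a' hO'.bd1.a_le
        rw [hg.D_symm (n+1) le_rfl a' hO'.bd1.a_le] at h5
        linarith)
      (by
        rintro x ⟨q, hq, rfl⟩ l hl
        have := hO.stepB2 hA s hs lam h1 q hq l hl
        linarith)
      (by
        rintro x ⟨q, hq, rfl⟩ l hl
        have := hO'.stepB2 hA (-s) hsneg lam' h2 q hq l hl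
        simp only [Pi.neg_apply] at this
        linarith)
    refine ⟨s', hs', Pr.of_split (lam := lam) (lam' := lam') ?_ ?_ hsum.ge⟩
    · intro u q hq
      rcases Nat.lt_or_ge u (n+1) with h' | h'
      · have hu := Nat.lt_succ_iff.1 h'
        rw [he u hu]
        exact hO.stepB1 hA s hs lam h1 u hu q hq
      · obtain rfl : u = n+1 := le_antisymm (hO.bd1.le u q hq) h'
        have := hlo _ ⟨q, hq, rfl⟩
        linarith
    · intro u q hq
      simp only [Pi.neg_apply]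
      rcases Nat.lt_or_ge u (n+1) with h' | h'
      · have hu := Nat.lt_succ_iff.1 h'
        rw [he u hu]
        exact hO'.stepB1 hA (-s) hsneg lam' h2 u hu q hq
      · obtain rfl : u = n+1 := le_antisymm (hO'.bd1.le u q hq) h'
        have := hup _ ⟨q, hq, rfl⟩
        linarith

section labels

variable {X : Type*} [PseudoMetricSpace X]

/-- the invariant -/
def Inv (n : ℕ) (g : Geo) (m : ℕ → X) : Prop :=
  ∀ R a rho loss R' a' rho' loss', Cons g n R a rho loss → Cons g n R' a' rho' loss' →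
    ∀ Lam < dist (m a) (m a') - loss - loss', ∃ s ∈ g.S n, Pr s Lam R R'

/-- labels are flat -/
def Lab (n : ℕ) (g : Geo) (m : ℕ → X) : Prop :=
  ∀ k ≤ n, ∀ l ≤ n, dist (m k) (m l) ≤ g.D k l / 10^15

/-- old-old pairs -/
theorem old_old {g : Geo} {n : ℕ} (hg : Valid (n+1) g) {m : ℕ → X} (hI : Inv n g m)
    (hL : Lab n g m) {R R1 R' R1' : ℕ → ℝ → Prop} {a a' : ℕ}
    {rho loss rho' loss' : ℝ} (hO : Old g n R R1 a rho loss) (hO' : Old g n R' R1' a' rho' loss')
    {Lam : ℝ} (hLam : Lam < dist (m a) (m a') - loss - loss') :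
    ∃ s ∈ g.S (n+1), Pr s Lam R1 R1' := by
  have hn : n ≤ n+1 := Nat.le_succ n
  have hgn := hg.mono hn
  have hb := hO.cons.bd hgn
  have hb' := hO'.cons.bd hgn
  have h1 := hL a hb.a_le a' hb'.a_le
  have h2 := hO.cons.loss_ge
  have h3 := hO'.cons.loss_ge
  have h4 := hb.rho_nonneg
  have h5 := hb'.rho_nonneg
  rcases le_total (g.D a a') (2 * 10^10 * (rho + rho')) with h | h
  · refine flat_pair hg hO.bd1 hO'.bd1 ?_
    linarith
  · obtain ⟨s, hs, hp⟩ := hI R a rho loss R' a' rho' loss' hO.cons hO'.cons Lam hLam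
    refine persist hg hO hO' ?_ hs hp
    linarith

/-- basic new constraints at time `t = n+1` -/
def NewR (g : Geo) (n : ℕ) (r : ℝ) : Prop :=
  r = 0 ∨ (¬ g.isA (n+1) ∧ 0 ≤ r ∧ ∀ l ≤ n, 4 * r ≤ g.D (n+1) l)

theorem NewR.nonneg {g : Geo} {n : ℕ} {r : ℝ} (h : NewR g n r) : 0 ≤ r := by
  rcases h with h | h
  · exact h.ge
  · exact h.2.1

theorem new_new {g : Geo} {n : ℕ} (hg : Valid (n+1) g) (r r' : ℝ)
    {Lam : ℝ} (hLam : Lam < 0) :
    ∃ s ∈ g.S (n+1), Pr s Lam (ActR g (n+1) (n+1) r) (ActR g (n+1) (n+1) r') := by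
  obtain ⟨s, hs, hf⟩ := exists_flat g (n+1) hg
  refine ⟨s, hs, ?_⟩
  rintro u q ⟨hu, rfl⟩ u' q' ⟨hu', rfl⟩
  have h1 := hf u' hu' u hu
  have h2 := hg.D_tri u' hu' (n+1) le_rfl u hu
  rw [hg.D_symm u' hu' (n+1) le_rfl] at h2
  have h3 := Psi_ge_div r (g.D (n+1) u)
  have h4 := Psi_ge_div r' (g.D (n+1) u')
  linarith

/-- founder lemma: a B-born point against an old constraint -/
theorem new_old_B {g : Geo} {n : ℕ} (hg : Valid (n+1) g) (hB : ¬ g.isA (n+1)) {m : ℕ → X}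
    (hI : Inv n g m)
    (hlab : ∀ l ≤ n, dist (m (n+1)) (m l) ≤ g.D (n+1) l / 10^15)
    {r : ℝ} (hr : 0 ≤ r) (hrl : ∀ l ≤ n, 4 * r ≤ g.D (n+1) l)
    {R' R1' : ℕ → ℝ → Prop} {a' : ℕ} {rho' loss' : ℝ}
    (hO' : Old g n R' R1' a' rho' loss')
    {Lam : ℝ} (hLam : Lam < dist (m (n+1)) (m a') - loss') :
    ∃ s ∈ g.S (n+1), Pr s Lam (ActR g (n+1) (n+1) r) R1' := by
  have hn : n ≤ n+1 := Nat.le_succ n
  have hgn := hg.mono hn
  have hb' := hO'.cons.bd hgn
  have h3 := hO'.cons.loss_ge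
  have h5 := hb'.rho_nonneg
  have h6 := hlab a' hb'.a_le
  rcases le_total (g.D (n+1) a') (2 * 10^10 * rho') with h | h
  · -- flat functional
    obtain ⟨s, hs, hf⟩ := exists_flat g (n+1) hg
    refine ⟨s, hs, ?_⟩
    rintro u q ⟨hu, rfl⟩ u' q' hq'
    have hu' := hO'.bd1.le u' q' hq'
    have k1 := hf u' hu' u hu
    have k2 := hg.D_tri u' hu' (n+1) le_rfl u hu
    have k3 := hg.D_tri u' hu' a' hO'.bd1.a_le (n+1) le_rfl
    rw [hg.D_symm u' hu' a' hO'.bd1.a_le, hg.D_symm a' hO'.bd1.a_le (n+1) le_rfl] at k3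
    have k4 := Psi_ge_div r (g.D (n+1) u)
    have k5 := hO'.bd1.low u' q' hq'
    have k6 := hO'.bd1.far u' q' hq'
    linarith
  · -- from the actual root `(qq, 2 r0)` at time `n`
    obtain ⟨qq, hqq, hmin⟩ : ∃ qq ≤ n, ∀ l ≤ n, g.D (n+1) qq ≤ g.D (n+1) l := by
      obtain ⟨x, hx, hx2⟩ := Finset.exists_min_image (Finset.range (n+1)) (fun l => g.D (n+1) l)
        ⟨0, Finset.mem_range.2 (Nat.succ_pos n)⟩
      exact ⟨x, Nat.lt_succ_iff.1 (Finset.mem_range.1 hx), fun l hl =>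
        hx2 l (Finset.mem_range.2 (Nat.lt_succ_of_le hl))⟩
    set r0 : ℝ := g.D (n+1) qq with hr0
    have hr0n : 0 ≤ r0 := hg.D_nonneg le_rfl (hqq.trans hn)
    have hr4 : 4 * r ≤ r0 := hrl qq hqq
    have hq1 := hlab qq hqq
    have htri := dist_triangle (m (n+1)) (m qq) (m a')
    obtain ⟨s, hs, hp⟩ := hI (ActR g n qq (2 * r0)) qq (2 * r0) (2 * r0 / 300) R' a' rho' loss'
      (Cons.act qq hqq (2 * r0) (by linarith)) hO'.cons (Lam - r0 * (3/4 - 2 / 10^15))
      (by linarith)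
    obtain ⟨lam, lam', hsum, hs1, hs2⟩ := hp.split
      (Bd_act hgn hqq (by linarith : (0:ℝ) ≤ 2 * r0)) hb'
    have hsneg := hg.S_neg n hn s hs
    -- lower bound of H
    have hH : ∀ c ≤ n, lam + r0 * (1 - 2 / 10^15) ≤ s c + g.D (n+1) c := by
      intro c hc
      have k1 := hs1 c _ ⟨hc, rfl⟩
      have k2 : Psi (2 * r0) (g.D qq c) + r0 * (1 - 2 / 10^15) ≤ g.D (n+1) c := by
        have k3 := hmin c hc
        have k4 := hg.D_tri qq (hqq.trans hn) (n+1) le_rfl c (hc.trans hn)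
        rw [hg.D_symm qq (hqq.trans hn) (n+1) le_rfl] at k4
        have k5 : Psi (2 * r0) (g.D qq c) ≤ g.D (n+1) c - r0 * (1 - 2 / 10^15) := by
          unfold Psi
          refine max_le ?_ ?_
          · linarith
          · linarith
        linarith
      linarith
    obtain ⟨s', hs', he, hlo, hup⟩ := extB hg hB hs
      {y | y = Lam - lam'} {y | ∃ q, R1' (n+1) q ∧ y = q - lam'}
      (by
        rintro x rfl y ⟨q', hq', rfl⟩
        have h4 := hO'.bd1.far _ _ hq'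
        rw [hg.D_symm a' hO'.bd1.a_le (n+1) le_rfl] at h4
        linarith)
      (by
        rintro x rfl l hl
        have k1 := hH l hl
        linarith)
      (by
        rintro x ⟨q, hq, rfl⟩ l hl
        have := hO'.stepB2 hB (-s) hsneg lam' hs2 q hq l hl
        simp only [Pi.neg_apply] at this
        linarith)
    refine ⟨s', hs', Pr.of_split (lam := Lam - lam') (lam' := lam') ?_ ?_ (by linarith)⟩
    · rintro u q ⟨hu, rfl⟩
      rcases Nat.lt_or_ge u (n+1) with h' | h'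
      · have hu := Nat.lt_succ_iff.1 h'
        rw [he u hu]
        have k1 := hH u hu
        have k2 := Psi_ge_sub' r (g.D (n+1) u) hr
        linarith
      · obtain rfl : u = n+1 := le_antisymm hu h'
        have k1 := hlo _ rfl
        rw [hg.D_self _ le_rfl, Psi_zero_right r hr]
        linarith
    · intro u q hq
      simp only [Pi.neg_apply]
      rcases Nat.lt_or_ge u (n+1) with h' | h'
      · have hu := Nat.lt_succ_iff.1 h'
        rw [he u hu]
        exact hO'.stepB1 hB (-s) hsneg lam' hs2 u hu q hq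
      · obtain rfl : u = n+1 := le_antisymm (hO'.bd1.le u q hq) h'
        have := hup _ ⟨q, hq, rfl⟩
        linarith

/-- choice of the label at an A-birth -/
theorem exists_label {g : Geo} {n : ℕ} (hg : Valid (n+1) g) (hA : g.isA (n+1)) {m : ℕ → X}
    (hX : BallProp X) (hI : Inv n g m) (hL : Lab n g m) :
    ∃ y : X, (∀ l ≤ n, dist y (m l) ≤ g.D (n+1) l / 10^15) ∧
      ∀ (R' R1' : ℕ → ℝ → Prop) (a' : ℕ) (rho' loss' : ℝ), Old g n R' R1' a' rho' loss' →
        ∀ Lam < dist y (m a') - loss', ∃ s ∈ g.S (n+1),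
          ∀ u q, R1' u q → Lam ≤ s (n+1) + (q - s u) := by
  have hn : n ≤ n+1 := Nat.le_succ n
  have hgn := hg.mono hn
  -- the set of radii at centre `a`
  let B : ℕ → Set ℝ := fun a => {r | ∃ R1 rho loss, (∃ R, Old g n R R1 a rho loss) ∧
    ∀ x, (∃ s ∈ g.S (n+1), ∀ u q, R1 u q → x ≤ s (n+1) + (q - s u)) → x + loss ≤ r}
  have hBP : ∀ a ≤ n, g.P (n+1) a / 10^15 ∈ B a := by
    intro a ha
    refine ⟨_, _, _, ⟨_, Old_act hg ha le_rfl⟩, ?_⟩
    rintro x ⟨s, hs, hx⟩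
    have h1 := hx a _ ⟨ha.trans hn, rfl⟩
    rw [hg.D_self a (ha.trans hn), Psi_zero_right 0 le_rfl] at h1
    have h2 := (abs_le.1 (hg.A_flat n (Nat.lt_succ_self n) hA s hs a ha)).2
    linarith
  have hcomp : ∀ a, ∀ r ∈ B a, ∀ a', ∀ r' ∈ B a', dist (m a) (m a') ≤ r + r' := by
    rintro a r ⟨R1, rho, loss, ⟨R, hO⟩, hr⟩ a' r' ⟨R1', rho', loss', ⟨R', hO'⟩, hr'⟩
    by_contra hcon
    push Not at hcon
    obtain ⟨Lam, hL1, hL2⟩ := exists_between
      (show r + r' - loss - loss' < dist (m a) (m a') - loss - loss' by linarith)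
    obtain ⟨s, hs, hp⟩ := old_old hg hI hL hO hO' hL2
    obtain ⟨lam, lam', hsum, hs1, hs2⟩ := hp.split hO.bd1 hO'.bd1
    have k1 := hr (lam - s (n+1)) ⟨-s, hg.S_neg _ le_rfl s hs, fun u q hq => by
      have := hs1 u q hq
      simp only [Pi.neg_apply]
      linarith⟩
    have k2 := hr' (lam' + s (n+1)) ⟨s, hs, fun u q hq => by
      have := hs2 u q hq
      simp only [Pi.neg_apply] at this
      linarith⟩
    linarith
  have hnn : ∀ a, ∀ r ∈ B a, 0 ≤ r := by
    intro a r hr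
    have := hcomp a r hr a r hr
    rw [dist_self] at this
    linarith
  have hbdd : ∀ a, BddBelow (B a) := fun a => ⟨0, fun r hr => hnn a r hr⟩
  obtain ⟨y, hy⟩ := hX n m (fun a => sInf (B a)) (by
    intro i hi j hj
    have h1 : dist (m i) (m j) - sInf (B j) ≤ sInf (B i) := by
      refine le_csInf ⟨_, hBP i hi⟩ ?_
      intro r hr
      have h2 : dist (m i) (m j) - r ≤ sInf (B j) := by
        refine le_csInf ⟨_, hBP j hj⟩ ?_
        intro r' hr'
        have := hcomp i r hr j r' hr'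
        linarith
      linarith
    linarith)
  refine ⟨y, ?_, ?_⟩
  · intro l hl
    obtain ⟨k, hk, e⟩ := hg.A_eq n (Nat.lt_succ_self n) hA l hl
    have h1 := hy k hk
    have h2 : sInf (B k) ≤ g.P (n+1) k / 10^15 := csInf_le (hbdd k) (hBP k hk)
    have h3 := hL k hk l hl
    have h4 := dist_triangle y (m k) (m l)
    rw [e]
    linarith
  · intro R' R1' a' rho' loss' hO' Lam hLam
    have ha' := (hO'.cons.bd hgn).a_le
    by_contra hcon
    have hmem : Lam + loss' ∈ B a' := by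
      refine ⟨R1', rho', loss', ⟨R', hO'⟩, ?_⟩
      rintro x ⟨s, hs, hx⟩
      by_contra hx2
      push Not at hx2
      refine hcon ⟨s, hs, fun u q hq => ?_⟩
      have := hx u q hq
      linarith
    have h1 := hy a' ha'
    have h2 : sInf (B a') ≤ Lam + loss' := csInf_le (hbdd a') hmem
    linarith

/-- a new actual root of scale `0` against an old constraint, from the label condition -/
theorem new_old_A {g : Geo} {n : ℕ} (hg : Valid (n+1) g) {R1' : ℕ → ℝ → Prop} {Lam : ℝ}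
    (h : ∃ s ∈ g.S (n+1), ∀ u q, R1' u q → Lam ≤ s (n+1) + (q - s u)) :
    ∃ s ∈ g.S (n+1), Pr s Lam (ActR g (n+1) (n+1) 0) R1' := by
  obtain ⟨s, hs, hh⟩ := h
  refine ⟨s, hs, ?_⟩
  rintro u q ⟨hu, rfl⟩ u' q' hq'
  rw [Psi_zero_left _ (hg.D_nonneg le_rfl hu)]
  have h1 := hh u' q' hq'
  have h2 := hg.S_lip (n+1) le_rfl s hs (n+1) le_rfl u hu
  linarith

/-- reduction of constraints -/
def Dom (g : Geo) (t : ℕ) (m : ℕ → X) (R : ℕ → ℝ → Prop) (a : ℕ) (loss : ℝ)
    (R1 : ℕ → ℝ → Prop) (a1 : ℕ) (loss1 : ℝ) : Prop :=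
  ∃ gam, (∀ s ∈ g.S t, ∀ lam, Sat s lam R1 → Sat s (lam + gam) R) ∧
    dist (m a) (m a1) + loss1 ≤ loss + gam

theorem Dom.refl (g : Geo) (t : ℕ) (m : ℕ → X) (R : ℕ → ℝ → Prop) (a : ℕ) (loss : ℝ) :
    Dom g t m R a loss R a loss :=
  ⟨0, fun s _ lam h => by rwa [add_zero], by rw [dist_self]; linarith⟩

theorem Dom.trans {g : Geo} {t : ℕ} {m : ℕ → X} {R : ℕ → ℝ → Prop} {a : ℕ} {loss : ℝ}
    {R1 : ℕ → ℝ → Prop} {a1 : ℕ} {loss1 : ℝ} {R2 : ℕ → ℝ → Prop} {a2 : ℕ} {loss2 : ℝ}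
    (h : Dom g t m R a loss R1 a1 loss1) (h' : Dom g t m R1 a1 loss1 R2 a2 loss2) :
    Dom g t m R a loss R2 a2 loss2 := by
  obtain ⟨c, h1, h2⟩ := h
  obtain ⟨c', h1', h2'⟩ := h'
  refine ⟨c' + c, fun s hs lam hh => ?_, ?_⟩
  · have := h1 s hs (lam + c') (h1' s hs lam hh)
    rwa [add_assoc] at this
  · have := dist_triangle (m a) (m a1) (m a2)
    linarith

/-- basic constraints at time `n+1` -/
def Bas (g : Geo) (n : ℕ) (R1 : ℕ → ℝ → Prop) (a : ℕ) (rho loss : ℝ) : Prop :=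
  (∃ R, Old g n R R1 a rho loss) ∨
    (R1 = ActR g (n+1) (n+1) rho ∧ a = n+1 ∧ loss = 0 ∧ NewR g n rho)

/-- pairs of basic constraints give all pairs below them -/
theorem dom_pair {g : Geo} {n : ℕ} (hg : Valid (n+1) g) {m : ℕ → X}
    {R : ℕ → ℝ → Prop} {a : ℕ} {loss : ℝ} {R1 : ℕ → ℝ → Prop} {a1 : ℕ} {rho1 loss1 : ℝ}
    {R' : ℕ → ℝ → Prop} {a' : ℕ} {loss' : ℝ} {R1' : ℕ → ℝ → Prop} {a1' : ℕ}
    {rho1' loss1' : ℝ} (hb1 : Bd g (n+1) a1 rho1 R1) (hb1' : Bd g (n+1) a1' rho1' R1')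
    (hd : Dom g (n+1) m R a loss R1 a1 loss1) (hd' : Dom g (n+1) m R' a' loss' R1' a1' loss1')
    (H : ∀ Lam < dist (m a1) (m a1') - loss1 - loss1', ∃ s ∈ g.S (n+1), Pr s Lam R1 R1')
    {Lam : ℝ} (hLam : Lam < dist (m a) (m a') - loss - loss') :
    ∃ s ∈ g.S (n+1), Pr s Lam R R' := by
  obtain ⟨c, h1, h2⟩ := hd
  obtain ⟨c', h1', h2'⟩ := hd'
  have t1 := dist_triangle (m a) (m a1) (m a')
  have t2 := dist_triangle (m a1) (m a1') (m a')
  rw [dist_comm (m a1') (m a')] at t2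
  obtain ⟨s, hs, hp⟩ := H (Lam - c - c') (by linarith)
  obtain ⟨lam, lam', hsum, hs1, hs2⟩ := hp.split hb1 hb1'
  exact ⟨s, hs, Pr.of_split (h1 s hs lam hs1) (h1' (-s) (hg.S_neg _ le_rfl s hs) lam' hs2)
    (by linarith)⟩

theorem Bas.bd {g : Geo} {n : ℕ} (hg : Valid (n+1) g) {R1 : ℕ → ℝ → Prop} {a : ℕ} {rho loss : ℝ}
    (h : Bas g n R1 a rho loss) : Bd g (n+1) a rho R1 := by
  rcases h with ⟨R, hO⟩ | ⟨rfl, rfl, rfl, hr⟩
  · exact hO.bd1
  · exact Bd_act hg le_rfl hr.nonneg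

/-- every new actual root is dominated by a basic constraint -/
theorem dom_act {g : Geo} {n : ℕ}
    (T4 : ∀ (g : Geo) (n : ℕ), Valid n g → ∀ t0 ≤ n, ∀ rho : ℝ, 0 < rho →
      ∃ ts w R, IsCS g t0 rho ts w R)
    (hg : Valid (n+1) g) {m : ℕ → X} (hL : Lab (n+1) g m) (v : ℕ) (hv : v ≤ n+1) (r : ℝ)
    (hr : 0 ≤ r) : ∃ R1 a1 rho1 loss1, Bas g n R1 a1 rho1 loss1 ∧
      Dom g (n+1) m (ActR g (n+1) v r) v (r / 300) R1 a1 loss1 := by
  rcases Nat.lt_or_ge v (n+1) with h | h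
  · exact ⟨_, _, _, _, Or.inl ⟨_, Old_act hg (Nat.lt_succ_iff.1 h) hr⟩, Dom.refl _ _ _ _ _ _⟩
  obtain rfl : v = n+1 := le_antisymm hv h
  rcases eq_or_lt_of_le hr with h0 | hpos
  · subst h0
    refine ⟨ActR g (n+1) (n+1) 0, n+1, 0, 0, Or.inr ⟨rfl, rfl, rfl, Or.inl rfl⟩, ?_⟩
    rw [zero_div]
    exact Dom.refl _ _ _ _ _ _
  obtain ⟨ts, w, R, hcs⟩ := T4 g (n+1) hg (n+1) le_rfl r hpos
  have hwn : w ≤ n+1 := hcs.w_le.trans hcs.ts_le
  have hdw : dist (m (n+1)) (m w) ≤ 10^10 * r / 10^15 :=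
    (hL (n+1) le_rfl w hwn).trans (by have := hcs.R5; linarith)
  have hR0 : ∀ s ∈ g.S (n+1), ∀ lam, Sat s lam (R (n+1)) → Sat s lam (ActR g (n+1) (n+1) r) := by
    rintro s hs lam hsat u q ⟨hu, rfl⟩
    obtain ⟨q, hq, hq2⟩ := hcs.R0 u hu
    have := hsat u q hq2
    linarith
  rcases Nat.lt_or_ge ts (n+1) with hts | hts
  · refine ⟨_, _, _, _, Or.inl ⟨_, Old_vir hg (Agree.refl _ g) hg hcs (Nat.lt_succ_iff.1 hts)
      le_rfl⟩, 0, ?_, ?_⟩
    · intro s hs lam hsat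
      rw [add_zero]
      exact hR0 s hs lam hsat
    · linarith
  · obtain rfl : ts = n+1 := le_antisymm hcs.ts_le hts
    obtain ⟨r1, gam, hr1, hest, halt, h6⟩ := hcs.R4
    obtain ⟨rfl, hfin⟩ := h6 rfl
    have hgam : -(r / 600) ≤ gam := by
      rcases halt with h | h
      · linarith
      · exact h.2.2.2.2
    refine ⟨ActR g (n+1) (n+1) r1, n+1, r1, 0, Or.inr ⟨rfl, rfl, rfl, ?_⟩, gam, ?_, ?_⟩
    · rcases hfin with h | ⟨-, hB, h4, -⟩
      · exact Or.inl h
      · exact Or.inr ⟨hB, hr1, fun l hl => h4 l (Nat.lt_succ_of_le hl)⟩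
    · intro s hs lam hsat
      exact hR0 s hs _ (hest s hs lam hsat)
    · rw [dist_self]
      linarith

/-- every constraint at time `n+1` is dominated by a basic one -/
theorem dom_cons {g : Geo} {n : ℕ}
    (T4 : ∀ (g : Geo) (n : ℕ), Valid n g → ∀ t0 ≤ n, ∀ rho : ℝ, 0 < rho →
      ∃ ts w R, IsCS g t0 rho ts w R)
    (hg : Valid (n+1) g) {m : ℕ → X} (hL : Lab (n+1) g m) {R : ℕ → ℝ → Prop} {a : ℕ}
    {rho loss : ℝ} (h : Cons g (n+1) R a rho loss) :
    ∃ R1 a1 rho1 loss1, Bas g n R1 a1 rho1 loss1 ∧ Dom g (n+1) m R a loss R1 a1 loss1 := by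
  cases h with
  | act _ hv _ h => exact dom_act T4 hg hL _ hv _ h
  | vir g' t0 _ ts _ R hag hval hcs h1 h2 =>
    rcases Nat.lt_or_ge ts (n+1) with hts | hts
    · exact ⟨_, _, _, _, Or.inl ⟨_, Old_vir hg hag hval hcs (Nat.lt_succ_iff.1 hts) h2⟩,
        Dom.refl _ _ _ _ _ _⟩
    · obtain rfl : ts = n+1 := le_antisymm h1 hts
      obtain ⟨r1, gam, hr1, hest, halt, h6⟩ := hcs.R4
      have hest' : ∀ s ∈ g.S (n+1), ∀ lam, Sat s lam (ActR g (n+1) a r1) →
          Sat s (lam + gam) (R (n+1)) := by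
        intro s hs lam hsat
        rw [hag.S (n+1) le_rfl] at hs
        rw [ActR_congr hcs.w_le r1 hag] at hsat
        exact hest s hs lam hsat
      rcases halt with h | ⟨hw, h0, hB, h4, hgam⟩
      · obtain ⟨R1, a1, rho1, loss1, hbas, hdom⟩ := dom_act T4 hg hL a hcs.w_le r1 hr1
        refine ⟨R1, a1, rho1, loss1, hbas, Dom.trans ⟨gam, hest', ?_⟩ hdom⟩
        rw [dist_self]
        linarith
      · subst hw
        refine ⟨ActR g (n+1) (n+1) r1, n+1, r1, 0, Or.inr ⟨rfl, rfl, rfl, ?_⟩, gam, hest', ?_⟩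
        · refine Or.inr ⟨fun hA => hB ((hag.isA (n+1) le_rfl).1 hA), hr1, fun l hl => ?_⟩
          rw [hag.D (n+1) le_rfl l (hl.trans (Nat.le_succ n))]
          exact h4 l (Nat.lt_succ_of_le hl)
        · rw [dist_self]
          linarith

/-- the invariant at time `n+1` from the basic new-old pairs -/
theorem inv_succ {g : Geo} {n : ℕ}
    (T4 : ∀ (g : Geo) (n : ℕ), Valid n g → ∀ t0 ≤ n, ∀ rho : ℝ, 0 < rho →
      ∃ ts w R, IsCS g t0 rho ts w R)
    (hg : Valid (n+1) g) {m : ℕ → X} (hI : Inv n g m) (hL : Lab (n+1) g m)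
    (hno : ∀ r, NewR g n r → ∀ R' R1' a' rho' loss', Old g n R' R1' a' rho' loss' →
      ∀ Lam < dist (m (n+1)) (m a') - loss',
        ∃ s ∈ g.S (n+1), Pr s Lam (ActR g (n+1) (n+1) r) R1') :
    Inv (n+1) g m := by
  have hn : n ≤ n+1 := Nat.le_succ n
  have hLn : Lab n g m := fun k hk l hl => hL k (hk.trans hn) l (hl.trans hn)
  intro R a rho loss R' a' rho' loss' hc hc' Lam hLam
  obtain ⟨R1, a1, rho1, loss1, hbas, hdom⟩ := dom_cons T4 hg hL hc
  obtain ⟨R1', a1', rho1', loss1', hbas', hdom'⟩ := dom_cons T4 hg hL hc'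
  refine dom_pair hg (hbas.bd hg) (hbas'.bd hg) hdom hdom' ?_ hLam
  intro Lam hLam
  rcases hbas with ⟨R2, hO⟩ | ⟨rfl, rfl, rfl, hr⟩
  · rcases hbas' with ⟨R2', hO'⟩ | ⟨rfl, rfl, rfl, hr'⟩
    · exact old_old hg hI hLn hO hO' hLam
    · rw [dist_comm] at hLam
      obtain ⟨s, hs, hp⟩ := hno _ hr' _ _ _ _ _ hO Lam (by linarith)
      exact ⟨-s, hg.S_neg _ le_rfl s hs, hp.symm⟩
  · rcases hbas' with ⟨R2', hO'⟩ | ⟨rfl, rfl, rfl, hr'⟩
    · exact hno _ hr _ _ _ _ _ hO' Lam (by linarith)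
    · rw [dist_self] at hLam
      exact new_new hg _ _ (by linarith)

end labels

/-- **T5** (dynamics), with T4 as a hypothesis -/
theorem T5_of_T4
    (T4 : ∀ (g : Geo) (n : ℕ), Valid n g → ∀ t0 ≤ n, ∀ rho : ℝ, 0 < rho →
      ∃ ts w R, IsCS g t0 rho ts w R)
    {X : Type*} [PseudoMetricSpace X] (hX : BallProp X) :
    ∃ Good : ℕ → Geo → (ℕ → X) → Prop,
      (∀ n g g' m m', Agree n g g' → (∀ i ≤ n, m i = m' i) → Good n g m → Good n g' m') ∧
      (∀ g m, Valid 0 g → Good 0 g m) ∧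
      (∀ n g m, Good n g m → ∀ k ≤ n, ∀ l ≤ n, dist (m k) (m l) ≤ g.D k l / 10^15) ∧
      (∀ n g m, Good n g m → ∀ k ≤ n, ∀ l ≤ n, ∀ Lam < dist (m k) (m l),
        ∃ s ∈ g.S n, Lam ≤ s k - s l) ∧
      (∀ n g m, Valid (n+1) g → g.isA (n+1) → Good n g m →
        ∃ x, Good (n+1) g (Function.update m (n+1) x)) ∧
      (∀ n g m, Valid (n+1) g → ¬ g.isA (n+1) → Good n g m →
        (∀ l ≤ n, dist (m (n+1)) (m l) ≤ g.D (n+1) l / 10^15) → Good (n+1) g m) := by
  have inv_congr : ∀ n (g g' : Geo) (m m' : ℕ → X), Valid n g → Agree n g g' →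
      (∀ i ≤ n, m i = m' i) → Inv n g m → Inv n g' m' := by
    intro n g g' m m' hg ha hm hI R a rho loss R' a' rho' loss' hc hc' Lam hLam
    have c1 := hc.congr ha.symm
    have c2 := hc'.congr ha.symm
    rw [← ha.S n le_rfl]
    refine hI R a rho loss R' a' rho' loss' c1 c2 Lam ?_
    rw [hm a (c1.bd hg).a_le, hm a' (c2.bd hg).a_le]
    exact hLam
  have lab_congr : ∀ n (g g' : Geo) (m m' : ℕ → X), Agree n g g' →
      (∀ i ≤ n, m i = m' i) → Lab n g m → Lab n g' m' := by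
    intro n g g' m m' ha hm hL k hk l hl
    rw [← hm k hk, ← hm l hl, ← ha.D k hk l hl]
    exact hL k hk l hl
  refine ⟨fun n g m => Valid n g ∧ Lab n g m ∧ Inv n g m, ?_, ?_, ?_, ?_, ?_, ?_⟩
  · rintro n g g' m m' ha hm ⟨h1, h2, h3⟩
    exact ⟨h1.congr ha, lab_congr n g g' m m' ha hm h2, inv_congr n g g' m m' h1 ha hm h3⟩
  · intro g m hg
    refine ⟨hg, ?_, ?_⟩
    · intro k hk l hl
      obtain rfl : k = 0 := Nat.le_zero.1 hk
      obtain rfl : l = 0 := Nat.le_zero.1 hl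
      rw [dist_self, hg.D_self 0 le_rfl]; simp
    · intro R a rho loss R' a' rho' loss' hc hc' Lam hLam
      have hb := hc.bd hg
      have hb' := hc'.bd hg
      refine flat_pair hg hb hb' ?_
      have e1 : a = 0 := Nat.le_zero.1 hb.a_le
      have e2 : a' = 0 := Nat.le_zero.1 hb'.a_le
      rw [e1, e2, dist_self] at hLam
      rw [e1, e2, hg.D_self 0 le_rfl]
      have h1 := hc.loss_ge
      have h2 := hc'.loss_ge
      have h3 := hb.rho_nonneg
      have h4 := hb'.rho_nonneg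
      linarith
  · rintro n g m ⟨h1, h2, h3⟩
    exact h2
  · rintro n g m ⟨h1, h2, h3⟩ k hk l hl Lam hLam
    obtain ⟨s, hs, hp⟩ := h3 _ _ _ _ _ _ _ _ (Cons.act k hk 0 le_rfl) (Cons.act l hl 0 le_rfl)
      Lam (by simpa using hLam)
    refine ⟨s, hs, ?_⟩
    have := hp k _ ⟨hk, rfl⟩ l _ ⟨hl, rfl⟩
    rw [h1.D_self k hk, h1.D_self l hl, Psi_zero_right 0 le_rfl] at this
    linarith
  · rintro n g m hg hA ⟨h1, h2, h3⟩
    obtain ⟨y, hy1, hy2⟩ := exists_label hg hA hX h3 h2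
    have hm : ∀ i ≤ n, m i = Function.update m (n+1) y i := fun i hi => by
      rw [Function.update_of_ne]; omega
    have h2' : Lab n g (Function.update m (n+1) y) :=
      lab_congr n g g m _ (Agree.refl n g) hm h2
    have h3' : Inv n g (Function.update m (n+1) y) :=
      inv_congr n g g m _ h1 (Agree.refl n g) hm h3
    have hL : Lab (n+1) g (Function.update m (n+1) y) := by
      intro k hk l hl
      rcases Nat.lt_or_ge k (n+1) with h | h
      · rcases Nat.lt_or_ge l (n+1) with h' | h'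
        · exact h2' k (Nat.lt_succ_iff.1 h) l (Nat.lt_succ_iff.1 h')
        · obtain rfl : l = n+1 := le_antisymm hl h'
          rw [Function.update_self, ← hm k (Nat.lt_succ_iff.1 h), dist_comm,
            hg.D_symm k hk (n+1) le_rfl]
          exact hy1 k (Nat.lt_succ_iff.1 h)
      · obtain rfl : k = n+1 := le_antisymm hk h
        rcases Nat.lt_or_ge l (n+1) with h' | h'
        · rw [Function.update_self, ← hm l (Nat.lt_succ_iff.1 h')]
          exact hy1 l (Nat.lt_succ_iff.1 h')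
        · obtain rfl : l = n+1 := le_antisymm hl h'
          rw [dist_self, hg.D_self _ le_rfl]; simp
    refine ⟨y, hg, hL, inv_succ T4 hg h3' hL ?_⟩
    intro r hr R' R1' a' rho' loss' hO' Lam hLam
    have ha' := (hO'.cons.bd h1).a_le
    rw [Function.update_self, ← hm a' ha'] at hLam
    rcases hr with rfl | ⟨hB, -⟩
    · exact new_old_A hg (hy2 R' R1' a' rho' loss' hO' Lam hLam)
    · exact absurd hA hB
  · rintro n g m hg hB ⟨h1, h2, h3⟩ hlab
    have hL : Lab (n+1) g m := by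
      intro k hk l hl
      rcases Nat.lt_or_ge k (n+1) with h | h
      · rcases Nat.lt_or_ge l (n+1) with h' | h'
        · exact h2 k (Nat.lt_succ_iff.1 h) l (Nat.lt_succ_iff.1 h')
        · obtain rfl : l = n+1 := le_antisymm hl h'
          rw [dist_comm, hg.D_symm k hk (n+1) le_rfl]
          exact hlab k (Nat.lt_succ_iff.1 h)
      · obtain rfl : k = n+1 := le_antisymm hk h
        rcases Nat.lt_or_ge l (n+1) with h' | h'
        · exact hlab l (Nat.lt_succ_iff.1 h')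
        · obtain rfl : l = n+1 := le_antisymm hl h'
          rw [dist_self, hg.D_self _ le_rfl]; simp
    refine ⟨hg, hL, inv_succ T4 hg h3 hL ?_⟩
    intro r hr R' R1' a' rho' loss' hO' Lam hLam
    refine new_old_B hg hB h3 hlab hr.nonneg ?_ hO' hLam
    rcases hr with rfl | ⟨-, -, h4⟩
    · intro l hl
      rw [mul_zero]
      exact hg.D_nonneg le_rfl (hl.trans (Nat.le_succ n))
    · exact h4

end P124H186
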