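import Vale.Agent.P124.H186.T6b

/-! P124 T6 (helper432): running the game. Part c: moves, recursion, the infinite play. -/

open Set

namespace P124H186

section moves

variable {W F : Type} [PseudoMetricSpace W] [PseudoMetricSpace F]

/-- the properties of `Good` given by T5 -/
structure GoodP {X : Type*} [PseudoMetricSpace X] (Good : ℕ → Geo → (ℕ → X) → Prop) : Prop where
  congr : ∀ n g g' m m', Agree n g g' → (∀ i ≤ n, m i = m' i) → Good n g m → Good n g' m'
  zero : ∀ g m, Valid 0 g → Good 0 g m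
  up : ∀ n g m, Good n g m → ∀ k ≤ n, ∀ l ≤ n, dist (m k) (m l) ≤ g.D k l / 10^15
  low : ∀ n g m, Good n g m → ∀ k ≤ n, ∀ l ≤ n, ∀ Lam < dist (m k) (m l),
    ∃ s ∈ g.S n, Lam ≤ s k - s l
  A : ∀ n g m, Valid (n+1) g → g.isA (n+1) → Good n g m →
    ∃ x, Good (n+1) g (Function.update m (n+1) x)
  B : ∀ n g m, Valid (n+1) g → ¬ g.isA (n+1) → Good n g m →
    (∀ l ≤ n, dist (m (n+1)) (m l) ≤ g.D (n+1) l / 10^15) → Good (n+1) g m

/-- full invariant -/
structure PosInv (Good : ℕ → Geo → (ℕ → W × F) → Prop) (n : ℕ) (d : Dat W F) : Prop where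
  g : InvG n d
  hV : ∀ i ≤ n, ∀ j ≤ n, dist (d.V i) (d.V j) ≤ d.D i j
  h3' : ∀ i ≤ n, ∀ j ≤ n, d.D i j ≤ 2 * dist (d.V i) (d.V j) + 10^15 * dist (d.m i) (d.m j)
  good : Good n d.geo d.m

variable {Good : ℕ → Geo → (ℕ → W × F) → Prop}

/-- the label part of the invariant for a one-point extension -/
theorem PosInv.ext {n : ℕ} {d : Dat W F} (hd : PosInv Good n d) {a : Prop} {h : ℕ → ℝ} {u' : W} {e : F}
    {z : Z} {v : W} {x : W × F} (hg : InvG (n+1) (d.ext n a h u' e z v x))
    (hgood : Good (n+1) (d.ext n a h u' e z v x).geo (Function.update d.m (n+1) x))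
    (hV : ∀ k ≤ n, dist v (d.V k) ≤ h k)
    (h3 : ∀ k ≤ n, h k ≤ 2 * dist v (d.V k) + 10^15 * dist x (d.m k)) :
    PosInv Good (n+1) (d.ext n a h u' e z v x) := by
  set d' := d.ext n a h u' e z v x with hd'
  have ag : AgD n d d' := agD_ext d n a h u' e z v x
  have eV : d'.V (n+1) = v := Function.update_self _ _ _
  have em : d'.m (n+1) = x := Function.update_self _ _ _
  have eD : ∀ k ≤ n, d'.D (n+1) k = h k := fun k hk => extD_left hk
  have eDD : d'.D (n+1) (n+1) = 0 := extD_self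
  have hsymm := hg.pm.symm
  refine ⟨hg, ?_, ?_, hgood⟩
  · refine pair_succ (fun i hi j hj => ?_) (fun k hk => ?_) ?_ (fun i hi j hj hij => ?_)
    · rw [ag.V i hi, ag.V j hj, ag.D i hi j hj]; exact hd.hV i hi j hj
    · rw [eV, ag.V k hk, eD k hk]; exact hV k hk
    · rw [dist_self, eDD]
    · rw [dist_comm, ← hsymm i hi j hj]; exact hij
  · refine pair_succ (fun i hi j hj => ?_) (fun k hk => ?_) ?_ (fun i hi j hj hij => ?_)
    · rw [ag.V i hi, ag.V j hj, ag.m i hi, ag.m j hj, ag.D i hi j hj]; exact hd.h3' i hi j hj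
    · rw [eV, em, ag.V k hk, ag.m k hk, eD k hk]; exact h3 k hk
    · rw [dist_self, dist_self, eDD]; norm_num
    · rw [dist_comm, dist_comm (d'.m j), ← hsymm i hi j hj]; exact hij

theorem moveA (hG : GoodP Good) (hW : KatProp W) {n : ℕ} {d : Dat W F} (hd : PosInv Good n d)
    (u' : W) (e : F) (z : Z) (hz : FinDep z) :
    ∃ d' : Dat W F, PosInv Good (n+1) d' ∧ AgD n d d' ∧ d'.U' (n+1) = u' ∧ d'.e' (n+1) = e ∧
      d'.z (n+1) = z := by
  set a : ℕ → ℝ := fun l => P124H186.att u' (d.U' l) e (d.e' l) z (d.z l) with ha_def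
  set h : ℕ → ℝ := kat n d.D a with hh
  have hpm := hd.g.pm
  have ha : ∀ l ≤ n, ∀ l' ≤ n, d.D l l' ≤ a l + a l' := by
    intro l hl l' hl'
    have h1 := hd.g.h1' l hl l' hl'
    have h2 : d.att l l' ≤ _ := att_tri (d.U' l) u' (d.U' l') (d.e' l) e (d.e' l') (d.z l) z (d.z l')
    rw [att_comm (d.U' l) u'] at h2
    exact h1.trans h2
  have hl := kat_lip hpm a
  have hc := kat_compat hpm ha
  have hU : ∀ k ≤ n, dist u' (d.U' k) ≤ h k := by
    intro k hk
    obtain ⟨l, hl, hle⟩ := exists_kat n d.D a k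
    rw [hh, hle]
    have h1 := dist_triangle u' (d.U' l) (d.U' k)
    have h2 := hd.g.hU l hl k hk
    have h3 : dist u' (d.U' l) ≤ a l := dist_le_att _ _ _ _ _ _
    linarith
  have he : ∀ k ≤ n, dist e (d.e' k) ≤ h k := by
    intro k hk
    obtain ⟨l, hl, hle⟩ := exists_kat n d.D a k
    rw [hh, hle]
    have h1 := dist_triangle e (d.e' l) (d.e' k)
    have h2 := hd.g.he l hl k hk
    have h3 : dist e (d.e' l) ≤ a l := dist_le_att2 _ _ _ _ _ _
    linarith
  have hz' : ∀ k ≤ n, dist z (d.z k) ≤ h k := by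
    intro k hk
    obtain ⟨l, hl, hle⟩ := exists_kat n d.D a k
    rw [hh, hle]
    have h1 := dist_triangle z (d.z l) (d.z k)
    have h2 := hd.g.hz l hl k hk
    have h3 : dist z (d.z l) ≤ a l := dist_le_att3 _ _ _ _ _ _
    linarith
  have h1 : ∀ k ≤ n, h k ≤ P124H186.att u' (d.U' k) e (d.e' k) z (d.z k) := by
    intro k hk
    have := kat_le d.D a k hk
    rw [hpm.self k hk, add_zero] at this
    exact this
  have key : ∀ (v : W) (x : W × F), InvG (n+1) (d.ext n True h u' e z v x) := fun v x =>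
    hd.g.ext v x hz hl hc hU he hz' h1
      (fun _ k _ => ⟨fun l hl => kat_le d.D a k hl, exists_kat n d.D a k⟩)
      (fun hf => absurd trivial hf)
  -- the label
  have hgood1 : Good n (d.ext n True h u' e z (d.V 0) (d.m 0)).geo d.m :=
    hG.congr n _ _ _ _ (agD_ext d n True h u' e z (d.V 0) (d.m 0)).agree (fun _ _ => rfl) hd.good
  obtain ⟨x, hx⟩ := hG.A n _ _ (key (d.V 0) (d.m 0)).valid
    (by
      show Function.update d.isA (n+1) True (n+1)
      rw [Function.update_self]; trivial) hgood1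
  have hxm : ∀ k ≤ n, 10^15 * dist x (d.m k) ≤ h k := by
    intro k hk
    have h2 := hG.up (n+1) _ _ hx (n+1) le_rfl k (by omega)
    rw [Function.update_self, upd_old _ _ hk, show (d.ext n True h u' e z (d.V 0) (d.m 0)).geo.D
      (n+1) k = h k from extD_left hk, le_div_iff₀ (by positivity)] at h2
    linarith
  -- V
  set f : ℕ → ℝ := kat n (fun i j => dist (d.V i) (d.V j)) h with hf
  have hpV := PM.dist n d.V
  have hhV : ∀ l ≤ n, ∀ l' ≤ n, dist (d.V l) (d.V l') ≤ h l + h l' :=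
    fun l hl l' hl' => (hd.hV l hl l' hl').trans (hc l hl l' hl')
  obtain ⟨v, hv⟩ := hW n d.V f (fun i hi j hj => by
    have := kat_lip hpV h i hi j hj
    rw [dist_comm] at this
    linarith) (fun i hi j hj => kat_compat hpV hhV i hi j hj)
  have hfh : ∀ k ≤ n, f k ≤ h k := by
    intro k hk
    have := kat_le (fun i j => dist (d.V i) (d.V j)) h k hk
    simpa using this
  refine ⟨d.ext n True h u' e z v x, hd.ext (key v x) hx (fun k hk => ?_) (fun k hk => ?_),
    agD_ext _ _ _ _ _ _ _ _ _, Function.update_self _ _ _, Function.update_self _ _ _,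
    Function.update_self _ _ _⟩
  · rw [hv k hk]; exact hfh k hk
  · rw [hv k hk]
    obtain ⟨l, hl', hle⟩ := exists_kat n (fun i j => dist (d.V i) (d.V j)) h k
    have e1 : f k = h l + dist (d.V l) (d.V k) := hle
    have e2 := hl k hk l hl'
    have e3 := hd.h3' l hl' k hk
    have e4 := dist_triangle (d.m l) x (d.m k)
    have e5 := hxm l hl'
    rw [dist_comm] at e5
    linarith

theorem moveB (hG : GoodP Good) (h3 : T3HedgeStmt) (hW : KatProp W) (hF : BallProp F) {n : ℕ}
    {d : Dat W F} (hd : PosInv Good n d) (mm : W × F) (v : W) :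
    ∃ d' : Dat W F, PosInv Good (n+1) d' ∧ AgD n d d' ∧ d'.m (n+1) = mm ∧ d'.V (n+1) = v := by
  set a : ℕ → ℝ := fun l => 2 * dist v (d.V l) + 10^15 * dist mm (d.m l) with ha_def
  set h : ℕ → ℝ := kat n d.D a with hh
  have hpm := hd.g.pm
  have ha : ∀ l ≤ n, ∀ l' ≤ n, d.D l l' ≤ a l + a l' := by
    intro l hl l' hl'
    have h1 := hd.h3' l hl l' hl'
    have h2 := dist_triangle_left (d.V l) (d.V l') v
    have h4 := dist_triangle_left (d.m l) (d.m l') mm
    simp only [ha_def]
    linarith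
  have hl := kat_lip hpm a
  have hc := kat_compat hpm ha
  have hdm : ∀ l ≤ n, ∀ k ≤ n, 10^15 * dist (d.m l) (d.m k) ≤ d.D l k := by
    intro l hl k hk
    have h2 := hG.up n _ _ hd.good l hl k hk
    rw [le_div_iff₀ (by positivity)] at h2
    change _ ≤ d.D l k at h2
    linarith
  -- z
  obtain ⟨z, hz, hzh, hedge⟩ := h3 n d.z hd.g.fin h
    (fun k hk l hl => (hd.g.hz k hk l hl).trans (hc k hk l hl))
  -- U'
  set f : ℕ → ℝ := kat n (fun i j => dist (d.U' i) (d.U' j)) h with hf
  have hpU := PM.dist n d.U'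
  have hhU : ∀ l ≤ n, ∀ l' ≤ n, dist (d.U' l) (d.U' l') ≤ h l + h l' :=
    fun l hl l' hl' => (hd.g.hU l hl l' hl').trans (hc l hl l' hl')
  obtain ⟨u', hu⟩ := hW n d.U' f (fun i hi j hj => by
    have := kat_lip hpU h i hi j hj
    rw [dist_comm] at this
    linarith) (fun i hi j hj => kat_compat hpU hhU i hi j hj)
  have hfh : ∀ k ≤ n, f k ≤ h k := by
    intro k hk
    have := kat_le (fun i j => dist (d.U' i) (d.U' j)) h k hk
    simpa using this
  -- e'
  obtain ⟨e, he⟩ := hF n d.e' h (fun k hk l hl => (hd.g.he k hk l hl).trans (hc k hk l hl))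
  have h1 : ∀ k ≤ n, h k ≤ P124H186.att u' (d.U' k) e (d.e' k) z (d.z k) := by
    intro k hk
    obtain ⟨l, hl', hle⟩ := exists_kat n (fun i j => dist (d.U' i) (d.U' j)) h k
    have e1 : f k = h l + dist (d.U' l) (d.U' k) := hle
    have e2 := hl k hk l hl'
    have e3 := hd.g.h1' l hl' k hk
    unfold Dat.att at e3
    unfold P124H186.att at e3 ⊢
    rw [hu k hk, e1]
    have e4 := dist_triangle_left (d.e' l) (d.e' k) e
    have e5 := dist_triangle_left (d.z l) (d.z k) z
    have e6 := he l hl'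
    have e7 := hzh l hl'
    linarith
  have key : InvG (n+1) (d.ext n False h u' e z v mm) :=
    hd.g.ext v mm hz hl hc (fun k hk => by rw [hu k hk]; exact hfh k hk) he hzh h1
      (fun hf => hf.elim) (fun _ => hedge)
  have hmm : ∀ k ≤ n, dist mm (d.m k) ≤ h k / 10^15 := by
    intro k hk
    obtain ⟨l, hl, hle⟩ := exists_kat n d.D a k
    rw [hh, le_div_iff₀ (by positivity), hle]
    have e1 := hdm l hl k hk
    have e2 := dist_triangle mm (d.m l) (d.m k)
    have e3 : 0 ≤ dist v (d.V l) := dist_nonneg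
    simp only [ha_def]
    linarith
  have hgood1 : Good n (d.ext n False h u' e z v mm).geo (Function.update d.m (n+1) mm) :=
    hG.congr n _ _ _ _ (agD_ext d n False h u' e z v mm).agree
      (fun i hi => (upd_old _ _ hi).symm) hd.good
  have hgood2 := hG.B n _ _ key.valid (by
      show ¬ Function.update d.isA (n+1) False (n+1)
      rw [Function.update_self]; exact id) hgood1 (fun l hl => by
        rw [Function.update_self, upd_old _ _ hl]
        show _ ≤ extD n d.D h (n+1) l / _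
        rw [extD_left hl]
        exact hmm l hl)
  refine ⟨d.ext n False h u' e z v mm, hd.ext key hgood2 (fun k hk => ?_) (fun k hk => ?_),
    agD_ext _ _ _ _ _ _ _ _ _, Function.update_self _ _ _, Function.update_self _ _ _⟩
  · obtain ⟨l, hl, hle⟩ := exists_kat n d.D a k
    rw [hh, hle]
    have e1 := hd.hV l hl k hk
    have e2 := dist_triangle v (d.V l) (d.V k)
    have e3 : 0 ≤ dist v (d.V l) := dist_nonneg
    have e4 : 0 ≤ dist mm (d.m l) := dist_nonneg
    simp only [ha_def]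
    linarith
  · have := kat_le d.D a k hk
    rw [hpm.self k hk, add_zero] at this
    exact this

end moves

/-! ### recursion -/

theorem exists_seq {α : Type*} (P : ℕ → α → Prop) (R : ℕ → α → α → Prop) (a0 : α) (h0 : P 0 a0)
    (hs : ∀ n a, P n a → ∃ b, P (n+1) b ∧ R n a b) :
    ∃ s : ℕ → α, s 0 = a0 ∧ (∀ n, P n (s n)) ∧ ∀ n, R n (s n) (s (n+1)) := by
  classical
  have : Nonempty α := ⟨a0⟩
  choose! f hf using hs
  let s : ℕ → α := fun n => Nat.rec a0 (fun k a => f k a) n
  have hP : ∀ n, P n (s n) := by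
    intro n
    induction n with
    | zero => exact h0
    | succ k ih => exact (hf k (s k) ih).1
  exact ⟨s, rfl, hP, fun n => (hf n (s n) (hP n)).2⟩

section run

variable {W F : Type} [PseudoMetricSpace W] [PseudoMetricSpace F]

/-- the used points -/
def Dat.pt (d : Dat W F) (s : Fin 3) (p : ℕ) : W :=
  if s = 0 then d.U' p else if s = 1 then (d.m p).1 else d.V p

omit [PseudoMetricSpace W] [PseudoMetricSpace F] in
theorem AgD.pt {n : ℕ} {d d' : Dat W F} (h : AgD n d d') (s : Fin 3) {p : ℕ} (hp : p ≤ n) :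
    d'.pt s p = d.pt s p := by
  unfold Dat.pt
  rw [h.U' p hp, h.V p hp, h.m p hp]

/-- codes of the moves -/
abbrev Code : Type := Bool × (Fin 3 × ℕ) × (Fin 3 × ℕ) × ℕ × ℕ

/-- the move at stage `n` -/
noncomputable def code (n : ℕ) : Code :=
  ((Encodable.decode (n.unpair.2) : Option Code)).getD (true, (0, 0), (0, 0), 0, 0)

theorem exists_code (c : Code) (N : ℕ) : ∃ n, N ≤ n ∧ code n = c := by
  refine ⟨Nat.pair N (Encodable.encode c), Nat.left_le_pair _ _, ?_⟩
  unfold code
  rw [Nat.unpair_pair]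
  simp only [Encodable.encodek, Option.getD_some]

/-- what stage `n` achieves -/
def Res (ec : ℕ → F) (zc : ℕ → Z) (n : ℕ) (d d' : Dat W F) : Prop :=
  ((code n).1 = true → d'.U' (n+1) = d.pt (code n).2.1.1 (code n).2.1.2 ∧
    d'.e' (n+1) = ec (code n).2.2.2.1 ∧ d'.z (n+1) = zc (code n).2.2.2.2) ∧
  ((code n).1 = false →
    d'.m (n+1) = (d.pt (code n).2.1.1 (code n).2.1.2, ec (code n).2.2.2.1) ∧
    d'.V (n+1) = d.pt (code n).2.2.1.1 (code n).2.2.1.2)

variable {Good : ℕ → Geo → (ℕ → W × F) → Prop}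

theorem run_step (hG : GoodP Good) (h3 : T3HedgeStmt) (hW : KatProp W) (hF : BallProp F)
    (ec : ℕ → F) (zc : ℕ → Z) (hzc : ∀ i, FinDep (zc i)) (n : ℕ) (d : Dat W F)
    (hd : PosInv Good n d) : ∃ d', PosInv Good (n+1) d' ∧ (AgD n d d' ∧ Res ec zc n d d') := by
  rcases hb : (code n).1 with _ | _
  · obtain ⟨d', h1, h2, h4, h5⟩ := moveB hG h3 hW hF hd
      (d.pt (code n).2.1.1 (code n).2.1.2, ec (code n).2.2.2.1)
      (d.pt (code n).2.2.1.1 (code n).2.2.1.2)
    exact ⟨d', h1, h2, fun h => by simp [hb] at h, fun _ => ⟨h4, h5⟩⟩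
  · obtain ⟨d', h1, h2, h4, h5, h6⟩ := moveA hG hW hd
      (d.pt (code n).2.1.1 (code n).2.1.2) (ec (code n).2.2.2.1) (zc (code n).2.2.2.2)
      (hzc _)
    exact ⟨d', h1, h2, fun _ => ⟨h4, h5, h6⟩, fun h => by simp [hb] at h⟩

/-- the initial position -/
noncomputable def d0 (w : W) (f : F) : Dat W F where
  U' _ := w
  V _ := w
  m _ := (w, f)
  e' _ := f
  z _ := 0
  D _ _ := 0
  isA _ := False

theorem inv_d0 (hG : GoodP Good) (w : W) (f : F) : PosInv Good 0 (d0 w f) := by
  have hg : InvG 0 (d0 w f) :=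
    { fin := fun i _ => ⟨0, fun q q' _ => rfl⟩
      pm := ⟨fun _ _ => rfl, fun _ _ _ _ => rfl, fun _ _ _ _ _ _ => by simp [d0]⟩
      hU := fun _ _ _ _ => by simp [d0]
      he := fun _ _ _ _ => by simp [d0]
      hz := fun _ _ _ _ => by simp [d0]
      h1' := fun _ _ _ _ => by simp [d0, Dat.att, P124H186.att]
      A_le := fun t ht => absurd ht (by omega)
      A_eq := fun t ht => absurd ht (by omega)
      hedge := fun t ht => absurd ht (by omega) }
  exact ⟨hg, fun _ _ _ _ => by simp [d0], fun _ _ _ _ => by simp [d0], hG.zero _ _ hg.valid⟩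

end run

theorem T5Stmt.goodP {X : Type*} [PseudoMetricSpace X] (h : T5Stmt X) :
    ∃ Good : ℕ → Geo → (ℕ → X) → Prop, GoodP Good := by
  obtain ⟨G, h1, h2, h3, h4, h5, h6⟩ := h
  exact ⟨G, h1, h2, h3, h4, h5, h6⟩

theorem BallPropOn.ballProp {E : Type*} [PseudoMetricSpace E] {Ed : Set E} (h : BallPropOn Ed) :
    BallProp Ed := by
  intro n x r hr
  obtain ⟨y, hy, hy'⟩ := h n (fun i => (x i : E)) r (fun i _ => (x i).2) hr
  exact ⟨⟨y, hy⟩, hy'⟩

/-- **T6** from T5 and T3b -/
theorem T6_run_of (W : Type) [MetricSpace W] [Nonempty W] (hW : KatProp W)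
    (E : Type) [NormedAddCommGroup E] [NormedSpace ℝ E] (Ed : Set E) (hE : BallPropOn Ed)
    (h0 : (0 : E) ∈ Ed) (ec : ℕ → E) (hec : ∀ i, ec i ∈ Ed)
    (zc : ℕ → Z) (hzc : ∀ i, FinDep (zc i)) (h5 : T5Stmt (W × Ed)) (h3 : T3HedgeStmt) :
    Nonempty (Play W E ec zc) := by
  obtain ⟨Good, hG⟩ := h5.goodP
  obtain ⟨w⟩ := ‹Nonempty W›
  set ec' : ℕ → Ed := fun i => ⟨ec i, hec i⟩ with hec'
  obtain ⟨s, hs0, hs, hst⟩ := exists_seq (PosInv Good)
    (fun n d d' => AgD n d d' ∧ Res ec' zc n d d') (d0 w ⟨0, h0⟩) (inv_d0 hG w ⟨0, h0⟩)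
    (fun n d hd => run_step hG h3 hW hE.ballProp ec' zc hzc n d hd)
  have hag : ∀ n k, AgD n (s n) (s (n+k)) := by
    intro n k
    induction k with
    | zero => exact AgD.refl _ _
    | succ k ih => exact ih.trans (Nat.le_add_right n k) (hst (n+k)).1
  have hag' : ∀ n m, n ≤ m → AgD n (s n) (s m) := by
    intro n m h
    obtain ⟨k, rfl⟩ := Nat.exists_eq_add_of_le h
    exact hag n k
  let d : Dat W Ed :=
    { U' := fun k => (s k).U' k
      V := fun k => (s k).V k
      m := fun k => (s k).m k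
      e' := fun k => (s k).e' k
      z := fun k => (s k).z k
      D := fun k l => (s (max k l)).D k l
      isA := fun k => (s k).isA k }
  have ag : ∀ n, AgD n (s n) d := fun n =>
    { U' := fun i hi => ((hag' i n hi).U' i le_rfl).symm
      V := fun i hi => ((hag' i n hi).V i le_rfl).symm
      m := fun i hi => ((hag' i n hi).m i le_rfl).symm
      e' := fun i hi => ((hag' i n hi).e' i le_rfl).symm
      z := fun i hi => ((hag' i n hi).z i le_rfl).symm
      D := fun i hi j hj => ((hag' (max i j) n (max_le hi hj)).D i (le_max_left _ _) j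
        (le_max_right _ _)).symm
      isA := fun i hi => ((hag' i n hi).isA i le_rfl).symm }
  have hmd : ∀ k l, dist (d.m k) (d.m l) = max (dist (d.m k).1 (d.m l).1)
      (dist ((d.m k).2 : E) ((d.m l).2 : E)) := fun k l => rfl
  -- pairwise facts
  have f1 : ∀ k l, dist (d.U' k) (d.U' l) ≤ d.D k l ∧ dist (d.e' k) (d.e' l) ≤ d.D k l ∧
      dist (d.z k) (d.z l) ≤ d.D k l := by
    intro k l
    have hk := le_max_left k l
    have hl := le_max_right k l
    have a := ag (max k l)
    have b := (hs (max k l)).g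
    rw [a.U' k hk, a.U' l hl, a.e' k hk, a.e' l hl, a.z k hk, a.z l hl, a.D k hk l hl]
    exact ⟨b.hU k hk l hl, b.he k hk l hl, b.hz k hk l hl⟩
  have f1' : ∀ k l, d.D k l ≤ d.att k l := by
    intro k l
    have hk := le_max_left k l
    have hl := le_max_right k l
    have a := ag (max k l)
    rw [a.att hk hl, a.D k hk l hl]
    exact (hs (max k l)).g.h1' k hk l hl
  have f2 : ∀ k l, dist (d.m k) (d.m l) ≤ dist (d.z k) (d.z l) := by
    intro k l
    have hk := le_max_left k l
    have hl := le_max_right k l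
    have a := ag (max k l)
    rw [a.m k hk, a.m l hl, a.z k hk, a.z l hl]
    refine le_of_forall_lt fun c hc => ?_
    obtain ⟨c', hc', hc''⟩ := exists_between hc
    obtain ⟨t, ⟨q, ε, cc, hε, hq⟩, ht⟩ := hG.low _ _ _ (hs (max k l)).good k hk l hl c' hc''
    refine hc'.trans_le (ht.trans ?_)
    rw [hq k hk, hq l hl]
    have h1 := abs_le.1 (abs_sub_le_dist ((s (max k l)).z k) ((s (max k l)).z l) q)
    rcases hε with rfl | rfl <;> linarith [h1.1, h1.2]
  have f3 : ∀ k l, dist (d.V k) (d.V l) ≤ d.D k l := by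
    intro k l
    have hk := le_max_left k l
    have hl := le_max_right k l
    have a := ag (max k l)
    rw [a.V k hk, a.V l hl, a.D k hk l hl]
    exact (hs (max k l)).hV k hk l hl
  have f3b : ∀ k l, 10^15 * dist (d.m k) (d.m l) ≤ d.D k l := by
    intro k l
    have hk := le_max_left k l
    have hl := le_max_right k l
    have a := ag (max k l)
    rw [a.m k hk, a.m l hl, a.D k hk l hl]
    have h1 := hG.up _ _ _ (hs (max k l)).good k hk l hl
    rw [le_div_iff₀ (by positivity)] at h1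
    change _ ≤ (s (max k l)).D k l at h1
    linarith
  have f3' : ∀ k l, d.D k l ≤ 2 * dist (d.V k) (d.V l) + 10^15 * dist (d.m k) (d.m l) := by
    intro k l
    have hk := le_max_left k l
    have hl := le_max_right k l
    have a := ag (max k l)
    rw [a.m k hk, a.m l hl, a.V k hk, a.V l hl, a.D k hk l hl]
    exact (hs (max k l)).h3' k hk l hl
  have used : ∀ y ∈ (Set.range d.U' ∪ Set.range (fun k => (d.m k).1) ∪ Set.range d.V : Set W),
      ∃ σ p, d.pt σ p = y := by
    rintro y ((⟨p, rfl⟩ | ⟨p, rfl⟩) | ⟨p, rfl⟩)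
    · exact ⟨0, p, by simp [Dat.pt]⟩
    · exact ⟨1, p, by simp [Dat.pt]⟩
    · exact ⟨2, p, by simp [Dat.pt]⟩
  refine ⟨{ U' := d.U', U := fun k => (d.m k).1, V := d.V, e' := fun k => (d.e' k : E),
            e := fun k => ((d.m k).2 : E), z := d.z, D := d.D,
            h1 := f1, h1' := f1', h2 := fun k l => ?_, h3 := fun k l => ⟨f3 k l, ?_, ?_⟩,
            h3' := fun k l => ?_, dA := ?_, dB := ?_, h00 := ?_ }⟩
  · have := f2 k l
    rw [hmd] at this
    exact ⟨(le_max_left _ _).trans this, (le_max_right _ _).trans this⟩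
  · have := f3b k l
    rw [hmd] at this
    exact (mul_le_mul_of_nonneg_left (le_max_left _ _) (by positivity)).trans this
  · have := f3b k l
    rw [hmd] at this
    exact (mul_le_mul_of_nonneg_left (le_max_right _ _) (by positivity)).trans this
  · have := f3' k l
    rw [hmd] at this
    exact this
  · intro y hy i j
    obtain ⟨σ, p, hp⟩ := used y hy
    obtain ⟨n, hn, hc⟩ := exists_code (true, (σ, p), (0, 0), i, j) p
    have h := (hst n).2.1 (by rw [hc])
    rw [hc] at h
    refine ⟨n+1, ?_, ?_, h.2.2⟩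
    · rw [← hp, (ag n).pt σ hn]; exact h.1
    · exact congrArg Subtype.val h.2.1
  · intro y hy y' hy' i
    obtain ⟨σ, p, hp⟩ := used y hy
    obtain ⟨σ', p', hp'⟩ := used y' hy'
    obtain ⟨n, hn, hc⟩ := exists_code (false, (σ, p), (σ', p'), i, 0) (max p p')
    have h := (hst n).2.2 (by rw [hc])
    rw [hc] at h
    refine ⟨n+1, ?_, ?_, ?_⟩
    · rw [← hp, (ag n).pt σ ((le_max_left _ _).trans hn)]
      exact congrArg Prod.fst h.1
    · exact congrArg (fun x : W × Ed => (x.2 : E)) h.1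
    · rw [← hp', (ag n).pt σ' ((le_max_right _ _).trans hn)]; exact h.2
  · have e0 : s 0 = d0 w ⟨0, h0⟩ := hs0
    show (s 0).U' 0 = ((s 0).m 0).1 ∧ ((s 0).m 0).1 = (s 0).V 0 ∧ ((s 0).e' 0 : E) = 0 ∧
      (((s 0).m 0).2 : E) = 0 ∧ (s 0).z 0 = 0
    rw [e0]
    exact ⟨rfl, rfl, rfl, rfl, rfl⟩

end P124H186
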