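import Vale.Agent.P124.H186.Play

/-! P124 T6 (helper432): running the game. Part a: minima, ball property of `W`, positions. -/

open Set

namespace P124H186

/-- statement of T5 for the label space `X` -/
def T5Stmt (X : Type*) [PseudoMetricSpace X] : Prop :=
    ∃ Good : ℕ → Geo → (ℕ → X) → Prop,
      (∀ n g g' m m', Agree n g g' → (∀ i ≤ n, m i = m' i) → Good n g m → Good n g' m') ∧
      (∀ g m, Valid 0 g → Good 0 g m) ∧
      (∀ n g m, Good n g m → ∀ k ≤ n, ∀ l ≤ n, dist (m k) (m l) ≤ g.D k l / 10^15) ∧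
      (∀ n g m, Good n g m → ∀ k ≤ n, ∀ l ≤ n, ∀ Lam < dist (m k) (m l),
        ∃ s ∈ g.S n, Lam ≤ s k - s l) ∧
      (∀ n g m, Valid (n+1) g → g.isA (n+1) → Good n g m →
        ∃ x, Good (n+1) g (Function.update m (n+1) x)) ∧
      (∀ n g m, Valid (n+1) g → ¬ g.isA (n+1) → Good n g m →
        (∀ l ≤ n, dist (m (n+1)) (m l) ≤ g.D (n+1) l / 10^15) → Good (n+1) g m)

/-- statement of the hedging lemma T3b -/
def T3HedgeStmt : Prop := ∀ (n : ℕ) (z : ℕ → Z) (_ : ∀ k ≤ n, FinDep (z k)) (H : ℕ → ℝ)
    (_ : ∀ k ≤ n, ∀ l ≤ n, dist (z k) (z l) ≤ H k + H l),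
    ∃ y : Z, FinDep y ∧ (∀ k ≤ n, dist y (z k) ≤ H k) ∧
      ∀ (q : Q) (x : ℝ), (∀ k ≤ n, |x - z k q| ≤ H k) →
        ∃ q' : Q, (∀ k ≤ n, z k q' = z k q) ∧ y q' = x

/-! ### minima over `l ≤ n` -/

/-- minimum of `f l` over `l ≤ n` -/
noncomputable def mn (n : ℕ) (f : ℕ → ℝ) : ℝ :=
  (Finset.range (n+1)).inf' ⟨0, by simp⟩ f

theorem mn_le {n : ℕ} (f : ℕ → ℝ) {l : ℕ} (hl : l ≤ n) : mn n f ≤ f l :=
  Finset.inf'_le _ (by simp; omega)

theorem exists_mn (n : ℕ) (f : ℕ → ℝ) : ∃ l ≤ n, mn n f = f l := by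
  obtain ⟨l, hl, h⟩ := Finset.exists_mem_eq_inf' (s := Finset.range (n+1)) ⟨0, by simp⟩ f
  exact ⟨l, by simpa [Nat.lt_succ_iff] using hl, h⟩

theorem le_mn {n : ℕ} {f : ℕ → ℝ} {c : ℝ} (h : ∀ l ≤ n, c ≤ f l) : c ≤ mn n f := by
  obtain ⟨l, hl, he⟩ := exists_mn n f
  rw [he]; exact h l hl

/-! ### ball property from the Katetov property -/

theorem KatProp.ballProp {W : Type*} [PseudoMetricSpace W] (hW : KatProp W) : BallProp W := by
  intro n x r hr
  -- minimise the sum over admissible functions below r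
  let K : Set (Fin (n+1) → ℝ) := {f | (∀ i, f i ≤ r i) ∧ (∀ i, 0 ≤ f i) ∧
    ∀ i j : Fin (n+1), dist (x i) (x j) ≤ f i + f j}
  have hne : K.Nonempty := by
    refine ⟨fun i => r i, fun i => le_rfl, fun i => ?_, fun i j => hr i (by omega) j (by omega)⟩
    have := hr i (by omega) i (by omega)
    rw [dist_self] at this
    show (0:ℝ) ≤ r i
    linarith
  have hcl : IsClosed K := by
    have h1 : IsClosed {f : Fin (n+1) → ℝ | ∀ i, f i ≤ r i} := by
      simp only [setOf_forall]
      exact isClosed_iInter fun i => isClosed_le (continuous_apply i) continuous_const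
    have h2 : IsClosed {f : Fin (n+1) → ℝ | ∀ i, 0 ≤ f i} := by
      simp only [setOf_forall]
      exact isClosed_iInter fun i => isClosed_le continuous_const (continuous_apply i)
    have h3 : IsClosed {f : Fin (n+1) → ℝ | ∀ i j : Fin (n+1),
        dist (x i) (x j) ≤ f i + f j} := by
      simp only [setOf_forall]
      exact isClosed_iInter fun i => isClosed_iInter fun j =>
        isClosed_le continuous_const ((continuous_apply i).add (continuous_apply j))
    exact h1.inter (h2.inter h3)
  have hK : IsCompact K := by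
    refine IsCompact.of_isClosed_subset (isCompact_univ_pi (s := fun i : Fin (n+1) => Icc (0:ℝ) (r i))
      (fun i => isCompact_Icc)) hcl ?_
    intro f hf i _
    exact ⟨hf.2.1 i, hf.1 i⟩
  obtain ⟨f, hf, hmin⟩ := hK.exists_isMinOn hne
    (f := fun f : Fin (n+1) → ℝ => ∑ i, f i) (by fun_prop)
  have hlip : ∀ i k, f i ≤ f k + dist (x i) (x k) := by
    intro i k
    by_contra hlt
    push_neg at hlt
    have hik : i ≠ k := by
      rintro rfl
      simp at hlt
    let f' := Function.update f i (f k + dist (x i) (x k))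
    have hf'i : f' i = f k + dist (x i) (x k) := Function.update_self ..
    have hf'j : ∀ j, j ≠ i → f' j = f j := fun j hj => Function.update_of_ne hj ..
    have hmem : f' ∈ K := by
      refine ⟨fun j => ?_, fun j => ?_, fun j l => ?_⟩
      · by_cases hj : j = i
        · subst hj; rw [hf'i]; exact hlt.le.trans (hf.1 j)
        · rw [hf'j j hj]; exact hf.1 j
      · by_cases hj : j = i
        · subst hj; rw [hf'i]; exact add_nonneg (hf.2.1 k) dist_nonneg
        · rw [hf'j j hj]; exact hf.2.1 j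
      · by_cases hj : j = i <;> by_cases hl : l = i
        · subst hj; subst hl
          rw [dist_self, hf'i]
          have := hf.2.1 k
          positivity
        · subst hj
          rw [hf'i, hf'j l hl]
          have h1 := hf.2.2 k l
          have h2 := dist_triangle (x j) (x k) (x l)
          linarith
        · subst hl
          rw [hf'i, hf'j j hj]
          have h1 := hf.2.2 j k
          have h2 := dist_triangle (x j) (x k) (x l)
          rw [dist_comm (x k) (x l)] at h2
          linarith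
        · rw [hf'j j hj, hf'j l hl]; exact hf.2.2 j l
    have h1 : ∑ j, f j ≤ ∑ j, f' j := hmin hmem
    have h2 : ∑ j, f' j < ∑ j, f j := by
      refine Finset.sum_lt_sum (fun j _ => ?_) ⟨i, Finset.mem_univ _, by rw [hf'i]; exact hlt⟩
      by_cases hj : j = i
      · subst hj; rw [hf'i]; exact hlt.le
      · rw [hf'j j hj]
    linarith
  -- apply the Katetov property
  have key := hW n x (fun i => if h : i < n+1 then f ⟨i, h⟩ else 0) ?_ ?_
  · obtain ⟨w, hw⟩ := key
    refine ⟨w, fun i hi => ?_⟩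
    rw [hw i hi, dif_pos (by omega)]
    exact hf.1 ⟨i, by omega⟩
  · intro i hi j hj
    simp only [dif_pos (show i < n+1 by omega), dif_pos (show j < n+1 by omega)]
    have := hlip ⟨i, by omega⟩ ⟨j, by omega⟩
    simp only at this
    linarith
  · intro i hi j hj
    simp only [dif_pos (show i < n+1 by omega), dif_pos (show j < n+1 by omega)]
    exact hf.2.2 ⟨i, by omega⟩ ⟨j, by omega⟩

theorem BallProp.prod {W E : Type*} [PseudoMetricSpace W] [PseudoMetricSpace E] {Ed : Set E}
    (hW : BallProp W) (hE : BallPropOn Ed) : BallProp (W × Ed) := by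
  intro n x r hr
  obtain ⟨w, hw⟩ := hW n (fun i => (x i).1) r (fun i hi j hj =>
    (le_max_left _ _).trans (hr i hi j hj))
  obtain ⟨e, he, he'⟩ := hE n (fun i => ((x i).2 : E)) r (fun i _ => (x i).2.2) (fun i hi j hj =>
    (le_max_right _ _).trans (hr i hi j hj))
  exact ⟨(w, ⟨e, he⟩), fun i hi => max_le (hw i hi) (he' i hi)⟩

end P124H186
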