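import Vale.Agent.P124.H186.T6a

/-! P124 T6 (helper432): running the game. Part b: positions and one-point extensions. -/

open Set

namespace P124H186

/-! ### finite pseudometrics and one-point extensions -/

/-- `D` is a (possibly degenerate) pseudometric on `{0..n}` -/
structure PM (n : ℕ) (D : ℕ → ℕ → ℝ) : Prop where
  self : ∀ i ≤ n, D i i = 0
  symm : ∀ i ≤ n, ∀ j ≤ n, D i j = D j i
  tri : ∀ i ≤ n, ∀ j ≤ n, ∀ k ≤ n, D i k ≤ D i j + D j k

theorem PM.nonneg {n : ℕ} {D : ℕ → ℕ → ℝ} (h : PM n D) {i j : ℕ} (hi : i ≤ n) (hj : j ≤ n) :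
    0 ≤ D i j := by
  have h1 := h.tri i hi j hj i hi
  rw [h.self i hi, h.symm j hj i hi] at h1
  linarith

/-- largest extension through the radii `a` -/
noncomputable def kat (n : ℕ) (D : ℕ → ℕ → ℝ) (a : ℕ → ℝ) (k : ℕ) : ℝ :=
  mn n (fun l => a l + D l k)

theorem kat_le {n : ℕ} (D : ℕ → ℕ → ℝ) (a : ℕ → ℝ) (k : ℕ) {l : ℕ} (hl : l ≤ n) :
    kat n D a k ≤ a l + D l k := mn_le (fun l => a l + D l k) hl

theorem exists_kat (n : ℕ) (D : ℕ → ℕ → ℝ) (a : ℕ → ℝ) (k : ℕ) :
    ∃ l ≤ n, kat n D a k = a l + D l k := exists_mn n (fun l => a l + D l k)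

theorem kat_lip {n : ℕ} {D : ℕ → ℕ → ℝ} (hD : PM n D) (a : ℕ → ℝ) :
    ∀ i ≤ n, ∀ j ≤ n, kat n D a i ≤ kat n D a j + D j i := by
  intro i hi j hj
  obtain ⟨l, hl, he⟩ := exists_kat n D a j
  have h1 := kat_le D a i hl
  have h2 := hD.tri l hl j hj i hi
  linarith

theorem kat_compat {n : ℕ} {D : ℕ → ℕ → ℝ} (hD : PM n D) {a : ℕ → ℝ}
    (ha : ∀ l ≤ n, ∀ l' ≤ n, D l l' ≤ a l + a l') :
    ∀ i ≤ n, ∀ j ≤ n, D i j ≤ kat n D a i + kat n D a j := by
  intro i hi j hj
  obtain ⟨l, hl, he⟩ := exists_kat n D a i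
  obtain ⟨l', hl', he'⟩ := exists_kat n D a j
  have h1 := ha l hl l' hl'
  have h2 := hD.tri i hi l hl j hj
  have h3 := hD.tri l hl l' hl' j hj
  have h4 := hD.symm i hi l hl
  linarith

theorem PM.dist {X : Type*} [PseudoMetricSpace X] (n : ℕ) (x : ℕ → X) :
    PM n (fun i j => dist (x i) (x j)) :=
  ⟨fun _ _ => dist_self _, fun _ _ _ _ => dist_comm _ _, fun _ _ _ _ _ _ => dist_triangle _ _ _⟩

/-- add the point `n+1` at the distances `h` -/
noncomputable def extD (n : ℕ) (D : ℕ → ℕ → ℝ) (h : ℕ → ℝ) (i j : ℕ) : ℝ :=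
  if i = n+1 then (if j = n+1 then 0 else h j) else if j = n+1 then h i else D i j

section extD

variable {n : ℕ} {D : ℕ → ℕ → ℝ} {h : ℕ → ℝ} {i j : ℕ}

theorem extD_old (hi : i ≤ n) (hj : j ≤ n) : extD n D h i j = D i j := by
  unfold extD; rw [if_neg (by omega), if_neg (by omega)]

theorem extD_left (hj : j ≤ n) : extD n D h (n+1) j = h j := by
  unfold extD; rw [if_pos rfl, if_neg (by omega)]

theorem extD_right (hi : i ≤ n) : extD n D h i (n+1) = h i := by
  unfold extD; rw [if_neg (by omega), if_pos rfl]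

theorem extD_self : extD n D h (n+1) (n+1) = 0 := by
  unfold extD; rw [if_pos rfl, if_pos rfl]

end extD

theorem le_succ_cases {n i : ℕ} (h : i ≤ n + 1) : i ≤ n ∨ i = n + 1 := by omega

theorem PM.ext {n : ℕ} {D : ℕ → ℕ → ℝ} (hD : PM n D) {h : ℕ → ℝ}
    (hl : ∀ i ≤ n, ∀ j ≤ n, h i ≤ h j + D j i) (hc : ∀ i ≤ n, ∀ j ≤ n, D i j ≤ h i + h j) :
    PM (n+1) (extD n D h) := by
  refine ⟨fun i hi => ?_, fun i hi j hj => ?_, fun i hi j hj k hk => ?_⟩
  · rcases le_succ_cases hi with hi | rfl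
    · rw [extD_old hi hi, hD.self i hi]
    · exact extD_self
  · rcases le_succ_cases hi with hi | rfl <;> rcases le_succ_cases hj with hj | rfl
    · rw [extD_old hi hj, extD_old hj hi, hD.symm i hi j hj]
    · rw [extD_left hi, extD_right hi]
    · rw [extD_left hj, extD_right hj]
    · rfl
  · rcases le_succ_cases hi with hi | rfl <;> rcases le_succ_cases hj with hj | rfl <;>
      rcases le_succ_cases hk with hk | rfl
    · rw [extD_old hi hj, extD_old hj hk, extD_old hi hk]; exact hD.tri i hi j hj k hk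
    · rw [extD_right hi, extD_old hi hj, extD_right hj]
      have := hl i hi j hj
      rw [hD.symm j hj i hi] at this
      linarith
    · rw [extD_right hi, extD_old hi hk, extD_left hk]; exact hc i hi k hk
    · rw [extD_right hi, extD_self]; linarith
    · rw [extD_left hk, extD_left hj, extD_old hj hk]; exact hl k hk j hj
    · rw [extD_self, extD_left hj, extD_right hj]
      have := hc j hj j hj
      rw [hD.self j hj] at this
      linarith
    · rw [extD_left hk, extD_self]; linarith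
    · rw [extD_self]; norm_num

/-! ### positions -/

/-- the data of a play (junk beyond the current time) -/
structure Dat (W F : Type) where
  U' : ℕ → W
  V : ℕ → W
  m : ℕ → W × F
  e' : ℕ → F
  z : ℕ → Z
  D : ℕ → ℕ → ℝ
  isA : ℕ → Prop

section pos

variable {W F : Type} [PseudoMetricSpace W] [PseudoMetricSpace F]

/-- attachment length -/
noncomputable def att (u u' : W) (e e' : F) (z z' : Z) : ℝ :=
  (2 + 10^15) * dist u u' + dist e e' + 10^15 * dist z z'

theorem att_comm (u u' : W) (e e' : F) (z z' : Z) : att u u' e e' z z' = att u' u e' e z' z := by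
  unfold att
  rw [dist_comm u, dist_comm e, dist_comm z]

theorem att_tri (u u' u'' : W) (e e' e'' : F) (z z' z'' : Z) :
    att u u'' e e'' z z'' ≤ att u u' e e' z z' + att u' u'' e' e'' z' z'' := by
  unfold att
  have h1 := dist_triangle u u' u''
  have h2 := dist_triangle e e' e''
  have h3 := dist_triangle z z' z''
  nlinarith

theorem att_self (u : W) (e : F) (z : Z) : att u u e e z z = 0 := by
  unfold att; simp

theorem dist_le_att (u u' : W) (e e' : F) (z z' : Z) : dist u u' ≤ att u u' e e' z z' := by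
  unfold att
  have h1 : 0 ≤ dist u u' := dist_nonneg
  have h2 : 0 ≤ dist e e' := dist_nonneg
  have h3 : 0 ≤ dist z z' := dist_nonneg
  nlinarith

theorem dist_le_att2 (u u' : W) (e e' : F) (z z' : Z) : dist e e' ≤ att u u' e e' z z' := by
  unfold att
  have h1 : 0 ≤ dist u u' := dist_nonneg
  have h2 : 0 ≤ dist e e' := dist_nonneg
  have h3 : 0 ≤ dist z z' := dist_nonneg
  nlinarith

theorem mul_dist_le_att3 (u u' : W) (e e' : F) (z z' : Z) :
    10^15 * dist z z' ≤ att u u' e e' z z' := by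
  unfold att
  have h1 : 0 ≤ dist u u' := dist_nonneg
  have h2 : 0 ≤ dist e e' := dist_nonneg
  have h3 : 0 ≤ dist z z' := dist_nonneg
  nlinarith

theorem dist_le_att3 (u u' : W) (e e' : F) (z z' : Z) : dist z z' ≤ att u u' e e' z z' := by
  have h1 := mul_dist_le_att3 u u' e e' z z'
  have h3 : 0 ≤ dist z z' := dist_nonneg
  nlinarith

/-- attachment length between two points of the play -/
noncomputable def Dat.att (d : Dat W F) (i j : ℕ) : ℝ :=
  P124H186.att (d.U' i) (d.U' j) (d.e' i) (d.e' j) (d.z i) (d.z j)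

/-- the label-free geometry -/
noncomputable def Dat.geo (d : Dat W F) : Geo where
  D := d.D
  isA := d.isA
  P t l := d.att t l
  S t := {s | ∃ (q : Q) (ε c : ℝ), (ε = 1 ∨ ε = -1) ∧ ∀ i ≤ t, s i = ε * d.z i q + c}

/-- label-free invariant -/
structure InvG (n : ℕ) (d : Dat W F) : Prop where
  fin : ∀ i ≤ n, FinDep (d.z i)
  pm : PM n d.D
  hU : ∀ i ≤ n, ∀ j ≤ n, dist (d.U' i) (d.U' j) ≤ d.D i j
  he : ∀ i ≤ n, ∀ j ≤ n, dist (d.e' i) (d.e' j) ≤ d.D i j
  hz : ∀ i ≤ n, ∀ j ≤ n, dist (d.z i) (d.z j) ≤ d.D i j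
  h1' : ∀ i ≤ n, ∀ j ≤ n, d.D i j ≤ d.att i j
  A_le : ∀ t < n, d.isA (t+1) → ∀ k ≤ t, ∀ l ≤ t, d.D (t+1) k ≤ d.att (t+1) l + d.D l k
  A_eq : ∀ t < n, d.isA (t+1) → ∀ k ≤ t, ∃ l ≤ t, d.D (t+1) k = d.att (t+1) l + d.D l k
  hedge : ∀ t < n, ¬ d.isA (t+1) → ∀ (q : Q) (x : ℝ), (∀ k ≤ t, |x - d.z k q| ≤ d.D (t+1) k) →
    ∃ q' : Q, (∀ k ≤ t, d.z k q' = d.z k q) ∧ d.z (t+1) q' = x

theorem abs_sub_le_dist (z z' : Z) (q : Q) : |z q - z' q| ≤ dist z z' := by
  have := ContinuousMap.dist_apply_le_dist (f := z) (g := z') q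
  rwa [Real.dist_eq] at this

theorem InvG.valid {n : ℕ} {d : Dat W F} (h : InvG n d) : Valid n d.geo where
  D_self := h.pm.self
  D_symm := h.pm.symm
  D_tri := h.pm.tri
  S_ne := ⟨fun i => 1 * d.z i (fun _ => 0) + 0, (fun _ => 0), 1, 0, Or.inl rfl, fun i _ => rfl⟩
  S_congr := by
    rintro t ht s s' hs ⟨q, ε, c, hε, hq⟩
    exact ⟨q, ε, c, hε, fun i hi => by rw [← hs i hi, hq i hi]⟩
  S_neg := by
    rintro t ht s ⟨q, ε, c, hε, hq⟩
    refine ⟨q, -ε, -c, ?_, fun i hi => ?_⟩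
    · rcases hε with rfl | rfl
      · right; rfl
      · left; norm_num
    · rw [Pi.neg_apply, hq i hi]; ring
  S_lip := by
    rintro t ht s ⟨q, ε, c, hε, hq⟩ i hi j hj
    rw [hq i hi, hq j hj]
    have h1 := abs_le.1 (abs_sub_le_dist (d.z i) (d.z j) q)
    have h2 := h.hz i (hi.trans ht) j (hj.trans ht)
    show _ ≤ d.D i j
    rcases hε with rfl | rfl <;> linarith [h1.1, h1.2]
  S_res := by
    rintro t ht s ⟨q, ε, c, hε, hq⟩
    exact ⟨q, ε, c, hε, fun i hi => hq i (by omega)⟩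
  A_ext := by
    rintro t ht hA s ⟨q, ε, c, hε, hq⟩
    exact ⟨fun i => ε * d.z i q + c, ⟨q, ε, c, hε, fun i _ => rfl⟩, fun i hi => (hq i hi).symm⟩
  A_flat := by
    rintro t ht hA s ⟨q, ε, c, hε, hq⟩ l hl
    rw [hq (t+1) le_rfl, hq l (by omega)]
    have h1 : |ε * d.z (t+1) q + c - (ε * d.z l q + c)| = |d.z (t+1) q - d.z l q| := by
      rcases hε with rfl | rfl
      · congr 1; ring
      · rw [← abs_neg]; congr 1; ring
    rw [h1]
    have h2 := abs_sub_le_dist (d.z (t+1)) (d.z l) q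
    have h3 : 10^15 * dist (d.z (t+1)) (d.z l) ≤ d.att (t+1) l := mul_dist_le_att3 _ _ _ _ _ _
    show _ ≤ d.att (t+1) l / 10^15
    rw [le_div_iff₀ (by positivity)]
    linarith
  A_le := h.A_le
  A_eq := h.A_eq
  B_ext := by
    rintro t ht hB s ⟨q, ε, c, hε, hq⟩ hs
    obtain ⟨q', hq', hx⟩ := h.hedge t ht hB q (ε * (s (t+1) - c)) (fun k hk => by
      refine le_trans (le_of_eq ?_) (hs k hk)
      rw [hq k hk]
      rcases hε with rfl | rfl
      · congr 1; ring
      · rw [← abs_neg]; congr 1; ring)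
    refine ⟨q', ε, c, hε, fun i hi => ?_⟩
    rcases le_succ_cases hi with hi | rfl
    · rw [hq i hi, hq' i hi]
    · rw [hx]
      rcases hε with rfl | rfl <;> ring

/-- add a point -/
noncomputable def Dat.ext (d : Dat W F) (n : ℕ) (a : Prop) (h : ℕ → ℝ) (u' : W) (e : F) (z : Z)
    (v : W) (x : W × F) : Dat W F where
  U' := Function.update d.U' (n+1) u'
  V := Function.update d.V (n+1) v
  m := Function.update d.m (n+1) x
  e' := Function.update d.e' (n+1) e
  z := Function.update d.z (n+1) z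
  D := extD n d.D h
  isA := Function.update d.isA (n+1) a

theorem upd_old {α : Type*} (f : ℕ → α) {n : ℕ} (x : α) {i : ℕ} (hi : i ≤ n) :
    Function.update f (n+1) x i = f i := Function.update_of_ne (by omega) _ _

/-- agreement of the data up to time `n` -/
structure AgD (n : ℕ) (d d' : Dat W F) : Prop where
  U' : ∀ i ≤ n, d'.U' i = d.U' i
  V : ∀ i ≤ n, d'.V i = d.V i
  m : ∀ i ≤ n, d'.m i = d.m i
  e' : ∀ i ≤ n, d'.e' i = d.e' i
  z : ∀ i ≤ n, d'.z i = d.z i
  D : ∀ i ≤ n, ∀ j ≤ n, d'.D i j = d.D i j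
  isA : ∀ i ≤ n, (d'.isA i ↔ d.isA i)

omit [PseudoMetricSpace W] [PseudoMetricSpace F] in
theorem AgD.refl (n : ℕ) (d : Dat W F) : AgD n d d :=
  ⟨fun _ _ => rfl, fun _ _ => rfl, fun _ _ => rfl, fun _ _ => rfl, fun _ _ => rfl,
    fun _ _ _ _ => rfl, fun _ _ => Iff.rfl⟩

omit [PseudoMetricSpace W] [PseudoMetricSpace F] in
theorem AgD.trans {n n' : ℕ} (hn : n ≤ n') {d d' d'' : Dat W F} (h : AgD n d d')
    (h' : AgD n' d' d'') : AgD n d d'' :=
  ⟨fun i hi => (h'.U' i (hi.trans hn)).trans (h.U' i hi),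
   fun i hi => (h'.V i (hi.trans hn)).trans (h.V i hi),
   fun i hi => (h'.m i (hi.trans hn)).trans (h.m i hi),
   fun i hi => (h'.e' i (hi.trans hn)).trans (h.e' i hi),
   fun i hi => (h'.z i (hi.trans hn)).trans (h.z i hi),
   fun i hi j hj => (h'.D i (hi.trans hn) j (hj.trans hn)).trans (h.D i hi j hj),
   fun i hi => (h'.isA i (hi.trans hn)).trans (h.isA i hi)⟩

theorem AgD.att {n : ℕ} {d d' : Dat W F} (h : AgD n d d') {i j : ℕ} (hi : i ≤ n) (hj : j ≤ n) :
    d'.att i j = d.att i j := by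
  unfold Dat.att
  rw [h.U' i hi, h.U' j hj, h.e' i hi, h.e' j hj, h.z i hi, h.z j hj]

theorem AgD.agree {n : ℕ} {d d' : Dat W F} (h : AgD n d d') : Agree n d.geo d'.geo where
  D := fun i hi j hj => (h.D i hi j hj).symm
  isA := fun i hi => (h.isA i hi).symm
  P := fun i hi j hj => (h.att hi (hj.le.trans hi)).symm
  S := by
    intro t ht
    ext s
    constructor
    · rintro ⟨q, ε, c, hε, hq⟩
      exact ⟨q, ε, c, hε, fun i hi => by rw [hq i hi, h.z i (hi.trans ht)]⟩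
    · rintro ⟨q, ε, c, hε, hq⟩
      exact ⟨q, ε, c, hε, fun i hi => by rw [hq i hi, h.z i (hi.trans ht)]⟩

omit [PseudoMetricSpace W] [PseudoMetricSpace F] in
theorem agD_ext (d : Dat W F) (n : ℕ) (a : Prop) (h : ℕ → ℝ) (u' : W) (e : F) (z : Z)
    (v : W) (x : W × F) : AgD n d (d.ext n a h u' e z v x) where
  U' := fun i hi => upd_old _ _ hi
  V := fun i hi => upd_old _ _ hi
  m := fun i hi => upd_old _ _ hi
  e' := fun i hi => upd_old _ _ hi
  z := fun i hi => upd_old _ _ hi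
  D := fun i hi j hj => extD_old hi hj
  isA := fun i hi => by
    show Function.update d.isA (n+1) a i ↔ _
    rw [upd_old _ _ hi]

/-- pairwise statements on `{0..n+1}` -/
theorem pair_succ {n : ℕ} {p : ℕ → ℕ → Prop} (old : ∀ i ≤ n, ∀ j ≤ n, p i j)
    (new : ∀ k ≤ n, p (n+1) k) (nn : p (n+1) (n+1)) (symm : ∀ i ≤ n + 1, ∀ j ≤ n + 1, p i j → p j i) :
    ∀ i ≤ n+1, ∀ j ≤ n+1, p i j := by
  intro i hi j hj
  rcases le_succ_cases hi with hi' | rfl <;> rcases le_succ_cases hj with hj' | rfl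
  · exact old i hi' j hj'
  · exact symm _ le_rfl _ hi (new i hi')
  · exact new j hj'
  · exact nn

theorem InvG.ext {n : ℕ} {d : Dat W F} (hd : InvG n d) {a : Prop} {h : ℕ → ℝ} {u' : W} {e : F}
    {z : Z} (v : W) (x : W × F) (hfin : FinDep z)
    (hl : ∀ i ≤ n, ∀ j ≤ n, h i ≤ h j + d.D j i) (hc : ∀ i ≤ n, ∀ j ≤ n, d.D i j ≤ h i + h j)
    (hU : ∀ k ≤ n, dist u' (d.U' k) ≤ h k) (he : ∀ k ≤ n, dist e (d.e' k) ≤ h k)
    (hz : ∀ k ≤ n, dist z (d.z k) ≤ h k)
    (h1 : ∀ k ≤ n, h k ≤ P124H186.att u' (d.U' k) e (d.e' k) z (d.z k))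
    (hA : a → ∀ k ≤ n, (∀ l ≤ n, h k ≤ P124H186.att u' (d.U' l) e (d.e' l) z (d.z l) + d.D l k) ∧
      ∃ l ≤ n, h k = P124H186.att u' (d.U' l) e (d.e' l) z (d.z l) + d.D l k)
    (hB : ¬ a → ∀ (q : Q) (y : ℝ), (∀ k ≤ n, |y - d.z k q| ≤ h k) →
      ∃ q' : Q, (∀ k ≤ n, d.z k q' = d.z k q) ∧ z q' = y) :
    InvG (n+1) (d.ext n a h u' e z v x) := by
  set d' := d.ext n a h u' e z v x with hd'
  have ag : AgD n d d' := agD_ext d n a h u' e z v x
  have hpm : PM (n+1) d'.D := hd.pm.ext hl hc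
  have eU : d'.U' (n+1) = u' := Function.update_self _ _ _
  have ee : d'.e' (n+1) = e := Function.update_self _ _ _
  have ez : d'.z (n+1) = z := Function.update_self _ _ _
  have eA : d'.isA (n+1) = a := Function.update_self _ _ _
  have eD : ∀ k ≤ n, d'.D (n+1) k = h k := fun k hk => extD_left hk
  have eDD : d'.D (n+1) (n+1) = 0 := extD_self
  have eatt : ∀ k ≤ n, d'.att (n+1) k = P124H186.att u' (d.U' k) e (d.e' k) z (d.z k) := by
    intro k hk
    unfold Dat.att
    rw [eU, ee, ez, ag.U' k hk, ag.e' k hk, ag.z k hk]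
  have hsymm : ∀ i ≤ n+1, ∀ j ≤ n+1, d'.D i j = d'.D j i := hpm.symm
  refine ⟨?_, hpm, ?_, ?_, ?_, ?_, ?_, ?_, ?_⟩
  · intro i hi
    rcases le_succ_cases hi with hi | rfl
    · rw [ag.z i hi]; exact hd.fin i hi
    · rw [ez]; exact hfin
  · refine pair_succ (fun i hi j hj => ?_) (fun k hk => ?_) ?_ (fun i hi j hj hij => ?_)
    · rw [ag.U' i hi, ag.U' j hj, ag.D i hi j hj]; exact hd.hU i hi j hj
    · rw [eU, ag.U' k hk, eD k hk]; exact hU k hk
    · rw [dist_self, eDD]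
    · rw [dist_comm, ← hsymm i hi j hj]; exact hij
  · refine pair_succ (fun i hi j hj => ?_) (fun k hk => ?_) ?_ (fun i hi j hj hij => ?_)
    · rw [ag.e' i hi, ag.e' j hj, ag.D i hi j hj]; exact hd.he i hi j hj
    · rw [ee, ag.e' k hk, eD k hk]; exact he k hk
    · rw [dist_self, eDD]
    · rw [dist_comm, ← hsymm i hi j hj]; exact hij
  · refine pair_succ (fun i hi j hj => ?_) (fun k hk => ?_) ?_ (fun i hi j hj hij => ?_)
    · rw [ag.z i hi, ag.z j hj, ag.D i hi j hj]; exact hd.hz i hi j hj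
    · rw [ez, ag.z k hk, eD k hk]; exact hz k hk
    · rw [dist_self, eDD]
    · rw [dist_comm, ← hsymm i hi j hj]; exact hij
  · refine pair_succ (fun i hi j hj => ?_) (fun k hk => ?_) ?_ (fun i hi j hj hij => ?_)
    · rw [ag.att hi hj, ag.D i hi j hj]; exact hd.h1' i hi j hj
    · rw [eatt k hk, eD k hk]; exact h1 k hk
    · rw [eDD]; unfold Dat.att; rw [att_self]
    · unfold Dat.att; rw [att_comm, ← hsymm i hi j hj]; exact hij
  · intro t ht hAt k hk l hl'
    rcases Nat.lt_or_ge t n with htn | htn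
    · rw [ag.D (t+1) htn k (by omega), ag.att (show t+1 ≤ n from htn) (by omega),
        ag.D l (by omega) k (by omega)]
      exact hd.A_le t htn ((ag.isA (t+1) htn).1 hAt) k hk l hl'
    · obtain rfl : t = n := by omega
      rw [eA] at hAt
      rw [eD k hk, eatt l hl', ag.D l hl' k hk]
      exact (hA hAt k hk).1 l hl'
  · intro t ht hAt k hk
    rcases Nat.lt_or_ge t n with htn | htn
    · obtain ⟨l, hl', hl2⟩ := hd.A_eq t htn ((ag.isA (t+1) htn).1 hAt) k hk
      refine ⟨l, hl', ?_⟩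
      rw [ag.D (t+1) htn k (by omega), ag.att (show t+1 ≤ n from htn) (by omega),
        ag.D l (by omega) k (by omega)]
      exact hl2
    · obtain rfl : t = n := by omega
      rw [eA] at hAt
      obtain ⟨l, hl', hl2⟩ := (hA hAt k hk).2
      refine ⟨l, hl', ?_⟩
      rw [eD k hk, eatt l hl', ag.D l hl' k hk]
      exact hl2
  · intro t ht hBt q y hy
    rcases Nat.lt_or_ge t n with htn | htn
    · obtain ⟨q', h1, h2⟩ := hd.hedge t htn (fun hh => hBt ((ag.isA (t+1) htn).2 hh)) q y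
        (fun k hk => by
          have := hy k hk
          rwa [ag.z k (by omega), ag.D (t+1) htn k (by omega)] at this)
      refine ⟨q', fun k hk => ?_, ?_⟩
      · rw [ag.z k (by omega)]; exact h1 k hk
      · rw [ag.z (t+1) htn]; exact h2
    · obtain rfl : t = n := by omega
      rw [eA] at hBt
      obtain ⟨q', h1, h2⟩ := hB hBt q y (fun k hk => by
          have := hy k hk
          rwa [ag.z k hk, eD k hk] at this)
      refine ⟨q', fun k hk => ?_, ?_⟩
      · rw [ag.z k hk]; exact h1 k hk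
      · rw [ez]; exact h2

end pos

end P124H186
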