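import Vale.Agent.P124.H186.Play

/-!
P124 (helper510), piece T7 of helper186's specification: from the infinite play to the
bi-Lipschitz bijection `h`.
-/

open scoped NNReal ZeroAtInfty
open Filter Topology TopologicalSpace

namespace P124H186

namespace H510

/-! ### extension of a bi-Lipschitz correspondence between two dense sequences -/

section Ext

variable {X X' : Type*} [MetricSpace X] [MetricSpace X'] {a : ℕ → X} {b : ℕ → X'} {C : ℝ}

theorem limit_le (hab : ∀ k l, dist (b k) (b l) ≤ C * dist (a k) (a l))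
    {k l : ℕ → ℕ} {x y : X} {x' y' : X'} (hk : Tendsto (fun n => a (k n)) atTop (𝓝 x))
    (hk' : Tendsto (fun n => b (k n)) atTop (𝓝 x')) (hl : Tendsto (fun n => a (l n)) atTop (𝓝 y))
    (hl' : Tendsto (fun n => b (l n)) atTop (𝓝 y')) : dist x' y' ≤ C * dist x y :=
  le_of_tendsto_of_tendsto' (hk'.dist hl') ((hk.dist hl).const_mul C) fun _ => hab _ _

theorem exists_seq (ha : DenseRange a) (x : X) :
    ∃ k : ℕ → ℕ, Tendsto (fun n => a (k n)) atTop (𝓝 x) := by
  have h : ∀ n : ℕ, ∃ k, dist x (a k) < 1 / ((n : ℝ) + 1) := fun n =>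
    ha.exists_dist_lt x (by positivity)
  choose k hk using h
  refine ⟨k, tendsto_iff_dist_tendsto_zero.2 ?_⟩
  refine squeeze_zero (fun _ => dist_nonneg) (fun n => ?_) tendsto_one_div_add_atTop_nhds_zero_nat
  rw [dist_comm]
  exact (hk n).le

theorem exists_lim [CompleteSpace X'] (hC : 0 < C)
    (hab : ∀ k l, dist (b k) (b l) ≤ C * dist (a k) (a l)) {k : ℕ → ℕ} {x : X}
    (hk : Tendsto (fun n => a (k n)) atTop (𝓝 x)) :
    ∃ x' : X', Tendsto (fun n => b (k n)) atTop (𝓝 x') := by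
  apply cauchySeq_tendsto_of_complete
  have h := hk.cauchySeq
  rw [Metric.cauchySeq_iff] at h ⊢
  intro ε hε
  obtain ⟨N, hN⟩ := h (ε / C) (div_pos hε hC)
  refine ⟨N, fun m hm n hn => lt_of_le_of_lt (hab _ _) ?_⟩
  have := hN m hm n hn
  rw [lt_div_iff₀ hC] at this
  linarith

/-- two dense sequences in complete metric spaces with comparable distances define a
bi-Lipschitz bijection -/
theorem exists_equiv [CompleteSpace X] [CompleteSpace X'] (ha : DenseRange a) (hb : DenseRange b)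
    (hC : 0 < C) (hab : ∀ k l, dist (b k) (b l) ≤ C * dist (a k) (a l))
    (hba : ∀ k l, dist (a k) (a l) ≤ C * dist (b k) (b l)) :
    ∃ h : X ≃ X', (∀ k, h (a k) = b k) ∧ (∀ x y, dist (h x) (h y) ≤ C * dist x y) ∧
      (∀ x y, dist (h.symm x) (h.symm y) ≤ C * dist x y) := by
  have h1 : ∀ x : X, ∃ x' : X', ∃ k : ℕ → ℕ, Tendsto (fun n => a (k n)) atTop (𝓝 x) ∧
      Tendsto (fun n => b (k n)) atTop (𝓝 x') := by
    intro x
    obtain ⟨k, hk⟩ := exists_seq ha x
    obtain ⟨x', hx'⟩ := exists_lim hC hab hk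
    exact ⟨x', k, hk, hx'⟩
  have h2 : ∀ x' : X', ∃ x : X, ∃ k : ℕ → ℕ, Tendsto (fun n => a (k n)) atTop (𝓝 x) ∧
      Tendsto (fun n => b (k n)) atTop (𝓝 x') := by
    intro x'
    obtain ⟨k, hk⟩ := exists_seq hb x'
    obtain ⟨x, hx⟩ := exists_lim hC hba hk
    exact ⟨x, k, hx, hk⟩
  choose f kf hf hf' using h1
  choose g kg hg hg' using h2
  have hff : ∀ x y, dist (f x) (f y) ≤ C * dist x y := fun x y =>
    limit_le hab (hf x) (hf' x) (hf y) (hf' y)
  have hgg : ∀ x y, dist (g x) (g y) ≤ C * dist x y := fun x y =>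
    limit_le hba (hg' x) (hg x) (hg' y) (hg y)
  have hgf : ∀ x, g (f x) = x := by
    intro x
    have h := limit_le hba (hg' (f x)) (hg (f x)) (hf' x) (hf x)
    rw [dist_self, mul_zero] at h
    exact dist_le_zero.1 h
  have hfg : ∀ x, f (g x) = x := by
    intro x
    have h := limit_le hab (hf (g x)) (hf' (g x)) (hg x) (hg' x)
    rw [dist_self, mul_zero] at h
    exact dist_le_zero.1 h
  refine ⟨⟨f, g, hgf, hfg⟩, fun k => ?_, hff, hgg⟩
  have h := limit_le hab (hf (a k)) (hf' (a k)) (k := kf (a k)) (l := fun _ => k)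
    (tendsto_const_nhds (x := a k)) (tendsto_const_nhds (x := b k))
  rw [dist_self, mul_zero] at h
  exact dist_le_zero.1 h

end Ext

end H510

open H510 in
/-- **T7** from the infinite play to the homeomorphism `h` -/
theorem T7_limit (W : Type) [MetricSpace W] (E : Type) [NormedAddCommGroup E] [NormedSpace ℝ E]
    [CompleteSpace E] (ec : ℕ → E) (hec : DenseRange ec) (zc : ℕ → Z) (hzc : DenseRange zc)
    (p : Play W E ec zc) :
    ∃ (Y : Type) (_ : MetricSpace Y) (y₀ : Y) (h : (Y × E) × Y ≃ (Y × E) × Z) (L : ℝ≥0)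
      (ρ : Z → Y × E), LipschitzWith L h ∧ LipschitzWith L h.symm ∧
      h ((y₀, 0), y₀) = ((y₀, 0), 0) ∧ ∀ m z, (h.symm (m, z)).1 = ρ z := by
  classical
  set Ws : Set W := Set.range p.U' ∪ Set.range p.U ∪ Set.range p.V with hWs
  have hU' : ∀ k, p.U' k ∈ Ws := fun k => Or.inl (Or.inl ⟨k, rfl⟩)
  have hU : ∀ k, p.U k ∈ Ws := fun k => Or.inl (Or.inr ⟨k, rfl⟩)
  have hV : ∀ k, p.V k ∈ Ws := fun k => Or.inr ⟨k, rfl⟩
  -- the complete space of used points
  let Y : Type := UniformSpace.Completion Ws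
  let ι : Ws → Y := fun w => (w : UniformSpace.Completion Ws)
  have hι : ∀ v w : Ws, dist (ι v) (ι w) = dist (v : W) (w : W) := fun v w =>
    UniformSpace.Completion.dist_eq v w
  have hιd : DenseRange ι := UniformSpace.Completion.denseRange_coe
  let u' : ℕ → Y := fun k => ι ⟨p.U' k, hU' k⟩
  let u : ℕ → Y := fun k => ι ⟨p.U k, hU k⟩
  let v : ℕ → Y := fun k => ι ⟨p.V k, hV k⟩
  let a : ℕ → (Y × E) × Y := fun k => ((u k, p.e k), v k)
  let b : ℕ → (Y × E) × Z := fun k => ((u' k, p.e' k), p.z k)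
  have hu' : ∀ k l, dist (u' k) (u' l) = dist (p.U' k) (p.U' l) := fun k l => hι _ _
  have hu : ∀ k l, dist (u k) (u l) = dist (p.U k) (p.U l) := fun k l => hι _ _
  have hv : ∀ k l, dist (v k) (v l) = dist (p.V k) (p.V l) := fun k l => hι _ _
  have hda : ∀ k l, dist (a k) (a l) =
      max (max (dist (p.U k) (p.U l)) (dist (p.e k) (p.e l))) (dist (p.V k) (p.V l)) := by
    intro k l
    rw [Prod.dist_eq, Prod.dist_eq, ← hu, ← hv]
  have hdb : ∀ k l, dist (b k) (b l) =
      max (max (dist (p.U' k) (p.U' l)) (dist (p.e' k) (p.e' l))) (dist (p.z k) (p.z l)) := by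
    intro k l
    rw [Prod.dist_eq, Prod.dist_eq, ← hu']
  -- density
  have hadense : DenseRange a := by
    have h1 : DenseRange (fun q : (Ws × ℕ) × Ws => (((ι q.1.1, ec q.1.2), ι q.2) : (Y × E) × Y)) :=
      (hιd.prodMap hec).prodMap hιd
    refine h1.mono ?_
    rintro _ ⟨⟨⟨y, i⟩, y'⟩, rfl⟩
    obtain ⟨k, hk1, hk2, hk3⟩ := p.dB y y.2 y' y'.2 i
    refine ⟨k, ?_⟩
    have e1 : (⟨p.U k, hU k⟩ : Ws) = y := Subtype.ext hk1
    have e2 : (⟨p.V k, hV k⟩ : Ws) = y' := Subtype.ext hk3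
    simp only [a, u, v, e1, e2, hk2]
  have hbdense : DenseRange b := by
    have h1 : DenseRange (fun q : (Ws × ℕ) × ℕ => (((ι q.1.1, ec q.1.2), zc q.2) : (Y × E) × Z)) :=
      (hιd.prodMap hec).prodMap hzc
    refine h1.mono ?_
    rintro _ ⟨⟨⟨y, i⟩, j⟩, rfl⟩
    obtain ⟨k, hk1, hk2, hk3⟩ := p.dA y y.2 i j
    refine ⟨k, ?_⟩
    have e1 : (⟨p.U' k, hU' k⟩ : Ws) = y := Subtype.ext hk1
    simp only [b, u', e1, hk2, hk3]
  -- comparison
  have hab : ∀ k l, dist (b k) (b l) ≤ 10 ^ 16 * dist (a k) (a l) := by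
    intro k l
    have h1 := p.h1 k l
    have h3 := p.h3' k l
    have e1 : dist (p.V k) (p.V l) ≤ dist (a k) (a l) := by rw [hda]; exact le_max_right _ _
    have e2 : max (dist (p.U k) (p.U l)) (dist (p.e k) (p.e l)) ≤ dist (a k) (a l) := by
      rw [hda]; exact le_max_left _ _
    have e3 : dist (b k) (b l) ≤ p.D k l := by
      rw [hdb]; exact max_le (max_le h1.1 h1.2.1) h1.2.2
    have e4 : 0 ≤ dist (a k) (a l) := dist_nonneg
    nlinarith
  have hba : ∀ k l, dist (a k) (a l) ≤ 10 ^ 16 * dist (b k) (b l) := by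
    intro k l
    have h1 := p.h3 k l
    have h3 := p.h1' k l
    have e1 : dist (p.U' k) (p.U' l) ≤ dist (b k) (b l) := by
      rw [hdb]; exact le_trans (le_max_left _ _) (le_max_left _ _)
    have e2 : dist (p.e' k) (p.e' l) ≤ dist (b k) (b l) := by
      rw [hdb]; exact le_trans (le_max_right _ _) (le_max_left _ _)
    have e3 : dist (p.z k) (p.z l) ≤ dist (b k) (b l) := by rw [hdb]; exact le_max_right _ _
    have f1 : dist (p.U k) (p.U l) ≤ p.D k l := by
      have := dist_nonneg (x := p.U k) (y := p.U l)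
      linarith [h1.2.1]
    have f2 : dist (p.e k) (p.e l) ≤ p.D k l := by
      have := dist_nonneg (x := p.e k) (y := p.e l)
      linarith [h1.2.2]
    have e5 : dist (a k) (a l) ≤ p.D k l := by
      rw [hda]; exact max_le (max_le f1 f2) h1.1
    have e4 : 0 ≤ dist (b k) (b l) := dist_nonneg
    nlinarith
  obtain ⟨h, hk, hL, hL'⟩ := exists_equiv hadense hbdense (by norm_num : (0 : ℝ) < 10 ^ 16) hab hba
  have hkey : ∀ x y : (Y × E) × Z, dist (h.symm x).1 (h.symm y).1 ≤ dist x.2 y.2 := by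
    intro x y
    obtain ⟨k, hk1⟩ := exists_seq hbdense x
    obtain ⟨l, hl1⟩ := exists_seq hbdense y
    have hcont : Continuous h.symm := by
      refine (LipschitzWith.of_dist_le_mul (K := (10 : ℝ≥0) ^ 16) fun x y => ?_).continuous
      have := hL' x y
      simpa using this
    have hsk : ∀ n, h.symm (b n) = a n := fun n => by rw [← hk, Equiv.symm_apply_apply]
    have t1 : Tendsto (fun n => (h.symm (b (k n))).1) atTop (𝓝 (h.symm x).1) :=
      ((continuous_fst.comp hcont).tendsto x).comp hk1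
    have t2 : Tendsto (fun n => (h.symm (b (l n))).1) atTop (𝓝 (h.symm y).1) :=
      ((continuous_fst.comp hcont).tendsto y).comp hl1
    have t3 : Tendsto (fun n => (b (k n)).2) atTop (𝓝 x.2) := (continuous_snd.tendsto x).comp hk1
    have t4 : Tendsto (fun n => (b (l n)).2) atTop (𝓝 y.2) := (continuous_snd.tendsto y).comp hl1
    refine le_of_tendsto_of_tendsto' (t1.dist t2) (t3.dist t4) fun n => ?_
    rw [hsk, hsk]
    have h2 := p.h2 (k n) (l n)
    rw [Prod.dist_eq]
    refine max_le ?_ h2.2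
    show dist (u (k n)) (u (l n)) ≤ _
    rw [hu]
    exact h2.1
  refine ⟨Y, inferInstance, u' 0, h, 10 ^ 16, fun z => (h.symm ((u' 0, 0), z)).1, ?_, ?_, ?_, ?_⟩
  · refine LipschitzWith.of_dist_le_mul fun x y => ?_
    simpa using hL x y
  · refine LipschitzWith.of_dist_le_mul fun x y => ?_
    simpa using hL' x y
  · have h0 := p.h00
    have e1 : u 0 = u' 0 := by
      have : (⟨p.U 0, hU 0⟩ : Ws) = ⟨p.U' 0, hU' 0⟩ := Subtype.ext h0.1.symm
      simp only [u, u', this]
    have e2 : v 0 = u' 0 := by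
      have : (⟨p.V 0, hV 0⟩ : Ws) = ⟨p.U' 0, hU' 0⟩ :=
        Subtype.ext (h0.2.1.symm.trans h0.1.symm)
      simp only [v, u', this]
    have e3 := hk 0
    simp only [a, b, e1, e2, h0.2.2.1, h0.2.2.2.1, h0.2.2.2.2] at e3
    exact e3
  · intro m z
    have := hkey (m, z) ((u' 0, 0), z)
    rw [dist_self] at this
    exact dist_le_zero.1 this

end P124H186
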